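import Vale.Agent.P253.R2.H922.Disc
import Vale.Agent.P253.Mfd.Defs

/-!
P253: sections of a locally biholomorphic map `π : M → E` are étale; locally biholomorphic maps
with unbounded section radii are biholomorphic.
-/

open scoped Manifold ContDiff Topology
open Set Metric Filter IsManifold

set_option linter.unusedSectionVars false

namespace Vale.Agent.P253.R2.H922

variable {E : Type*} [NormedAddCommGroup E] [NormedSpace ℂ E]
  {M : Type*} [TopologicalSpace M] [ChartedSpace E M] [IsManifold 𝓘(ℂ, E) 1 M]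

theorem mem_maximalAtlas_of_contMDiffOn {e : OpenPartialHomeomorph M E}
    (h1 : ContMDiffOn 𝓘(ℂ, E) 𝓘(ℂ, E) 1 e e.source)
    (h2 : ContMDiffOn 𝓘(ℂ, E) 𝓘(ℂ, E) 1 e.symm e.target) : e ∈ maximalAtlas 𝓘(ℂ, E) 1 M := by
  rw [IsManifold.mem_maximalAtlas_iff, _root_.mem_maximalAtlas_iff]
  intro e' he'
  have he'1 : e' ∈ maximalAtlas 𝓘(ℂ, E) 1 M := subset_maximalAtlas he'
  have h3 := contMDiffOn_of_mem_maximalAtlas he'1
  have h4 := contMDiffOn_symm_of_mem_maximalAtlas he'1
  have k1 : ContDiffOn ℂ 1 (e' ∘ e.symm) (e.symm.trans e').source := by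
    rw [← contMDiffOn_iff_contDiffOn]
    refine h3.comp (h2.mono ?_) ?_
    · intro z hz
      simp only [OpenPartialHomeomorph.trans_source, OpenPartialHomeomorph.symm_source,
        mem_inter_iff] at hz
      exact hz.1
    · intro z hz
      simp only [OpenPartialHomeomorph.trans_source, OpenPartialHomeomorph.symm_source,
        mem_inter_iff] at hz
      exact hz.2
  have k2 : ContDiffOn ℂ 1 (e ∘ e'.symm) (e'.symm.trans e).source := by
    rw [← contMDiffOn_iff_contDiffOn]
    refine h1.comp (h4.mono ?_) ?_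
    · intro z hz
      simp only [OpenPartialHomeomorph.trans_source, OpenPartialHomeomorph.symm_source,
        mem_inter_iff] at hz
      exact hz.1
    · intro z hz
      simp only [OpenPartialHomeomorph.trans_source, OpenPartialHomeomorph.symm_source,
        mem_inter_iff] at hz
      exact hz.2
  constructor
  · rw [contDiffGroupoid, mem_groupoid_of_pregroupoid]
    constructor
    · simpa [contDiffPregroupoid] using! k1
    · simpa [contDiffPregroupoid] using! k2
  · rw [contDiffGroupoid, mem_groupoid_of_pregroupoid]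
    constructor
    · simpa [contDiffPregroupoid] using! k2
    · simpa [contDiffPregroupoid] using! k1

theorem partialDiffeomorph_mem (Ψ : PartialDiffeomorph 𝓘(ℂ, E) 𝓘(ℂ, E) M E 1) :
    Ψ.toOpenPartialHomeomorph ∈ maximalAtlas 𝓘(ℂ, E) 1 M :=
  mem_maximalAtlas_of_contMDiffOn Ψ.contMDiffOn_toFun Ψ.contMDiffOn_invFun

/-- a continuous section of a locally biholomorphic map is given by inverse charts -/
theorem exists_chart_of_sec {π : M → E} {G : Set E} {S : E → M} {x : E}
    (hπ : IsLocalDiffeomorphAt 𝓘(ℂ, E) 𝓘(ℂ, E) 1 π (S x)) (hG : IsOpen G) (hS : SecOn π G S)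
    (hx : x ∈ G) :
    ∃ e ∈ maximalAtlas 𝓘(ℂ, E) 1 M, x ∈ e.target ∧ e.target ⊆ G ∧ EqOn S e.symm e.target := by
  obtain ⟨Ψ, hm, hΨ⟩ := hπ
  set e := Ψ.toOpenPartialHomeomorph with he
  have heM : e ∈ maximalAtlas 𝓘(ℂ, E) 1 M := partialDiffeomorph_mem Ψ
  have hΨ' : EqOn π e e.source := hΨ
  -- the open set of the points of `G` which `S` maps into the source of `e`
  have hV : IsOpen (G ∩ S ⁻¹' e.source) := hS.1.isOpen_inter_preimage hG e.open_source
  have hxV : x ∈ G ∩ S ⁻¹' e.source := ⟨hx, hm⟩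
  have hVt : ∀ y ∈ G ∩ S ⁻¹' e.source, y ∈ e.target ∧ e.symm y = S y := by
    intro y hy
    have h1 : e (S y) = y := by rw [← hΨ' hy.2]; exact hS.2 y hy.1
    constructor
    · rw [← h1]; exact e.map_source hy.2
    · conv_lhs => rw [← h1]
      exact e.left_inv hy.2
  -- restrict the chart
  set e' : OpenPartialHomeomorph M E := (e.symm.restrOpen (G ∩ S ⁻¹' e.source) hV).symm with he'
  have ht : e'.target = e.target ∩ (G ∩ S ⁻¹' e.source) := rfl
  have hs : ∀ z, e'.symm z = e.symm z := fun z => rfl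
  refine ⟨e', ?_, ?_, ?_, ?_⟩
  · apply mem_maximalAtlas_of_contMDiffOn
    · have h1 := contMDiffOn_of_mem_maximalAtlas heM
      refine h1.mono ?_
      intro y hy
      have h2 : e' y ∈ e'.target := e'.map_source hy
      rw [ht] at h2
      have h3 := e'.left_inv hy
      rw [hs] at h3
      rw [← h3]
      exact e.map_target h2.1
    · have h1 := contMDiffOn_symm_of_mem_maximalAtlas heM
      exact h1.mono (by rw [ht]; exact inter_subset_left)
  · rw [ht]; exact ⟨(hVt x hxV).1, hxV⟩
  · rw [ht]; exact fun y hy => hy.2.1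
  · intro y hy
    rw [ht] at hy
    rw [hs]
    exact (hVt y hy.2).2.symm

section global

variable [T2Space M] {π : M → E}

/-- if the radii are unbounded at one point, `π` is a bijection -/
theorem bijective_of_not_bddAbove [PreconnectedSpace M] (hπ : IsLocalHomeomorph π) {y : M}
    (hb : ¬ BddAbove (radii π y)) : Function.Bijective π := by
  obtain ⟨σ, h1, h2⟩ := exists_sec_iUnion hπ y
  have huniv : (⋃ r : radii π y, ball (π y) (r : ℝ)) = univ := by
    rw [eq_univ_iff_forall]
    intro x
    rw [not_bddAbove_iff] at hb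
    obtain ⟨r, hr, hxr⟩ := hb (dist x (π y))
    exact mem_iUnion.2 ⟨⟨r, hr⟩, hxr⟩
  rw [huniv] at h1
  have hσc : Continuous σ := continuousOn_univ.1 h1.1
  have hπσ : ∀ x, π (σ x) = x := fun x => h1.2 x (mem_univ x)
  have hcl : IsClosed {m : M | σ (π m) = m} := isClosed_eq (hσc.comp hπ.continuous) continuous_id
  have hop : IsOpen {m : M | σ (π m) = m} := by
    rw [isOpen_iff_mem_nhds]
    intro m hm
    exact sec_eventually hπ one_pos (h1.mono (subset_univ _)) hm
  have hall : {m : M | σ (π m) = m} = univ := IsClopen.eq_univ ⟨hcl, hop⟩ ⟨y, h2⟩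
  constructor
  · intro m m' h
    have e1 : σ (π m) = m := by
      have : m ∈ {m : M | σ (π m) = m} := hall ▸ mem_univ m
      exact this
    have e2 : σ (π m') = m' := by
      have : m' ∈ {m : M | σ (π m) = m} := hall ▸ mem_univ m'
      exact this
    rw [← e1, h, e2]
  · exact fun x => ⟨σ x, hπσ x⟩

/-- if the radii are unbounded at one point, `π` is a biholomorphism onto `E` -/
theorem exists_diffeo_of_not_bddAbove [PreconnectedSpace M]
    (hπ : IsLocalDiffeomorph 𝓘(ℂ, E) 𝓘(ℂ, E) 1 π) {y : M} (hb : ¬ BddAbove (radii π y)) :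
    ∃ F : M ≃ₘ^1⟮𝓘(ℂ, E), 𝓘(ℂ, E)⟯ E, ∀ x, F x = π x :=
  ⟨hπ.diffeomorphOfBijective (bijective_of_not_bddAbove hπ.isLocalHomeomorph hb), fun _ => rfl⟩

end global

end Vale.Agent.P253.R2.H922
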