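import Vale.Agent.P253.R2.H922.Compl

/-!
P253: Riemann domains `π : M → E` and open subsets of `E`.
-/

open scoped Manifold ContDiff Topology
open Set Metric Filter IsManifold

set_option linter.unusedSectionVars false

namespace Vale.Agent.P253.R2.H922

section defs

variable (E : Type*) [NormedAddCommGroup E] [NormedSpace ℂ E]
  {M : Type*} [TopologicalSpace M] [ChartedSpace E M]

/-- the function `u` on the complex manifold `M` is continuous and plurisubharmonic: it satisfies
the sub-mean value inequality along all holomorphic discs of `M` -/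
def IsContPsh (u : M → ℝ) : Prop :=
  Continuous u ∧ ∀ (f : ℂ → M) (c : ℂ) (r : ℝ), 0 < r → ContinuousOn f (closedBall c r) →
    MDifferentiableOn 𝓘(ℂ, ℂ) 𝓘(ℂ, E) f (ball c r) →
    u (f c) ≤ Real.circleAverage (fun z => u (f z)) c r

end defs

variable {E : Type*} [NormedAddCommGroup E] [NormedSpace ℂ E] [FiniteDimensional ℂ E]
  {M : Type*} [TopologicalSpace M] [T2Space M] [ChartedSpace E M] [IsManifold 𝓘(ℂ, E) 1 M]
  {π : M → E}

theorem KeyProp.isEmpty (hKP : KeyProp E M) (hπ : IsLocalDiffeomorph 𝓘(ℂ, E) 𝓘(ℂ, E) 1 π) :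
    IsEmpty (HartogsFamily π) := by
  refine ⟨fun F => ?_⟩
  exact hKP F.G F.Φ F.c0 F.c1 F.z0 F.r F.U F.isOpen_G
    (fun x hx => exists_chart_of_sec (hπ (F.Φ x)) F.isOpen_G F.sec hx) F.r_pos
    F.isOpen_U F.closedBall_subset F.diff0 F.diff1 F.mem F.not_mem F.escape

/-- **Riemann domains over `E` are pseudoconvex** -/
theorem KeyProp.psh (hKP : KeyProp E M) (hπ : IsLocalDiffeomorph 𝓘(ℂ, E) 𝓘(ℂ, E) 1 π)
    (hb : ∀ m, BddAbove (radii π m)) : IsContPsh E (fun y => -Real.log (bdist π y)) := by
  have hl := hπ.isLocalHomeomorph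
  refine ⟨?_, fun f c r hr hf hf' => ?_⟩
  · exact ((continuous_bdist hl hb).log fun y => (bdist_pos hl (hb y)).ne').neg
  · by_contra hcon
    push Not at hcon
    have hd : DifferentiableOn ℂ (fun z => π (f z)) (ball c r) := by
      have h1 : MDifferentiable 𝓘(ℂ, E) 𝓘(ℂ, E) π := hπ.mdifferentiable (by simp)
      have h2 : MDifferentiableOn 𝓘(ℂ, ℂ) 𝓘(ℂ, E) (π ∘ f) (ball c r) := h1.comp_mdifferentiableOn hf'
      exact h2.differentiableOn
    obtain ⟨F, -⟩ := exists_hartogs_of_lt hl hb hr hf hd hcon
    exact (hKP.isEmpty hπ).false F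

theorem norm_submean {g : ℂ → E} {c : ℂ} {r : ℝ} (hr : 0 < r) (hg : ContinuousOn g (closedBall c r))
    (hg' : DifferentiableOn ℂ g (ball c r)) :
    ‖g c‖ ≤ Real.circleAverage (fun z => ‖g z‖) c r := by
  have : CompleteSpace E := FiniteDimensional.complete ℂ E
  have h1 : DiffContOnCl ℂ g (ball c |r|) := by
    rw [abs_of_pos hr]
    refine ⟨hg', ?_⟩
    rw [closure_ball c hr.ne']
    exact hg
  rw [← h1.circleAverage]
  simp only [Real.circleAverage]
  rw [norm_smul, Real.norm_of_nonneg (by positivity), smul_eq_mul]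
  gcongr
  exact intervalIntegral.norm_integral_le_integral_norm (by positivity)

theorem bddAbove_of_not_surjective {m : M} (h : ¬ Function.Surjective π) :
    BddAbove (radii π m) := by
  rw [Function.Surjective] at h
  push Not at h
  obtain ⟨x, hx⟩ := h
  refine ⟨dist x (π m), fun r hr => ?_⟩
  obtain ⟨σ, h1, h2⟩ := hr
  by_contra hlt
  push Not at hlt
  exact hx (σ x) (h1.2 x hlt)

/-- for open subsets of `E`, `bdist` is the distance to the complement -/
theorem bdist_eq_infDist (hπ : IsLocalHomeomorph π) (hinj : Function.Injective π)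
    (hs : ¬ Function.Surjective π) (m : M) : bdist π m = infDist (π m) (range π)ᶜ := by
  have hoe := hπ.isOpenEmbedding_of_injective hinj
  have hb : BddAbove (radii π m) := bddAbove_of_not_surjective hs
  have hne : ((range π)ᶜ : Set E).Nonempty := by
    rw [nonempty_compl]
    exact fun h => hs (range_eq_univ.1 h)
  have : Nonempty M := ⟨m⟩
  apply le_antisymm
  · refine le_of_forall_lt fun r hr => ?_
    obtain ⟨r', hr', hrr'⟩ := exists_lt_of_lt_csSup ⟨0, zero_mem_radii m⟩ hr
    refine hrr'.trans_le ?_
    obtain ⟨σ, h1, h2⟩ := hr'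
    refine (le_infDist hne).2 fun x hx => ?_
    by_contra hlt
    push Not at hlt
    rw [dist_comm] at hlt
    exact hx ⟨σ x, h1.2 x hlt⟩
  · refine le_csSup hb ⟨Function.invFun π, ⟨?_, ?_⟩, Function.leftInverse_invFun hinj m⟩
    · rw [hoe.isInducing.continuousOn_iff]
      refine continuousOn_id.congr fun x hx => ?_
      exact Function.invFun_eq (by
        by_contra h
        have h1 : x ∈ (range π)ᶜ := h
        have h2 := infDist_le_dist_of_mem (x := π m) h1
        rw [mem_ball, dist_comm] at hx
        linarith)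
    · intro x hx
      exact Function.invFun_eq (by
        by_contra h
        have h1 : x ∈ (range π)ᶜ := h
        have h2 := infDist_le_dist_of_mem (x := π m) h1
        rw [mem_ball, dist_comm] at hx
        linarith)

/-- **Open subsets of `E`** have a continuous plurisubharmonic exhaustion function -/
theorem KeyProp.exhaustion (hKP : KeyProp E M) (hπ : IsLocalDiffeomorph 𝓘(ℂ, E) 𝓘(ℂ, E) 1 π)
    (hinj : Function.Injective π) :
    ∃ u : M → ℝ, IsContPsh E u ∧ ∀ t : ℝ, IsCompact {x | u x ≤ t} := by
  have hl := hπ.isLocalHomeomorph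
  have hoe := hl.isOpenEmbedding_of_injective hinj
  have hproper : ProperSpace E := FiniteDimensional.proper ℂ E
  have hnorm : IsContPsh E (fun y => ‖π y‖) := by
    refine ⟨hl.continuous.norm, fun f c r hr hf hf' => ?_⟩
    have h1 : MDifferentiable 𝓘(ℂ, E) 𝓘(ℂ, E) π := hπ.mdifferentiable (by simp)
    have h2 : MDifferentiableOn 𝓘(ℂ, ℂ) 𝓘(ℂ, E) (π ∘ f) (ball c r) := h1.comp_mdifferentiableOn hf'
    exact norm_submean hr (hl.continuous.comp_continuousOn hf) h2.differentiableOn
  by_cases hs : Function.Surjective π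
  · refine ⟨fun y => ‖π y‖, hnorm, fun t => ?_⟩
    have h1 : IsCompact (closedBall (0:E) t) := isCompact_closedBall 0 t
    have h2 : {x : M | ‖π x‖ ≤ t} = π ⁻¹' (closedBall 0 t) := by ext x; simp
    rw [h2]
    exact hoe.isInducing.isCompact_preimage' h1 (by rw [hs.range_eq]; exact subset_univ _)
  · have hb : ∀ m, BddAbove (radii π m) := fun m => bddAbove_of_not_surjective hs
    have hpsh := hKP.psh hπ hb
    refine ⟨fun y => max (-Real.log (bdist π y)) ‖π y‖, ⟨hpsh.1.max hnorm.1, ?_⟩, ?_⟩
    · intro f c r hr hf hf'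
      have hsub : sphere c |r| ⊆ closedBall c r := by
        rw [abs_of_pos hr]; exact sphere_subset_closedBall
      have i1 : CircleIntegrable (fun z => -Real.log (bdist π (f z))) c r :=
        (hpsh.1.comp_continuousOn (hf.mono (hsub.trans' (by rw [abs_of_pos hr])))).circleIntegrable hr.le
      have i2 : CircleIntegrable (fun z => ‖π (f z)‖) c r :=
        (hnorm.1.comp_continuousOn (hf.mono (hsub.trans' (by rw [abs_of_pos hr])))).circleIntegrable hr.le
      have i3 : CircleIntegrable (fun z => max (-Real.log (bdist π (f z))) ‖π (f z)‖) c r :=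
        ((hpsh.1.max hnorm.1).comp_continuousOn
          (hf.mono (hsub.trans' (by rw [abs_of_pos hr])))).circleIntegrable hr.le
      refine max_le ((hpsh.2 f c r hr hf hf').trans ?_) ((hnorm.2 f c r hr hf hf').trans ?_)
      · exact Real.circleAverage_mono i1 i3 fun z _ => le_max_left _ _
      · exact Real.circleAverage_mono i2 i3 fun z _ => le_max_right _ _
    · intro t
      have h1 : IsCompact (closedBall (0:E) t ∩ {x | Real.exp (-t) ≤ infDist x (range π)ᶜ}) :=
        (isCompact_closedBall 0 t).inter_right (isClosed_le continuous_const (continuous_infDist_pt _))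
      have h2 : {x : M | max (-Real.log (bdist π x)) ‖π x‖ ≤ t} =
          π ⁻¹' (closedBall (0:E) t ∩ {x | Real.exp (-t) ≤ infDist x (range π)ᶜ}) := by
        ext x
        have hp := bdist_pos hl (hb x)
        simp only [mem_ofPred_eq, mem_preimage, mem_inter_iff, mem_closedBall, dist_zero_right,
          max_le_iff, ← bdist_eq_infDist hl hinj hs]
        rw [neg_le, Real.le_log_iff_exp_le hp]
        tauto
      rw [h2]
      refine hoe.isInducing.isCompact_preimage' h1 ?_
      rintro x ⟨-, hx⟩
      by_contra h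
      have h3 : infDist x (range π)ᶜ = 0 := infDist_zero_of_mem h
      have h4 : Real.exp (-t) ≤ infDist x (range π)ᶜ := hx
      rw [h3] at h4
      exact absurd (Real.exp_pos (-t)) (not_lt.2 h4)

end Vale.Agent.P253.R2.H922
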