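import Vale.Agent.P253.R2.H922.Over

/-!
P253: the complement of an open subset `M` of a complex manifold `N` which satisfies the key
proposition is pseudoconcave; it has no compact relatively open part in a chart.
-/

open scoped Manifold ContDiff Topology
open Set Metric Filter IsManifold

set_option linter.unusedSectionVars false

namespace Vale.Agent.P253.R2.H922

section top

variable {E : Type*} [NormedAddCommGroup E] [NormedSpace ℝ E]
  {M : Type*} [TopologicalSpace M] [T2Space M] {N : Type*} [TopologicalSpace N]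
  {j : M → N} {e : OpenPartialHomeomorph N E}

/-- continuity of the distance to the boundary over a chart -/
theorem continuousOn_bdistOver (hj : IsLocalHomeomorph j) (hne : e.target ≠ univ) {X : Type*}
    [TopologicalSpace X] {f : X → M} {s : Set X} (hf : ContinuousOn f s)
    (hfe : ∀ z ∈ s, j (f z) ∈ e.source) : ContinuousOn (fun z => bdistOver j e (f z)) s := by
  have hc : Continuous (bdist (proj j e)) := continuous_bdist (isLocalHomeomorph_proj hj)
    (fun w => by rw [radii_proj]; exact bddAbove_radiiOver hne _)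
  rw [continuousOn_iff_continuous_domRestrict] at hf ⊢
  let g : s → Part j e := fun z => ⟨f z, hfe z z.2⟩
  have hg : Continuous g := by
    apply Continuous.subtype_mk
    exact hf
  refine (hc.comp hg).congr fun z => ?_
  simp only [Function.comp, Set.domRestrict_apply]
  rw [bdist_proj]

theorem bdistOver_pos (hj : IsLocalHomeomorph j) (hne : e.target ≠ univ) {y : M}
    (hy : j y ∈ e.source) : 0 < bdistOver j e y := by
  rw [← bdist_proj (⟨y, hy⟩ : Part j e)]
  refine bdist_pos (isLocalHomeomorph_proj hj) ?_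
  rw [radii_proj]
  exact bddAbove_radiiOver hne _

theorem bdistOver_le {y : M} {x : E} (hxj : e.symm x ∉ range j) :
    bdistOver j e y ≤ dist x (e (j y)) := by
  refine csSup_le ⟨0, ?_⟩ fun r hr => ?_
  · refine ⟨by simp, fun _ => y, ?_, ?_, rfl⟩
    · rw [ball_zero]; exact continuousOn_empty _
    · simp
  · obtain ⟨h0, σ, h1, h2, h3⟩ := hr
    by_contra h
    push Not at h
    exact hxj ⟨σ x, h2 x h⟩

theorem le_bdistOver (hj : IsLocalHomeomorph j) (hinj : Function.Injective j)
    (hne : e.target ≠ univ) {y : M} (hy : j y ∈ e.source) {r : ℝ}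
    (h0 : ball (e (j y)) r ⊆ e.target) (h1 : ∀ x ∈ ball (e (j y)) r, e.symm x ∈ range j) :
    r ≤ bdistOver j e y := by
  have : Nonempty M := ⟨y⟩
  have hoe := hj.isOpenEmbedding_of_injective hinj
  refine le_csSup (bddAbove_radiiOver hne y) ⟨h0, fun x => Function.invFun j (e.symm x), ?_, ?_, ?_⟩
  · have hind : Topology.IsInducing j := hoe.isInducing
    rw [hind.continuousOn_iff]
    refine (e.continuousOn_symm.mono h0).congr fun x hx => ?_
    exact Function.invFun_eq (h1 x hx)
  · intro x hx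
    exact Function.invFun_eq (h1 x hx)
  · change Function.invFun j (e.symm (e (j y))) = y
    rw [e.left_inv hy]
    exact Function.leftInverse_invFun hinj y

end top

section holo

variable {E : Type*} [NormedAddCommGroup E] [NormedSpace ℂ E] [FiniteDimensional ℂ E]
  {M : Type*} [TopologicalSpace M] [T2Space M] [ChartedSpace E M] [IsManifold 𝓘(ℂ, E) 1 M]
  {N : Type*} [TopologicalSpace N] [T2Space N] [ChartedSpace E N] [IsManifold 𝓘(ℂ, E) 1 N]
  {j : M → N} {e : OpenPartialHomeomorph N E}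

theorem restr_mem (he : e ∈ maximalAtlas 𝓘(ℂ, E) 1 N) {s : Set E} (hs : IsOpen s) :
    (e.symm.restrOpen s hs).symm ∈ maximalAtlas 𝓘(ℂ, E) 1 N := by
  set e' : OpenPartialHomeomorph N E := (e.symm.restrOpen s hs).symm with he'
  have ht : e'.target = e.target ∩ s := rfl
  have hsy : ∀ z, e'.symm z = e.symm z := fun z => rfl
  apply mem_maximalAtlas_of_contMDiffOn
  · have h1 := contMDiffOn_of_mem_maximalAtlas he
    refine h1.mono ?_
    intro y hy
    have h2 : e' y ∈ e'.target := e'.map_source hy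
    rw [ht] at h2
    have h3 := e'.left_inv hy
    rw [hsy] at h3
    rw [← h3]
    exact e.map_target h2.1
  · have h1 := contMDiffOn_symm_of_mem_maximalAtlas he
    exact h1.mono (by rw [ht]; exact inter_subset_left)

/-- **Continuity principle for the complement.** Let `M` be an open subset of `N` (`j` injective)
and let `p` be a point of the complement, in the chart `e`. If the punctured disc
`{p + z • b : 0 < |z| ≤ 1}` lies in `M`, then all discs `{q + z • b : |z| ≤ 1}` with `q` near `p`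
meet the complement of `M`. -/
theorem KeyProp.compl (hKP : KeyProp E M) (hj : IsLocalDiffeomorph 𝓘(ℂ, E) 𝓘(ℂ, E) 1 j)
    (hinj : Function.Injective j) (he : e ∈ maximalAtlas 𝓘(ℂ, E) 1 N) {p b : E}
    (hp : p ∈ e.target) (hpj : e.symm p ∉ range j)
    (hb : ∀ z : ℂ, z ≠ 0 → ‖z‖ ≤ 1 → p + z • b ∈ e.target ∧ e.symm (p + z • b) ∈ range j) :
    ∀ᶠ q in 𝓝 p, ∃ z : ℂ, ‖z‖ ≤ 1 ∧ ¬(q + z • b ∈ e.target ∧ e.symm (q + z • b) ∈ range j) := by
  by_contra hcon
  have hfr : ∃ᶠ q in 𝓝 p, ∀ z : ℂ, ‖z‖ ≤ 1 → q + z • b ∈ e.target ∧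
      e.symm (q + z • b) ∈ range j := by
    intro h
    refine hcon (h.mono fun q hq => ?_)
    push Not at hq
    obtain ⟨z, h1, h2⟩ := hq
    exact ⟨z, h1, fun h => h2 h.1 h.2⟩
  have hloc := hj.isLocalHomeomorph
  have hoe := hloc.isOpenEmbedding_of_injective hinj
  have hb0 : b ≠ 0 := by
    rintro rfl
    have := (hb 1 one_ne_zero (by simp)).2
    rw [smul_zero, add_zero] at this
    exact hpj this
  have hnt : Nontrivial E := ⟨b, 0, hb0⟩
  obtain ⟨R, hR, hRt⟩ : ∃ R > 0, ball p (3 * R) ⊆ e.target := by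
    obtain ⟨R, hR, h⟩ := Metric.isOpen_iff.1 e.open_target p hp
    exact ⟨R / 3, by positivity, by rwa [mul_div_cancel₀ _ (by norm_num : (3:ℝ) ≠ 0)]⟩
  -- restrict the chart
  set e' : OpenPartialHomeomorph N E := (e.symm.restrOpen (ball p (3 * R)) isOpen_ball).symm with he'
  have he'M : e' ∈ maximalAtlas 𝓘(ℂ, E) 1 N := restr_mem he isOpen_ball
  have ht : e'.target = e.target ∩ ball p (3 * R) := rfl
  have ht' : e'.target = ball p (3 * R) := by rw [ht, inter_eq_right]; exact hRt
  have hsy : ∀ z, e'.symm z = e.symm z := fun z => rfl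
  have hne : e'.target ≠ univ := by
    intro h
    rw [ht'] at h
    have := (isBounded_ball (x := p) (r := 3 * R))
    rw [h] at this
    exact NormedSpace.unbounded_univ ℝ E this
  -- the radius of the small disc
  obtain ⟨ε, hε, hε1, hεb⟩ : ∃ ε > 0, ε ≤ 1 ∧ ε * ‖b‖ < R / 2 := by
    refine ⟨min 1 (R / (4 * ‖b‖)), by positivity, min_le_left _ _, ?_⟩
    have hbn : 0 < ‖b‖ := norm_pos_iff.2 hb0
    calc min 1 (R / (4 * ‖b‖)) * ‖b‖ ≤ R / (4 * ‖b‖) * ‖b‖ := by gcongr; exact min_le_right _ _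
      _ = R / 4 := by field_simp
      _ < R / 2 := by linarith
  -- the open set of the points of `M` in the chart
  set O : Set E := e'.target ∩ e'.symm ⁻¹' (range j) with hO
  have hOo : IsOpen O := e'.symm.isOpen_inter_preimage hoe.isOpen_range
  have hC : IsCompact ((fun z : ℂ => p + z • b) '' sphere (0:ℂ) ε) :=
    (isCompact_sphere (0:ℂ) ε).image (by fun_prop)
  have hCO : (fun z : ℂ => p + z • b) '' sphere (0:ℂ) ε ⊆ O := by
    rintro _ ⟨z, hz, rfl⟩
    have hzn : ‖z‖ = ε := by simpa using hz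
    have hz0 : z ≠ 0 := by rintro rfl; simp at hzn; linarith
    refine ⟨?_, ?_⟩
    · rw [ht', mem_ball, dist_eq_norm, add_sub_cancel_left, norm_smul, hzn]
      linarith
    · rw [mem_preimage, hsy]
      exact (hb z hz0 (by rw [hzn]; exact hε1)).2
  obtain ⟨δ, hδ, hδO⟩ := hC.exists_thickening_subset_open hOo hCO
  have hev : ∀ᶠ q in 𝓝 p, dist q p < min (δ / 2) (R / 2) :=
    Metric.ball_mem_nhds p (by positivity)
  obtain ⟨q, hq1, hq2⟩ := (hfr.and_eventually hev).exists
  have hqδ : dist q p < δ / 2 := hq2.trans_le (min_le_left _ _)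
  have hqR : dist q p < R / 2 := hq2.trans_le (min_le_right _ _)
  have : Nonempty M := by
    obtain ⟨-, ⟨m, -⟩⟩ := hq1 0 (by simp)
    exact ⟨m⟩
  have hqz : ∀ z : ℂ, ‖z‖ ≤ ε → dist (q + z • b) p < R := by
    intro z hz
    have h1 : dist (q + z • b) p ≤ dist q p + ‖z • b‖ := by
      rw [dist_eq_norm, dist_eq_norm, add_sub_right_comm]
      exact norm_add_le _ _
    have h2 : ‖z • b‖ ≤ ε * ‖b‖ := by rw [norm_smul]; gcongr
    linarith
  have hqt : ∀ z : ℂ, ‖z‖ ≤ ε → q + z • b ∈ e'.target := by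
    intro z hz
    rw [ht', mem_ball]
    linarith [hqz z hz]
  have hqj : ∀ z : ℂ, ‖z‖ ≤ ε → e'.symm (q + z • b) ∈ range j := by
    intro z hz
    rw [hsy]
    exact (hq1 z (hz.trans hε1)).2
  -- the disc
  set f : ℂ → M := fun z => Function.invFun j (e'.symm (q + z • b)) with hf
  have hjf : ∀ z : ℂ, ‖z‖ ≤ ε → j (f z) = e'.symm (q + z • b) := fun z hz =>
    Function.invFun_eq (hqj z hz)
  have hjfs : ∀ z : ℂ, ‖z‖ ≤ ε → j (f z) ∈ e'.source := fun z hz => by
    rw [hjf z hz]; exact e'.map_target (hqt z hz)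
  have hef : ∀ z : ℂ, ‖z‖ ≤ ε → e' (j (f z)) = q + z • b := fun z hz => by
    rw [hjf z hz]; exact e'.right_inv (hqt z hz)
  have hmem : ∀ z ∈ closedBall (0:ℂ) ε, ‖z‖ ≤ ε := fun z hz => by simpa using hz
  have hfc : ContinuousOn f (closedBall 0 ε) := by
    rw [hoe.isInducing.continuousOn_iff]
    have h1 : ContinuousOn (fun z : ℂ => e'.symm (q + z • b)) (closedBall 0 ε) :=
      e'.continuousOn_symm.comp (by fun_prop) (fun z hz => hqt z (hmem z hz))
    exact h1.congr fun z hz => hjf z (hmem z hz)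
  have hup : ∀ z : ℂ, ‖z‖ ≤ ε → bdistOver j e' (f z) ≤ dist p (q + z • b) := by
    intro z hz
    rw [← hef z hz]
    exact bdistOver_le (by rw [hsy]; exact hpj)
  have hsub := hKP.submean_over hj he'M hne hε hfc (fun z hz => hjfs z (hmem z hz))
    (by
      have h1 : DifferentiableOn ℂ (fun z : ℂ => q + z • b) (ball 0 ε) := by fun_prop
      exact h1.congr fun z hz => hef z (hmem z (ball_subset_closedBall hz)))
    (fun z hz => by
      have hz' := hmem z (ball_subset_closedBall hz)
      rw [hef z hz', ht']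
      intro x hx
      have h1 := hup z hz'
      have h2 := hqz z hz'
      rw [mem_closedBall] at hx
      rw [mem_ball]
      have h3 := dist_triangle x (q + z • b) p
      rw [dist_comm p] at h1
      linarith)
  -- the boundary values
  have hbd : ∀ z ∈ sphere (0:ℂ) |ε|, -Real.log (bdistOver j e' (f z)) ≤ -Real.log (δ / 2) := by
    intro z hz
    rw [abs_of_pos hε] at hz
    have hz' : ‖z‖ ≤ ε := hmem z (sphere_subset_closedBall hz)
    apply neg_le_neg
    apply Real.log_le_log (by positivity)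
    refine le_bdistOver hloc hinj hne (hjfs z hz') ?_ ?_
    · rw [hef z hz']
      intro x hx
      have : x ∈ O := hδO (by
        rw [mem_thickening_iff]
        refine ⟨p + z • b, ⟨z, hz, rfl⟩, ?_⟩
        rw [mem_ball] at hx
        have h1 : dist (q + z • b) (p + z • b) = dist q p := by simp
        have h3 := dist_triangle x (q + z • b) (p + z • b)
        linarith)
      exact this.1
    · rw [hef z hz']
      intro x hx
      have : x ∈ O := hδO (by
        rw [mem_thickening_iff]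
        refine ⟨p + z • b, ⟨z, hz, rfl⟩, ?_⟩
        rw [mem_ball] at hx
        have h1 : dist (q + z • b) (p + z • b) = dist q p := by simp
        have h3 := dist_triangle x (q + z • b) (p + z • b)
        linarith)
      exact this.2
  have hint : CircleIntegrable (fun z => -Real.log (bdistOver j e' (f z))) 0 ε := by
    apply ContinuousOn.circleIntegrable hε.le
    apply ContinuousOn.neg
    apply ContinuousOn.log
    · exact continuousOn_bdistOver hloc hne (hfc.mono sphere_subset_closedBall)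
        (fun z hz => hjfs z (hmem z (sphere_subset_closedBall hz)))
    · exact fun z hz => (bdistOver_pos hloc hne (hjfs z (hmem z (sphere_subset_closedBall hz)))).ne'
  have h1 := Real.circleAverage_mono_on_of_le_circle hint hbd
  have h2 : bdistOver j e' (f 0) < δ / 2 := by
    have := hup 0 (by simpa using hε.le)
    rw [zero_smul, add_zero, dist_comm] at this
    linarith
  have h3 : 0 < bdistOver j e' (f 0) := bdistOver_pos hloc hne (hjfs 0 (by simpa using hε.le))
  have h4 := Real.log_lt_log h3 h2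
  linarith

/-- **No compact holes.** Let `M` be an open subset of `N`, `dim N ≥ 2`. The complement of `M` has
no nonempty compact relatively open subset contained in a chart domain. -/
theorem KeyProp.no_holes (hKP : KeyProp E M) (hj : IsLocalDiffeomorph 𝓘(ℂ, E) 𝓘(ℂ, E) 1 j)
    (hinj : Function.Injective j) (he : e ∈ maximalAtlas 𝓘(ℂ, E) 1 N)
    (hdim : 2 ≤ Module.finrank ℂ E) {V : Set N} (hV : IsOpen V)
    (hK : IsCompact (V \ range j)) (hKe : V \ range j ⊆ e.source) : V ⊆ range j := by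
  by_contra hcon
  obtain ⟨x₀, hx₀V, hx₀j⟩ := not_subset.1 hcon
  set K : Set N := V \ range j with hKdef
  set K' : Set E := e '' K with hK'
  have hK'c : IsCompact K' := hK.image_of_continuousOn (e.continuousOn.mono hKe)
  have hK't : K' ⊆ e.target := by
    rintro _ ⟨x, hx, rfl⟩
    exact e.map_source (hKe hx)
  -- coordinates
  obtain ⟨n, hn, L, -⟩ : ∃ n : ℕ, 2 ≤ n ∧ ∃ _ : E ≃L[ℂ] EuclideanSpace ℂ (Fin n), True := by
    refine ⟨Module.finrank ℂ E, hdim, ?_, trivial⟩
    exact ContinuousLinearEquiv.ofFinrankEq (by simp)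
  -- a centre and the farthest point
  obtain ⟨w, hw⟩ : ∃ w : EuclideanSpace ℂ (Fin n), w ≠ 0 := by
    have : Nonempty (Fin n) := ⟨⟨0, by omega⟩⟩
    exact exists_ne 0
  set o : EuclideanSpace ℂ (Fin n) := L (e x₀) + w with ho
  obtain ⟨p, hpK, hpmax⟩ := hK'c.exists_isMaxOn (f := fun x => ‖L x - o‖)
    ⟨e x₀, ⟨x₀, ⟨hx₀V, hx₀j⟩, rfl⟩⟩ (by fun_prop)
  have hmax : ∀ x ∈ K', ‖L x - o‖ ≤ ‖L p - o‖ := fun x hx => hpmax hx
  set v : EuclideanSpace ℂ (Fin n) := L p - o with hv
  have hv0 : 0 < ‖v‖ := by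
    have h1 := hmax (e x₀) ⟨x₀, ⟨hx₀V, hx₀j⟩, rfl⟩
    have h2 : ‖L (e x₀) - o‖ = ‖w‖ := by
      rw [ho, sub_add_cancel_left, norm_neg]
    rw [h2] at h1
    exact (norm_pos_iff.2 hw).trans_le h1
  -- an orthogonal direction
  obtain ⟨b', hb'0, hb'v⟩ : ∃ b' : EuclideanSpace ℂ (Fin n), b' ≠ 0 ∧ inner ℂ v b' = 0 := by
    have h1 : (Submodule.span ℂ {v})ᗮ ≠ ⊥ := by
      intro h
      have h2 := Submodule.finrank_add_finrank_orthogonal (Submodule.span ℂ {v})
      rw [h, finrank_bot, finrank_span_singleton (norm_pos_iff.1 hv0)] at h2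
      simp at h2
      omega
    obtain ⟨b', h2, h3⟩ := Submodule.exists_mem_ne_zero_of_ne_bot h1
    exact ⟨b', h3, Submodule.mem_orthogonal_singleton_iff_inner_right.1 h2⟩
  have hpyth : ∀ (s : ℝ) (z : ℂ), 1 ≤ s → (1 < s ∨ z ≠ 0) → ‖v‖ < ‖((s : ℝ) : ℂ) • v + z • b'‖ := by
    intro s z hs hsz
    have h1 : inner ℂ (((s : ℝ) : ℂ) • v) (z • b') = 0 := by
      rw [inner_smul_left, inner_smul_right, hb'v, mul_zero, mul_zero]
    have h2 := norm_add_sq_eq_norm_sq_add_norm_sq_of_inner_eq_zero _ _ h1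
    rw [norm_smul, norm_smul, Complex.norm_real, Real.norm_of_nonneg (by linarith)] at h2
    have h3 : 0 ≤ ‖z‖ * ‖b'‖ := by positivity
    by_contra hle
    push Not at hle
    have h4 : ‖((s : ℝ) : ℂ) • v + z • b'‖ * ‖((s : ℝ) : ℂ) • v + z • b'‖ ≤ ‖v‖ * ‖v‖ := by gcongr
    rw [h2] at h4
    rcases hsz with h5 | h5
    · have h6 : ‖v‖ * ‖v‖ < s * ‖v‖ * (s * ‖v‖) := by
        have : ‖v‖ < s * ‖v‖ := by nlinarith
        gcongr
      nlinarith
    · have h6 : ‖v‖ * ‖v‖ ≤ s * ‖v‖ * (s * ‖v‖) := by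
        have : ‖v‖ ≤ s * ‖v‖ := by nlinarith
        gcongr
      have h7 : 0 < ‖z‖ * ‖b'‖ := by
        have := norm_pos_iff.2 h5
        have := norm_pos_iff.2 hb'0
        positivity
      nlinarith
  -- the neighbourhood
  have hOV : IsOpen (e.target ∩ e.symm ⁻¹' V) := e.symm.isOpen_inter_preimage hV
  have hpt : p ∈ e.target := hK't hpK
  have hpsK : e.symm p ∈ K := by
    obtain ⟨x, hx, hxp⟩ := hpK
    rw [← hxp, e.left_inv (hKe hx)]
    exact hx
  obtain ⟨R, hR, hRO⟩ := Metric.isOpen_iff.1 hOV p ⟨hpt, hpsK.1⟩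
  obtain ⟨t, ht, htb⟩ : ∃ t > (0:ℝ), t * ‖L.symm b'‖ < R / 2 := by
    refine ⟨R / (4 * (‖L.symm b'‖ + 1)), by positivity, ?_⟩
    rw [div_mul_eq_mul_div, div_lt_iff₀ (by positivity)]
    nlinarith [norm_nonneg (L.symm b')]
  set b : E := ((t : ℝ) : ℂ) • L.symm b' with hb
  have hbn : ‖b‖ < R / 2 := by
    rw [hb, norm_smul, Complex.norm_real, Real.norm_of_nonneg ht.le]
    exact htb
  have hzb : ∀ z : ℂ, ‖z‖ ≤ 1 → ‖z • b‖ < R / 2 := by
    intro z hz
    rw [norm_smul]
    calc ‖z‖ * ‖b‖ ≤ 1 * ‖b‖ := by gcongr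
      _ < R / 2 := by rw [one_mul]; exact hbn
  have hmem : ∀ x : E, x ∈ ball p R → ‖v‖ < ‖L x - o‖ → x ∈ e.target ∧ e.symm x ∈ range j := by
    intro x hx hxn
    have h1 := hRO hx
    refine ⟨h1.1, ?_⟩
    by_contra h2
    have h3 : x ∈ K' := ⟨e.symm x, ⟨h1.2, h2⟩, e.right_inv h1.1⟩
    exact absurd (hmax x h3) (not_le.2 hxn)
  have hLb : ∀ z : ℂ, L (z • b) = (z * (t : ℂ)) • b' := by
    intro z
    rw [hb, smul_smul, map_smul, ContinuousLinearEquiv.apply_symm_apply]
  have hcompl := hKP.compl hj hinj he (p := p) (b := b) hpt hpsK.2 (fun z hz0 hz => by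
    refine hmem _ ?_ ?_
    · rw [mem_ball, dist_eq_norm, add_sub_cancel_left]
      linarith [hzb z hz]
    · have h1 := hpyth 1 (z * t) le_rfl (Or.inr (mul_ne_zero hz0 (by exact_mod_cast ht.ne')))
      rw [Complex.ofReal_one, one_smul] at h1
      have h2 : L (p + z • b) - o = v + (z * (t:ℂ)) • b' := by
        rw [map_add, hLb, hv]; abel
      rwa [h2])
  -- translate the discs outwards
  have htend : Tendsto (fun s : ℝ => p + ((s : ℝ) : ℂ) • L.symm v) (𝓝[>] 0) (𝓝 p) := by
    have h1 : Continuous (fun s : ℝ => p + ((s : ℝ) : ℂ) • L.symm v) := by fun_prop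
    have h2 := h1.tendsto 0
    simp only [Complex.ofReal_zero, zero_smul, add_zero] at h2
    exact h2.mono_left nhdsWithin_le_nhds
  have hev := htend.eventually (hcompl.and (Metric.ball_mem_nhds p (half_pos hR)))
  obtain ⟨s, ⟨⟨z, hz, hz1⟩, hs2⟩, hs⟩ := (hev.and self_mem_nhdsWithin).exists
  have hs0 : (0:ℝ) < s := hs
  apply hz1
  refine hmem _ ?_ ?_
  · rw [mem_ball, dist_eq_norm]
    rw [dist_eq_norm] at hs2
    have h1 := norm_add_le (p + ((s : ℝ) : ℂ) • L.symm v - p) (z • b)
    have h2 := hzb z hz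
    rw [sub_add_eq_add_sub] at h1
    linarith
  · have h1 := hpyth (1 + s) (z * t) (by linarith) (Or.inl (by linarith))
    have h2 : L (p + ((s : ℝ) : ℂ) • L.symm v + z • b) - o =
        (((1 + s : ℝ)) : ℂ) • v + (z * (t:ℂ)) • b' := by
      rw [map_add, map_add, hLb, map_smul, ContinuousLinearEquiv.apply_symm_apply]
      push_cast
      rw [add_smul, one_smul, hv]
      abel
    rwa [h2]

end holo

end Vale.Agent.P253.R2.H922
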