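import Vale.Agent.P253.R2.H922.Sec
import Vale.Agent.P253.R2.H380.Touch

/-!
P253: if the distance to the boundary of a Riemann domain `π : M → E` violates the sub-mean value
inequality along a holomorphic disc, then there is a family of discs as in the key proposition.
-/

open Set Metric Topology Filter

set_option linter.unusedSectionVars false

namespace Vale.Agent.P253.R2.H922

/-- A family of discs `z ↦ c0 z + s • c1 z`, `s ∈ [0, 1]`, in the open set `G` except that
`c0 z0 ∉ G`, with a section `Φ` of `π` over `G` such that `Φ x → ∞` as `x → c0 z0`. -/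
structure HartogsFamily {E : Type*} [NormedAddCommGroup E] [NormedSpace ℂ E] {M : Type*}
    [TopologicalSpace M] (π : M → E) where
  G : Set E
  Φ : E → M
  c0 : ℂ → E
  c1 : ℂ → E
  z0 : ℂ
  r : ℝ
  U : Set ℂ
  isOpen_G : IsOpen G
  sec : SecOn π G Φ
  r_pos : 0 < r
  isOpen_U : IsOpen U
  closedBall_subset : closedBall z0 r ⊆ U
  diff0 : DifferentiableOn ℂ c0 U
  diff1 : DifferentiableOn ℂ c1 U
  mem : ∀ s ∈ Icc (0:ℝ) 1, ∀ z ∈ closedBall z0 r, (s, z) ≠ (0, z0) → c0 z + (s : ℂ) • c1 z ∈ G
  not_mem : c0 z0 ∉ G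
  escape : Tendsto Φ (𝓝[G] (c0 z0)) (cocompact M)

variable {E : Type*} [NormedAddCommGroup E] [NormedSpace ℂ E] [FiniteDimensional ℂ E]
  {M : Type*} [TopologicalSpace M] [T2Space M] {π : M → E}

/-- The key construction: at a point where `-log (bdist)` along the disc `f` is touched from above
by a harmonic polynomial with a strict quadratic gap there is a Hartogs family. -/
theorem exists_hartogs (hπ : IsLocalHomeomorph π) (hb : ∀ m, BddAbove (radii π m))
    {f : ℂ → M} {c : ℂ} {r : ℝ} (hf : ContinuousOn f (closedBall c r))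
    (hf' : DifferentiableOn ℂ (fun z => π (f z)) (ball c r))
    (k : Polynomial ℂ) {ε : ℝ} (hε : 0 < ε) {z0 : ℂ} (hz0 : z0 ∈ ball c r)
    (hk0 : -Real.log (bdist π (f z0)) = (k.eval z0).re)
    (hk : ∀ z ∈ closedBall c r, -Real.log (bdist π (f z)) ≤ (k.eval z).re - ε * ‖z - z0‖ ^ 2) :
    ∃ F : HartogsFamily π, dist (F.c0 F.z0) (π (f z0)) = bdist π (f z0) := by
  have hLI := hπ.isLocallyInjective
  have hpos : ∀ m, 0 < bdist π m := fun m => bdist_pos hπ (hb m)
  set a : ℂ → E := fun z => π (f z) with ha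
  set d : ℂ → ℝ := fun z => bdist π (f z) with hd
  set R : ℝ := d z0 with hR
  have hRpos : 0 < R := hpos _
  have hfz0 : ContinuousAt f z0 :=
    hf.continuousAt (mem_of_superset (isOpen_ball.mem_nhds hz0) ball_subset_closedBall)
  have hac : ContinuousAt a z0 := hπ.continuous.continuousAt.comp hfz0
  have hdc : ContinuousAt d z0 := (continuous_bdist hπ hb).continuousAt.comp hfz0
  -- a small closed disc around `z0`
  obtain ⟨ρ, hρ, hρball, hρa, hρd⟩ : ∃ ρ > 0, closedBall z0 ρ ⊆ ball c r ∧
      (∀ z ∈ closedBall z0 ρ, dist (a z) (a z0) < R / 4) ∧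
      (∀ z ∈ closedBall z0 ρ, R / 2 < d z) := by
    have h1 : ∀ᶠ z in 𝓝 z0, z ∈ ball c r := isOpen_ball.mem_nhds hz0
    have h2 : ∀ᶠ z in 𝓝 z0, dist (a z) (a z0) < R / 4 :=
      hac.eventually (Metric.ball_mem_nhds _ (by positivity))
    have h3 : ∀ᶠ z in 𝓝 z0, R / 2 < d z :=
      hdc.eventually (lt_mem_nhds (by rw [← hR]; linarith))
    obtain ⟨ρ, hρ, h⟩ := Metric.nhds_basis_closedBall.eventually_iff.1 (h1.and (h2.and h3))
    exact ⟨ρ, hρ, fun z hz => (h hz).1, fun z hz => (h hz).2.1, fun z hz => (h hz).2.2⟩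
  have hz0mem : z0 ∈ closedBall z0 ρ := mem_closedBall_self hρ.le
  have hcenters : ∀ z ∈ closedBall z0 ρ, ∀ z' ∈ closedBall z0 ρ, a z' ∈ ball (a z) (d z) := by
    intro z hz z' hz'
    rw [mem_ball]
    have h1 := hρa z hz
    have h2 := hρa z' hz'
    have h3 := hρd z hz
    have := dist_triangle_right (a z') (a z) (a z0)
    linarith
  -- the sections over the maximal balls
  have hsec : ∀ z, ∃ σ : E → M, SecOn π (ball (a z) (d z)) σ ∧ σ (a z) = f z := fun z =>
    exists_sec hπ (hb (f z))
  choose σ hσ hσf using hsec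
  have hσf' : ∀ z ∈ closedBall z0 ρ, ∀ z' ∈ closedBall z0 ρ, σ z (a z') = f z' := by
    intro z hz z' hz'
    have hpre : IsPreconnected (closedBall z0 ρ) := (convex_closedBall z0 ρ).isPreconnected
    have hfc : ContinuousOn f (closedBall z0 ρ) := hf.mono (hρball.trans ball_subset_closedBall)
    have hacz : ContinuousOn a (closedBall z0 ρ) := hπ.continuous.comp_continuousOn hfc
    have h1 : ContinuousOn (fun w => σ z (a w)) (closedBall z0 ρ) :=
      (hσ z).1.comp hacz (fun w hw => hcenters z hz w hw)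
    exact (T2Space.isSeparatedMap π).eqOn_of_comp_eqOn hLI hpre h1 hfc
      (fun w hw => (hσ z).2 _ (hcenters z hz w hw)) hz (hσf z) hz'
  have : Nonempty M := ⟨f z0⟩
  obtain ⟨S, hS, hSeq⟩ := glue hLI (fun z : closedBall z0 ρ => ball (a z) (d z))
    (fun z => σ z) (fun _ => isOpen_ball) (fun _ => convex_ball _ _) (fun z => hσ z)
    (fun z z' _ => ⟨a z', ⟨hcenters z z.2 z' z'.2, hcenters z' z'.2 z' z'.2⟩, by
      rw [hσf' z z.2 z' z'.2, hσf' z' z'.2 z' z'.2]⟩)
  set G : Set E := ⋃ z : closedBall z0 ρ, ball (a z) (d z) with hG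
  have hGo : IsOpen G := isOpen_iUnion fun _ => isOpen_ball
  have hS0 : EqOn S (σ z0) (ball (a z0) R) := hSeq ⟨z0, hz0mem⟩
  obtain ⟨p, hp, hsing⟩ := exists_sing (E := E) hπ (hb (f z0)) (hσ z0) (hσf z0)
  have hp' : dist p (a z0) = R := hp
  -- `p` is a singular point of `S`
  have hno : ∀ (η : ℝ) (τ : E → M), 0 < η → SecOn π (ball p η) τ →
      ∀ x ∈ G, dist x p < min (R / 2) (η / 8) → τ x ≠ S x := by
    intro η τ hη hτ x hx hx1 heq
    obtain ⟨z, hz⟩ := mem_iUnion.1 hx
    have hz' : dist x (a z) < d z := hz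
    -- the point `q` on the segment from `x` to `a z0`
    set t : ℝ := min (R / 2) (η / 8) / R with ht
    have htR : t * R = min (R / 2) (η / 8) := by rw [ht]; field_simp
    have ht0 : 0 < t := by positivity
    have ht1 : t ≤ 1/2 := by
      rw [ht, div_le_iff₀ hRpos]
      linarith [min_le_left (R / 2) (η / 8)]
    have ht2 : t * R ≤ η / 8 := by rw [htR]; exact min_le_right _ _
    have ht3 : t * R ≤ R / 2 := by rw [htR]; exact min_le_left _ _
    have hxp : dist x p < t * R := by rw [htR]; exact hx1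
    have hxa : dist x (a z0) < R + t * R := by
      have := dist_triangle x p (a z0)
      linarith
    have hxa0 : 0 ≤ dist x (a z0) := dist_nonneg
    set q : E := AffineMap.lineMap x (a z0) t with hq
    have hqa : dist q (a z0) < R := by
      rw [hq, dist_lineMap_right, Real.norm_of_nonneg (by linarith)]
      calc (1 - t) * dist x (a z0) ≤ (1 - t) * (R + t * R) := by
            gcongr
            linarith
        _ = R - t ^ 2 * R := by ring
        _ < R := by
            have : 0 < t ^ 2 * R := by positivity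
            linarith
    have hqz : q ∈ ball (a z) (d z) := by
      have h2 : q ∈ segment ℝ x (a z0) := by
        rw [segment_eq_image_lineMap]
        exact ⟨t, ⟨ht0.le, by linarith⟩, rfl⟩
      exact (convex_ball (a z) (d z)).segment_subset hz (hcenters z z.2 z0 hz0mem) h2
    have hqp : q ∈ ball p η := by
      rw [mem_ball]
      have h1 : dist q x = t * dist x (a z0) := by
        rw [hq, dist_lineMap_left, Real.norm_of_nonneg ht0.le]
      have h2 : t * dist x (a z0) ≤ t * (R + t * R) := by gcongr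
      have h3 : t * (R + t * R) ≤ t * R + t * R / 2 := by nlinarith
      have := dist_triangle q x p
      linarith
    have hxη : x ∈ ball p η := by
      rw [mem_ball]; linarith
    have hsub : ball (a z) (d z) ⊆ G := by
      intro w hw
      exact mem_iUnion.2 ⟨z, hw⟩
    have hagree : EqOn τ S (ball (a z) (d z) ∩ ball p η) :=
      SecOn.eqOn hLI ((convex_ball _ _).inter (convex_ball _ _)).isPreconnected
        (hτ.mono inter_subset_right) (hS.mono (inter_subset_left.trans hsub)) ⟨hz, hxη⟩ heq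
    exact hsing η τ hη hτ q ⟨hqp, hqa⟩ ((hagree ⟨hqz, hqp⟩).trans (hS0 hqa))
  have hpG : p ∉ G := by
    intro hpG
    obtain ⟨η, hη, hηG⟩ := Metric.isOpen_iff.1 hGo p hpG
    exact hno η S hη (hS.mono hηG) p hpG (by rw [dist_self]; positivity) rfl
  have hesc : Tendsto S (𝓝[G] p) (cocompact M) := by
    rw [(hasBasis_cocompact (X := M)).tendsto_right_iff]
    intro K hK
    by_contra hcon
    have hfr : ∃ᶠ x in 𝓝[G] p, S x ∈ K := by
      intro h
      exact hcon (h.mono fun x hx => hx)
    obtain ⟨m, -, hm⟩ := hK.exists_mapClusterPt_of_frequently hfr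
    have hπS : Tendsto (π ∘ S) (𝓝[G] p) (𝓝 p) := by
      have h1 : (fun x => x) =ᶠ[𝓝[G] p] (π ∘ S) := by
        filter_upwards [self_mem_nhdsWithin] with x hx using (hS.2 x hx).symm
      exact (tendsto_id.mono_left nhdsWithin_le_nhds).congr' h1
    have hπm : π m = p := by
      have h1 : MapClusterPt (π m) (𝓝[G] p) (π ∘ S) :=
        hm.continuousAt_comp hπ.continuous.continuousAt
      have h2 : (𝓝 (π m) ⊓ 𝓝 p).NeBot := NeBot.mono h1 (inf_le_inf_left _ hπS)
      exact eq_of_nhds_neBot h2
    obtain ⟨η, hη, τ, hτ, -, hτm⟩ := exists_local_sec hπ m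
    rw [hπm] at hτ
    have h1 := hm.frequently hτm
    have h2 : ∀ᶠ x in 𝓝[G] p, x ∈ G ∧ dist x p < min (R / 2) (η / 8) := by
      filter_upwards [self_mem_nhdsWithin, nhdsWithin_le_nhds
        (Metric.ball_mem_nhds p (by positivity : 0 < min (R / 2) (η / 8)))] with x hx1 hx2
      exact ⟨hx1, hx2⟩
    obtain ⟨x, hx1, hx2, hx3⟩ := (h1.and_eventually h2).exists
    refine hno η τ hη hτ x hx2 hx3 ?_
    rwa [hS.2 x hx2] at hx1
  -- the family
  have hRexp : R = Real.exp (-(k.eval z0).re) := by
    rw [← hk0, neg_neg, Real.exp_log hRpos]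
  set v : E := Complex.exp (k.eval z0) • (p - a z0) with hv
  have hvn : ‖v‖ = 1 := by
    rw [hv, norm_smul, Complex.norm_exp, ← dist_eq_norm, hp', hRexp, ← Real.exp_add]
    simp
  have hdlow : ∀ z ∈ closedBall c r, Real.exp (-(k.eval z).re + ε * ‖z - z0‖ ^ 2) ≤ d z := by
    intro z hz
    have h1 := hk z hz
    have h2 : -(k.eval z).re + ε * ‖z - z0‖ ^ 2 ≤ Real.log (d z) := by
      simp only [hd]; linarith
    calc _ ≤ Real.exp (Real.log (d z)) := Real.exp_le_exp.2 h2
      _ = d z := Real.exp_log (hpos _)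
  refine ⟨⟨G, S, fun z => a z + Complex.exp (-(k.eval z)) • v,
    fun z => -(Complex.exp (-(k.eval z)) • v), z0, ρ, ball c r, hGo, hS, hρ, isOpen_ball, hρball,
    ?_, ?_, ?_, ?_, ?_⟩, ?_⟩
  · refine hf'.add ?_
    apply Differentiable.differentiableOn
    fun_prop
  · apply Differentiable.differentiableOn
    fun_prop
  · intro s hs z hz hne
    have hzc : z ∈ closedBall c r := ball_subset_closedBall (hρball hz)
    have e1 : a z + Complex.exp (-(k.eval z)) • v + (s : ℂ) • -(Complex.exp (-(k.eval z)) • v) =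
        a z + ((1 - s : ℝ) : ℂ) • Complex.exp (-(k.eval z)) • v := by
      push_cast
      rw [sub_smul, one_smul, smul_neg]
      abel
    rw [e1]
    refine mem_iUnion.2 ⟨⟨z, hz⟩, ?_⟩
    rw [mem_ball, dist_eq_norm, add_sub_cancel_left, norm_smul, norm_smul, hvn, mul_one,
      Complex.norm_exp, Complex.norm_real, Real.norm_of_nonneg (by linarith [hs.2]), Complex.neg_re]
    have h1 := hdlow z hzc
    have h2 : 0 < Real.exp (-(k.eval z).re) := Real.exp_pos _
    rcases hs.1.eq_or_lt with h0 | h0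
    · have hzz : z ≠ z0 := by
        rintro rfl
        exact hne (by rw [← h0])
      have h3 : 0 < ‖z - z0‖ := norm_pos_iff.2 (sub_ne_zero.2 hzz)
      have h4 : Real.exp (-(k.eval z).re) < Real.exp (-(k.eval z).re + ε * ‖z - z0‖ ^ 2) := by
        apply Real.exp_lt_exp.2
        have : 0 < ε * ‖z - z0‖ ^ 2 := by positivity
        linarith
      rw [← h0, sub_zero, one_mul]
      linarith
    · have h4 : Real.exp (-(k.eval z).re) ≤ Real.exp (-(k.eval z).re + ε * ‖z - z0‖ ^ 2) := by
        apply Real.exp_le_exp.2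
        have : 0 ≤ ε * ‖z - z0‖ ^ 2 := by positivity
        linarith
      nlinarith
  · have e1 : a z0 + Complex.exp (-(k.eval z0)) • v = p := by
      rw [hv, smul_smul, ← Complex.exp_add]
      simp
    simp only [e1]
    exact hpG
  · have e1 : a z0 + Complex.exp (-(k.eval z0)) • v = p := by
      rw [hv, smul_smul, ← Complex.exp_add]
      simp
    simp only [e1]
    exact hesc
  · have e1 : a z0 + Complex.exp (-(k.eval z0)) • v = p := by
      rw [hv, smul_smul, ← Complex.exp_add]
      simp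
    simp only [e1]
    exact hp'

/-- If `-log (bdist)` violates the sub-mean value inequality along a holomorphic disc `f`, then
there is a Hartogs family. -/
theorem exists_hartogs_of_lt (hπ : IsLocalHomeomorph π) (hb : ∀ m, BddAbove (radii π m))
    {f : ℂ → M} {c : ℂ} {r : ℝ} (hr : 0 < r) (hf : ContinuousOn f (closedBall c r))
    (hf' : DifferentiableOn ℂ (fun z => π (f z)) (ball c r))
    (hcon : Real.circleAverage (fun z => -Real.log (bdist π (f z))) c r <
      -Real.log (bdist π (f c))) :
    ∃ F : HartogsFamily π, ∃ z0 ∈ ball c r, dist (F.c0 F.z0) (π (f z0)) = bdist π (f z0) := by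
  have hpos : ∀ m, 0 < bdist π m := fun m => bdist_pos hπ (hb m)
  have hu : ContinuousOn (fun z => -Real.log (bdist π (f z))) (closedBall c r) := by
    apply ContinuousOn.neg
    apply ContinuousOn.log
    · exact (continuous_bdist hπ hb).comp_continuousOn hf
    · exact fun z _ => (hpos _).ne'
  obtain ⟨h, h1, h2⟩ := Vale.Agent.P253.R2.H380.exists_poly_majorant hr
    (hu.mono sphere_subset_closedBall) hcon
  obtain ⟨k, ε, z0, hε, hz0, hk0, hk⟩ := Vale.Agent.P253.R2.H380.touch_of_majorant
    (u := fun z => ((-Real.log (bdist π (f z)) : ℝ) : EReal)) (c := c) (r := r)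
    (continuous_coe_real_ereal.comp_continuousOn hu).upperSemicontinuousOn
    (fun z _ => EReal.coe_ne_top _) h (fun z hz => by exact_mod_cast (h1 z hz).le)
    (mem_ball_self hr) (by exact_mod_cast h2)
  obtain ⟨F, hF⟩ := exists_hartogs hπ hb hf hf' k hε hz0 (by exact_mod_cast hk0)
    (fun z hz => by exact_mod_cast hk z hz)
  exact ⟨F, z0, hz0, hF⟩

end Vale.Agent.P253.R2.H922
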