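import Vale.Agent.P253.R2.H922.Metric
import Vale.Agent.P253.R2.H451.KP
import Vale.Agent.P253.R2.H618.Liou2

/-!
P253: pseudoconvexity of complete Kähler manifolds of nonnegative bisectional curvature over
complex manifolds, final form.
-/

open scoped Manifold ContDiff Topology Bundle
open Set Metric Filter Bundle IsManifold

set_option maxSynthPendingDepth 3
set_option linter.unusedSectionVars false

noncomputable section

namespace Vale.Agent.P253.R2.H922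

open Vale.Agent.P253.Mfd

variable {E : Type*} [NormedAddCommGroup E] [NormedSpace ℂ E] [FiniteDimensional ℂ E]

theorem mdifferentiableAt_of_chart {M : Type*} [TopologicalSpace M] [ChartedSpace E M]
    [IsManifold 𝓘(ℂ, E) 1 M] {Φ : E → M} {e : OpenPartialHomeomorph M E}
    (he : e ∈ maximalAtlas 𝓘(ℂ, E) 1 M) {x : E} (hx : x ∈ e.target)
    (hΦ : EqOn Φ e.symm e.target) :
    MDifferentiableAt 𝓘(ℂ, E) 𝓘(ℂ, E) Φ x ∧
      Function.Injective (mfderiv 𝓘(ℂ, E) 𝓘(ℂ, E) Φ x) := by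
  have hev : Φ =ᶠ[𝓝 x] e.symm := by
    filter_upwards [e.open_target.mem_nhds hx] with y hy using hΦ hy
  have h1 : MDifferentiableAt 𝓘(ℂ, E) 𝓘(ℂ, E) e.symm x :=
    ((contMDiffOn_symm_of_mem_maximalAtlas he).contMDiffAt
      (e.open_target.mem_nhds hx)).mdifferentiableAt (by simp)
  have h2 : MDifferentiableAt 𝓘(ℂ, E) 𝓘(ℂ, E) e (e.symm x) :=
    ((contMDiffOn_of_mem_maximalAtlas he).contMDiffAt
      (e.open_source.mem_nhds (e.map_target hx))).mdifferentiableAt (by simp)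
  refine ⟨h1.congr_of_eventuallyEq hev, ?_⟩
  rw [hev.mfderiv_eq]
  have h3 := (h2.hasMFDerivAt).comp x h1.hasMFDerivAt
  have h4 : (e ∘ e.symm) =ᶠ[𝓝 x] id := by
    filter_upwards [e.open_target.mem_nhds hx] with y hy using e.right_inv hy
  have h5 : HasMFDerivAt 𝓘(ℂ, E) 𝓘(ℂ, E) (e ∘ e.symm) x (ContinuousLinearMap.id ℂ E) :=
    (hasMFDerivAt_id x).congr_of_eventuallyEq h4
  have h6 := hasMFDerivAt_unique h3 h5
  let A : E →L[ℂ] E := mfderiv 𝓘(ℂ, E) 𝓘(ℂ, E) e (e.symm x)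
  let B : E →L[ℂ] E := mfderiv 𝓘(ℂ, E) 𝓘(ℂ, E) e.symm x
  have h7 : A.comp B = ContinuousLinearMap.id ℂ E := h6
  intro v w hvw
  have hvw' : B v = B w := hvw
  have e1 : A (B v) = v := congrArg (fun T : E →L[ℂ] E => T v) h7
  have e2 : A (B w) = w := congrArg (fun T : E →L[ℂ] E => T w) h7
  exact (e1.symm.trans (congrArg A hvw')).trans e2

variable {M : Type*} [MetricSpace M] [ChartedSpace E M]
  [IsManifold 𝓘(ℂ, E) 1 M] [IsManifold 𝓘(ℝ, E) ∞ M]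
  [RiemannianBundle (fun x : M => TangentSpace 𝓘(ℝ, E) x)]
  [IsContMDiffRiemannianBundle 𝓘(ℝ, E) ∞ E (fun x : M => TangentSpace 𝓘(ℝ, E) x)]
  [IsRiemannianManifold 𝓘(ℝ, E) M]

theorem keyProp (hK : IsKahler E M) [CompleteSpace M]
    (hnn : ∀ x : M, NonnegBisectionalAt E x) : KeyProp E M := by
  intro G Φ c0 c1 z0 r U hG hΦ hr hU hUr hc0 hc1 hin hout hesc
  refine H451.kp hK hnn hG (fun x hx => ?_) (fun x hx => ?_) hr hU hUr hc0 hc1 hin hesc
  · obtain ⟨e, he, hxe, -, h⟩ := hΦ x hx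
    exact (mdifferentiableAt_of_chart he hxe h).1.mdifferentiableWithinAt
  · obtain ⟨e, he, hxe, -, h⟩ := hΦ x hx
    exact (mdifferentiableAt_of_chart he hxe h).2

theorem liouvilleLog (hK : IsKahler E M) [CompleteSpace M] [ConnectedSpace M]
    (hnn : ∀ x : M, NonnegBisectionalAt E x) : LiouvilleLog E M :=
  fun p _ hu hgr x y => H618.liouville_log hK hnn hu.1 hu.2 p (fun ε hε => hgr ε hε) x y

/-- the uniformization criterion in terms of the size of the metric in the coordinates `q` -/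
theorem uniformization_metric (hK : IsKahler E M) [CompleteSpace M] [ConnectedSpace M]
    (hnn : ∀ x : M, NonnegBisectionalAt E x) {q : M → E}
    (hq : IsLocalDiffeomorph 𝓘(ℂ, E) 𝓘(ℂ, E) 1 q) (p : M)
    (hgr : ∀ ε : ℝ, 0 < ε → ∃ C : ℝ, ∀ (x : M) (v : TangentSpace 𝓘(ℝ, E) x),
      ‖v‖ ≤ C * (1 + dist p x) ^ (1 + ε) * ‖dmap q x v‖) :
    ∃ F : M ≃ₘ^1⟮𝓘(ℂ, E), 𝓘(ℂ, E)⟯ E, ∀ x, F x = q x := by
  refine uniformization (keyProp hK hnn) (liouvilleLog hK hnn) hq p fun ε hε R₀ => ?_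
  obtain ⟨C', hC'⟩ := hgr (ε / 2) (half_pos hε)
  set C : ℝ := max C' 1 with hC
  have hC0 : 0 < C := lt_of_lt_of_le one_pos (le_max_right _ _)
  -- a large radius
  obtain ⟨R, hR⟩ : ∃ R : ℝ, R₀ < R ∧ 1 < R ∧ C * 3 ^ (1 + ε / 2) ≤ R ^ (ε / 2) := by
    have h1 : Tendsto (fun R : ℝ => R ^ (ε / 2)) atTop atTop := tendsto_rpow_atTop (half_pos hε)
    exact ((eventually_gt_atTop R₀).and ((eventually_gt_atTop 1).and
      (h1.eventually (eventually_ge_atTop _)))).exists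
  obtain ⟨hR1, hR2, hR3⟩ := hR
  have hR0 : 0 < R := by linarith
  refine ⟨R, hR1, fun x hx => ⟨R / (C * (3 * R) ^ (1 + ε / 2)), ?_, ?_⟩⟩
  · refine mem_radii_of_metric hq hR0 (by positivity) fun z hz v => ?_
    refine (hC' z v).trans ?_
    have h1 : 1 + dist p z ≤ 3 * R := by
      have h2 := dist_triangle p x z
      rw [dist_comm p x, hx] at h2
      linarith
    gcongr
    exact le_max_left _ _
  · rw [le_div_iff₀ (by positivity), Real.mul_rpow (by norm_num) hR0.le]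
    have h1 : R ^ (-ε) * (C * (3 ^ (1 + ε / 2) * R ^ (1 + ε / 2))) =
        (C * 3 ^ (1 + ε / 2)) * (R ^ (-ε) * R ^ (1 + ε / 2)) := by ring
    rw [h1, ← Real.rpow_add hR0]
    have h2 : R = R ^ (ε / 2) * R ^ (-ε + (1 + ε / 2)) := by
      rw [← Real.rpow_add hR0]
      ring_nf
      rw [Real.rpow_one]
    conv_rhs => rw [h2]
    gcongr

/-- the converse: `ℂ^n` has a map as in the criterion -/
theorem exists_of_diffeo [ConnectedSpace M] (F : M ≃ₘ^1⟮𝓘(ℂ, E), 𝓘(ℂ, E)⟯ E) :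
    ∃ (q : M → E) (p : M), IsLocalDiffeomorph 𝓘(ℂ, E) 𝓘(ℂ, E) 1 q ∧
      ∀ ε : ℝ, 0 < ε → ∀ R₀ : ℝ, ∃ R > R₀, ∀ x : M, dist x p = R →
        ∃ r ∈ radii q x, R ^ (-ε) ≤ r := by
  obtain ⟨p⟩ := (inferInstance : Nonempty M)
  refine ⟨F, p, F.isLocalDiffeomorph, fun ε _ R₀ => ⟨R₀ + 1, by linarith, fun x _ =>
    ⟨(R₀ + 1) ^ (-ε), ⟨F.symm, ⟨F.symm.continuous.continuousOn, fun y _ => F.apply_symm_apply y⟩,
      F.symm_apply_apply x⟩, le_rfl⟩⟩⟩

omit [IsManifold 𝓘(ℝ, E) ∞ M]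
  [RiemannianBundle (fun x : M => TangentSpace 𝓘(ℝ, E) x)]
  [IsContMDiffRiemannianBundle 𝓘(ℝ, E) ∞ E (fun x : M => TangentSpace 𝓘(ℝ, E) x)]
  [IsRiemannianManifold 𝓘(ℝ, E) M] in
/-- pseudoconvexity over `N`, for holomorphic discs of `M` -/
theorem KeyProp.submean_over' {N : Type*} [TopologicalSpace N] [T2Space N] [ChartedSpace E N]
    [IsManifold 𝓘(ℂ, E) 1 N] {j : M → N} {e : OpenPartialHomeomorph N E}
    (hKP : KeyProp E M) (hj : IsLocalDiffeomorph 𝓘(ℂ, E) 𝓘(ℂ, E) 1 j)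
    (he : e ∈ maximalAtlas 𝓘(ℂ, E) 1 N) (hne : e.target ≠ univ) {f : ℂ → M} {c : ℂ} {r : ℝ}
    (hr : 0 < r) (hf : ContinuousOn f (closedBall c r))
    (hf' : MDifferentiableOn 𝓘(ℂ, ℂ) 𝓘(ℂ, E) f (ball c r))
    (h : ∀ z ∈ closedBall c r, j (f z) ∈ e.source ∧
      closedBall (e (j (f z))) (bdistOver j e (f z)) ⊆ e.target) :
    -Real.log (bdistOver j e (f c)) ≤
      Real.circleAverage (fun z => -Real.log (bdistOver j e (f z))) c r := by
  refine hKP.submean_over hj he hne hr hf (fun z hz => (h z hz).1) ?_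
    (fun z hz => (h z (ball_subset_closedBall hz)).2)
  have h1 : MDifferentiable 𝓘(ℂ, E) 𝓘(ℂ, E) j := hj.mdifferentiable (by simp)
  have h2 : MDifferentiableOn 𝓘(ℂ, ℂ) 𝓘(ℂ, E) (j ∘ f) (ball c r) := h1.comp_mdifferentiableOn hf'
  have h3 : MDifferentiableOn 𝓘(ℂ, E) 𝓘(ℂ, E) e e.source :=
    (contMDiffOn_of_mem_maximalAtlas he).mdifferentiableOn (by simp)
  have h4 : MDifferentiableOn 𝓘(ℂ, ℂ) 𝓘(ℂ, E) (e ∘ (j ∘ f)) (ball c r) :=
    h3.comp h2 (fun z hz => (h z (ball_subset_closedBall hz)).1)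
  exact h4.differentiableOn

end Vale.Agent.P253.R2.H922
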