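import Vale.Agent.P253.R2.H922.Dom

/-!
P253: a criterion for `M = ℂ^n`: a locally biholomorphic map `π : M → ℂ^n` whose inverse branches
exist on balls which shrink slower than every power of the distance.
-/

open scoped Manifold ContDiff Topology
open Set Metric Filter IsManifold

set_option linter.unusedSectionVars false

namespace Vale.Agent.P253.R2.H922

section top

variable {E : Type*} [NormedAddCommGroup E] [NormedSpace ℝ E] [FiniteDimensional ℝ E]
  {M : Type*} [TopologicalSpace M] [T2Space M] {π : M → E}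

/-- the distance to the boundary is not constant -/
theorem bdist_not_const [Nonempty M] (hπ : IsLocalHomeomorph π) (hb : ∀ m, BddAbove (radii π m)) :
    ¬ ∀ x y, bdist π x = bdist π y := by
  intro hconst
  obtain ⟨y⟩ := ‹Nonempty M›
  have hpos := bdist_pos hπ (hb y)
  obtain ⟨σ, hσ, hσy⟩ := exists_sec hπ (hb y)
  obtain ⟨p, hp, hsing⟩ := exists_sing hπ (hb y) hσ hσy
  set R := bdist π y with hR
  have hp' : dist p (π y) = R := hp
  -- a point of the ball near `p`
  set x : E := AffineMap.lineMap p (π y) (1/4 : ℝ) with hx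
  have h1 : dist x p = R / 4 := by
    rw [hx, dist_lineMap_left, hp']; norm_num; ring
  have h2 : dist x (π y) = 3 / 4 * R := by
    rw [hx, dist_lineMap_right, hp']; norm_num
  have hxb : x ∈ ball (π y) R := by rw [mem_ball, h2]; linarith
  obtain ⟨τ, hτ, hτx⟩ := exists_sec hπ (hb (σ x))
  rw [hσ.2 x hxb, hconst (σ x) y, ← hR] at hτ
  rw [hσ.2 x hxb] at hτx
  have hsub : ball p (R / 2) ⊆ ball x R := by
    apply ball_subset_ball'
    rw [dist_comm, h1]
    linarith
  exact hsing (R / 2) τ (by positivity) (hτ.mono hsub) x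
    ⟨by rw [mem_ball, h1]; linarith, hxb⟩ hτx

end top

section growth

variable (E : Type*) [NormedAddCommGroup E] [NormedSpace ℂ E]
  (M : Type*) [MetricSpace M] [ChartedSpace E M]

/-- Liouville property: continuous plurisubharmonic functions of growth `o(log r)` are constant -/
def LiouvilleLog : Prop :=
  ∀ (p : M) (u : M → ℝ), IsContPsh E u →
    (∀ ε : ℝ, 0 < ε → ∀ R₀ : ℝ, ∃ R > R₀, ∀ x, dist x p = R → u x ≤ ε * Real.log R) →
    ∀ x y, u x = u y

variable {E M} [FiniteDimensional ℂ E] [IsManifold 𝓘(ℂ, E) 1 M]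

theorem uniformization [ConnectedSpace M] (hKP : KeyProp E M) (hL : LiouvilleLog E M) {π : M → E}
    (hπ : IsLocalDiffeomorph 𝓘(ℂ, E) 𝓘(ℂ, E) 1 π) (p : M)
    (hgr : ∀ ε : ℝ, 0 < ε → ∀ R₀ : ℝ, ∃ R > R₀, ∀ x : M, dist x p = R →
      ∃ r ∈ radii π x, R ^ (-ε) ≤ r) :
    ∃ F : M ≃ₘ^1⟮𝓘(ℂ, E), 𝓘(ℂ, E)⟯ E, ∀ x, F x = π x := by
  by_cases hb : ∀ m, BddAbove (radii π m)
  · exfalso
    have hl := hπ.isLocalHomeomorph
    have hc := hL p _ (hKP.psh hπ hb) (fun ε hε R₀ => by
      obtain ⟨R, hR, h⟩ := hgr ε hε (max R₀ 1)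
      have hR0 : 0 < R := by
        have := (le_max_right R₀ 1).trans_lt hR
        linarith
      refine ⟨R, (le_max_left _ _).trans_lt hR, fun x hx => ?_⟩
      obtain ⟨r, hr, hcr⟩ := h x hx
      have h1 : R ^ (-ε) ≤ bdist π x := hcr.trans (le_csSup (hb x) hr)
      have h2 : 0 < R ^ (-ε) := by positivity
      have h3 := Real.log_le_log h2 h1
      rw [Real.log_rpow hR0] at h3
      linarith)
    refine bdist_not_const (E := E) hl hb fun x y => ?_
    have h1 := neg_injective (hc x y)
    exact Real.log_injOn_pos (bdist_pos hl (hb x)) (bdist_pos hl (hb y)) h1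
  · push Not at hb
    obtain ⟨m, hm⟩ := hb
    exact exists_diffeo_of_not_bddAbove hπ hm

end growth

end Vale.Agent.P253.R2.H922
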