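import Vale.Agent.P253.R2.H922.Grow
import Vale.Agent.P253.Bdl.B1

/-!
P253: a lower bound for the radii of the inverse branches of a locally biholomorphic map
`ϖ : M → E` of a complete Riemannian manifold from a lower bound of its differential.
-/

open scoped Manifold ContDiff Topology Bundle ENNReal
open Set Metric Filter Bundle IsManifold MeasureTheory Vale.Agent.P253.Mfd

set_option linter.unusedSectionVars false

noncomputable section

namespace Vale.Agent.P253.R2.H922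

section real

variable {E : Type*} [NormedAddCommGroup E] [NormedSpace ℂ E] [FiniteDimensional ℂ E]
  {M : Type*} [TopologicalSpace M] [ChartedSpace E M] [IsManifold 𝓘(ℂ, E) 1 M]

/-- holomorphic maps are smooth for the underlying real structures -/
theorem contMDiffAt_real {f : M → E} {x : M} (hf : ∀ᶠ y in 𝓝 x, MDifferentiableAt 𝓘(ℂ, E) 𝓘(ℂ, E) f y) :
    ContMDiffAt 𝓘(ℝ, E) 𝓘(ℝ, E) ∞ f x := by
  have hCE : CompleteSpace E := FiniteDimensional.complete ℂ E
  obtain ⟨W, hW, hWo, hxW⟩ := eventually_nhds_iff.1 hf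
  rw [contMDiffAt_iff]
  refine ⟨(hW x hxW).continuousAt, ?_⟩
  set e := chartAt E x with he
  set U : Set E := e.target ∩ e.symm ⁻¹' W with hU
  have hUo : IsOpen U := e.continuousOn_symm.isOpen_inter_preimage e.open_target hWo
  have hxU : e x ∈ U := ⟨e.map_source (mem_chart_source E x), by
    simp only [mem_preimage]
    rw [e.left_inv (mem_chart_source E x)]
    exact hxW⟩
  have hd : DifferentiableOn ℂ (f ∘ e.symm) U := by
    intro z hz
    have h1 : MDifferentiableAt 𝓘(ℂ, E) 𝓘(ℂ, E) e.symm z :=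
      ((contMDiffOn_symm_of_mem_maximalAtlas
        (chart_mem_maximalAtlas (I := 𝓘(ℂ, E)) (n := 1) x)).contMDiffAt
        (e.open_target.mem_nhds hz.1)).mdifferentiableAt (by simp)
    have h3 : MDifferentiableAt 𝓘(ℂ, E) 𝓘(ℂ, E) (f ∘ e.symm) z :=
      (hW (e.symm z) hz.2).comp z h1
    exact h3.differentiableAt.differentiableWithinAt
  have h4 : ContDiffAt ℝ ∞ (f ∘ e.symm) (e x) :=
    ((contDiffOn_of_differentiableOn_complex hUo hd).restrict_scalars ℝ).contDiffAt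
      (hUo.mem_nhds hxU)
  simp only [extChartAt, mfld_simps]
  exact h4.contDiffWithinAt

/-- maps from `E` to `M` given by an inverse chart are smooth for the real structures -/
theorem contMDiffAt_symm_real {f : E → M} {x : E} {e : OpenPartialHomeomorph M E}
    (he : e ∈ maximalAtlas 𝓘(ℂ, E) 1 M) (hx : x ∈ e.target) (hf : EqOn f e.symm e.target) :
    ContMDiffAt 𝓘(ℝ, E) 𝓘(ℝ, E) ∞ f x := by
  have hCE : CompleteSpace E := FiniteDimensional.complete ℂ E
  have hev : f =ᶠ[𝓝 x] e.symm := by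
    filter_upwards [e.open_target.mem_nhds hx] with y hy using hf hy
  refine ContMDiffAt.congr_of_eventuallyEq ?_ hev
  rw [contMDiffAt_iff]
  refine ⟨e.continuousAt_symm hx, ?_⟩
  set e' := chartAt E (e.symm x) with he'
  set U : Set E := e.target ∩ e.symm ⁻¹' e'.source with hU
  have hUo : IsOpen U := e.continuousOn_symm.isOpen_inter_preimage e.open_target e'.open_source
  have hxU : x ∈ U := ⟨hx, mem_chart_source E (e.symm x)⟩
  have hd : DifferentiableOn ℂ (e' ∘ e.symm) U := by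
    intro z hz
    have h1 : MDifferentiableAt 𝓘(ℂ, E) 𝓘(ℂ, E) e.symm z :=
      ((contMDiffOn_symm_of_mem_maximalAtlas he).contMDiffAt
        (e.open_target.mem_nhds hz.1)).mdifferentiableAt (by simp)
    have h2 : MDifferentiableAt 𝓘(ℂ, E) 𝓘(ℂ, E) e' (e.symm z) :=
      ((contMDiffOn_of_mem_maximalAtlas
        (chart_mem_maximalAtlas (I := 𝓘(ℂ, E)) (n := 1) (e.symm x))).contMDiffAt
        (e'.open_source.mem_nhds hz.2)).mdifferentiableAt (by simp)
    have h3 : MDifferentiableAt 𝓘(ℂ, E) 𝓘(ℂ, E) (e' ∘ e.symm) z := h2.comp z h1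
    exact h3.differentiableAt.differentiableWithinAt
  have h4 : ContDiffAt ℝ ∞ (e' ∘ e.symm) x :=
    ((contDiffOn_of_differentiableOn_complex hUo hd).restrict_scalars ℝ).contDiffAt
      (hUo.mem_nhds hxU)
  simp only [extChartAt, mfld_simps]
  exact h4.contDiffWithinAt

end real

variable {E : Type*} [NormedAddCommGroup E] [NormedSpace ℂ E] [FiniteDimensional ℂ E]
  {M : Type*} [MetricSpace M] [ChartedSpace E M]
  [IsManifold 𝓘(ℂ, E) 1 M] [IsManifold 𝓘(ℝ, E) ∞ M]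
  [RiemannianBundle (fun x : M => TangentSpace 𝓘(ℝ, E) x)]
  [IsRiemannianManifold 𝓘(ℝ, E) M] {ϖ : M → E}

/-- the differential of `f : M → E` at `x` (the tangent space at `x` is `E` as a vector space) -/
def dmap (f : M → E) (x : M) : E →L[ℝ] E := mfderiv 𝓘(ℝ, E) 𝓘(ℝ, E) f x

/-- If `|v|_g ≤ K ‖dϖ(v)‖` for all tangent vectors at points of the ball `B(y, R)`, then there is an
inverse branch of `ϖ` through `y` on the ball of radius `R / K`. -/
theorem mem_radii_of_metric [CompleteSpace M] (hq : IsLocalDiffeomorph 𝓘(ℂ, E) 𝓘(ℂ, E) 1 ϖ)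
    {y : M} {R K : ℝ} (hR : 0 < R) (hK : 0 < K)
    (hm : ∀ x : M, dist y x ≤ R → ∀ v : TangentSpace 𝓘(ℝ, E) x,
      ‖v‖ ≤ K * ‖dmap ϖ x v‖) : R / K ∈ radii ϖ y := by
  by_cases hb : BddAbove (radii ϖ y)
  swap
  · rw [not_bddAbove_iff] at hb
    obtain ⟨r, hr, h⟩ := hb (R / K)
    exact radii_mono hr h.le
  by_contra hnot
  have hl := hq.isLocalHomeomorph
  have hpos := bdist_pos hl hb
  have hlt : bdist ϖ y < R / K := by
    by_contra h
    push Not at h
    rcases h.eq_or_lt with h1 | h1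
    · obtain ⟨σ, h2, h3⟩ := exists_sec hl hb
      rw [← h1] at h2
      exact hnot ⟨σ, h2, h3⟩
    · obtain ⟨r, hr, h2⟩ := exists_lt_of_lt_csSup ⟨0, zero_mem_radii y⟩ h1
      exact hnot (radii_mono hr h2.le)
  obtain ⟨σ, hσ, hσy⟩ := exists_sec hl hb
  obtain ⟨p, hp, hsing⟩ := exists_sing (E := E) hl hb hσ hσy
  set δ := bdist ϖ y with hδ
  have hp' : dist p (ϖ y) = δ := hp
  set w : E := p - ϖ y with hw
  have hwn : ‖w‖ = δ := by rw [hw, ← dist_eq_norm, hp']
  set L : ℝ := K * δ with hL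
  have hLR : L < R := by
    rw [lt_div_iff₀ hK] at hlt
    rw [hL]; linarith
  have hL0 : 0 < L := by positivity
  set x : ℝ → E := fun t => ϖ y + t • w with hx
  have hxb : ∀ t ∈ Ioo (-1:ℝ) 1, x t ∈ ball (ϖ y) δ := by
    intro t ht
    rw [mem_ball, dist_eq_norm, hx, add_sub_cancel_left, norm_smul, hwn, Real.norm_eq_abs]
    have : |t| < 1 := abs_lt.2 ht
    nlinarith
  set γ : ℝ → M := fun t => σ (x t) with hγ
  have hpg : ∀ t ∈ Ioo (-1:ℝ) 1, ϖ (γ t) = x t := fun t ht => hσ.2 _ (hxb t ht)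
  have hγ0 : γ 0 = y := by simp only [hγ, hx, zero_smul, add_zero, hσy]
  -- smoothness
  have hγs : ∀ t ∈ Ioo (-1:ℝ) 1, ContMDiffAt 𝓘(ℝ, ℝ) 𝓘(ℝ, E) ∞ γ t := by
    intro t ht
    obtain ⟨e, he, h1, h2, h3⟩ := exists_chart_of_sec (hq (σ (x t))) isOpen_ball hσ (hxb t ht)
    have h4 := contMDiffAt_symm_real he h1 h3
    have h5 : ContMDiffAt 𝓘(ℝ, ℝ) 𝓘(ℝ, E) ∞ x t := by
      have : ContDiff ℝ ∞ x := by
        rw [hx]; fun_prop
      exact this.contMDiff.contMDiffAt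
    exact ContMDiffAt.comp t h4 h5
  have hγc : ContinuousOn γ (Ioo (-1) 1) := fun t ht => (hγs t ht).continuousAt.continuousWithinAt
  -- speed
  have hspeed : ∀ t ∈ Ioo (-1:ℝ) 1, dist y (γ t) ≤ R →
      ‖(mfderiv 𝓘(ℝ, ℝ) 𝓘(ℝ, E) γ t 1 : TangentSpace 𝓘(ℝ, E) (γ t))‖ ≤ L := by
    intro t ht hd
    have h1 := hm (γ t) hd (mfderiv 𝓘(ℝ, ℝ) 𝓘(ℝ, E) γ t 1)
    refine h1.trans (le_of_eq ?_)
    have hγd : MDifferentiableAt 𝓘(ℝ, ℝ) 𝓘(ℝ, E) γ t := (hγs t ht).mdifferentiableAt (by simp)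
    have hpd : MDifferentiableAt 𝓘(ℝ, E) 𝓘(ℝ, E) ϖ (γ t) :=
      (contMDiffAt_real (Eventually.of_forall fun z => (hq.mdifferentiable (by simp)) z)).mdifferentiableAt
        (by simp)
    have h2 : HasMFDerivAt 𝓘(ℝ, ℝ) 𝓘(ℝ, E) (ϖ ∘ γ) t
        ((mfderiv 𝓘(ℝ, E) 𝓘(ℝ, E) ϖ (γ t)).comp (mfderiv 𝓘(ℝ, ℝ) 𝓘(ℝ, E) γ t)) :=
      hpd.hasMFDerivAt.comp t hγd.hasMFDerivAt
    have hev : (ϖ ∘ γ) =ᶠ[𝓝 t] x := by
      filter_upwards [isOpen_Ioo.mem_nhds ht] with s hs using hpg s hs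
    have h3 : HasFDerivAt x ((ContinuousLinearMap.id ℝ ℝ).smulRight w) t := by
      have : HasFDerivAt (fun t : ℝ => ϖ y + t • w) ((ContinuousLinearMap.id ℝ ℝ).smulRight w) t :=
        ((hasFDerivAt_id t).smul_const w).const_add (ϖ y)
      exact this
    have h4 : HasMFDerivAt 𝓘(ℝ, ℝ) 𝓘(ℝ, E) (ϖ ∘ γ) t ((ContinuousLinearMap.id ℝ ℝ).smulRight w) :=
      h3.hasMFDerivAt.congr_of_eventuallyEq hev
    have h5 := hasMFDerivAt_unique h2 h4
    have h6 := congrArg (fun T : ℝ →L[ℝ] E => T 1) h5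
    have h7 : dmap ϖ (γ t) (mfderiv 𝓘(ℝ, ℝ) 𝓘(ℝ, E) γ t 1) = w := by
      have h8 : ((ContinuousLinearMap.id ℝ ℝ).smulRight w : ℝ →L[ℝ] E) 1 = w := by simp
      rw [← h8]
      exact h6
    rw [h7, hwn]
  -- distances
  have hdist : ∀ a b : ℝ, 0 ≤ a → a ≤ b → b < 1 → (∀ t ∈ Icc a b, dist y (γ t) ≤ R) →
      dist (γ a) (γ b) ≤ L * (b - a) := by
    intro a b ha hab hb' hbd
    have hsub : Icc a b ⊆ Ioo (-1:ℝ) 1 := fun t ht => ⟨by linarith [ht.1], by linarith [ht.2]⟩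
    have h1 : edist (γ a) (γ b) ≤
        ∫⁻ t in Ioo a b, ‖(mfderiv 𝓘(ℝ, ℝ) 𝓘(ℝ, E) γ t 1 : TangentSpace 𝓘(ℝ, E) (γ t))‖ₑ := by
      rw [IsRiemannianManifold.out (I := 𝓘(ℝ, E)) (γ a) (γ b)]
      refine (Manifold.riemannianEDist_le_pathELength (γ := γ) (a := a) (b := b)
        (fun t ht => ((hγs t (hsub ht)).of_le (by simp)).contMDiffWithinAt) rfl rfl hab).trans_eq ?_
      rw [Manifold.pathELength_eq_lintegral_mfderiv_Ioo]
    have h2 : ∫⁻ t in Ioo a b, ‖(mfderiv 𝓘(ℝ, ℝ) 𝓘(ℝ, E) γ t 1 : TangentSpace 𝓘(ℝ, E) (γ t))‖ₑ ≤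
        ∫⁻ t in Ioo a b, ENNReal.ofReal L := by
      apply setLIntegral_mono measurable_const
      intro t ht
      rw [← ofReal_norm]
      apply ENNReal.ofReal_le_ofReal
      exact hspeed t (hsub (Ioo_subset_Icc_self ht)) (hbd t (Ioo_subset_Icc_self ht))
    rw [setLIntegral_const, Real.volume_Ioo, ← ENNReal.ofReal_mul hL0.le] at h2
    have h3 := h1.trans h2
    rw [edist_dist, ENNReal.ofReal_le_ofReal_iff (mul_nonneg hL0.le (by linarith))] at h3
    exact h3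
  -- the curve stays in the ball
  have hin : ∀ t ∈ Ico (0:ℝ) 1, dist y (γ t) < R := by
    intro t₁ ht₁
    by_contra hcon
    push Not at hcon
    set S : Set ℝ := {t ∈ Icc (0:ℝ) t₁ | R ≤ dist y (γ t)} with hS
    have hsub : Icc (0:ℝ) t₁ ⊆ Ioo (-1:ℝ) 1 := fun t ht =>
      ⟨by linarith [ht.1], by linarith [ht.2, ht₁.2]⟩
    have hcont : ContinuousOn (fun t => dist y (γ t)) (Icc 0 t₁) :=
      continuous_dist.comp_continuousOn (continuousOn_const.prodMk (hγc.mono hsub))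
    have hSc : IsClosed S := by
      have := hcont.preimage_isClosed_of_isClosed isClosed_Icc (isClosed_Ici (a := R))
      exact this
    have hSne : S.Nonempty := ⟨t₁, ⟨ht₁.1, le_rfl⟩, hcon⟩
    have hSb : BddBelow S := ⟨0, fun t ht => ht.1.1⟩
    have ht₀ := hSc.csInf_mem hSne hSb
    set t₀ := sInf S with ht₀d
    have hlow : ∀ t ∈ Ico (0:ℝ) t₀, dist y (γ t) < R := by
      intro t ht
      by_contra h
      push Not at h
      have : t₀ ≤ t := csInf_le hSb ⟨⟨ht.1, ht.2.le.trans ht₀.1.2⟩, h⟩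
      linarith [ht.2]
    have ht₀pos : 0 < t₀ := by
      rcases ht₀.1.1.eq_or_lt with h | h
      · exfalso
        have h1 := ht₀.2
        rw [← h, hγ0, dist_self] at h1
        linarith
      · exact h
    have hle : dist y (γ t₀) ≤ R := by
      have h1 : Tendsto (fun t => dist y (γ t)) (𝓝[<] t₀) (𝓝 (dist y (γ t₀))) := by
        have h2 : ContinuousAt (fun t => dist y (γ t)) t₀ :=
          continuousAt_const.dist (hγs t₀ (hsub ht₀.1)).continuousAt
        exact h2.tendsto.mono_left nhdsWithin_le_nhds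
      refine le_of_tendsto h1 ?_
      filter_upwards [Ioo_mem_nhdsLT ht₀pos] with t ht
      exact (hlow t ⟨ht.1.le, ht.2⟩).le
    have h1 := hdist 0 t₀ le_rfl ht₀pos.le (ht₀.1.2.trans_lt ht₁.2) (fun t ht => by
      rcases ht.2.lt_or_eq with h | h
      · exact (hlow t ⟨ht.1, h⟩).le
      · rw [h]; exact hle)
    rw [hγ0, sub_zero] at h1
    have h2 : L * t₀ ≤ L * 1 := by
      gcongr
      linarith [ht₀.1.2, ht₁.2]
    linarith [ht₀.2]
  -- the limit point
  set s : ℕ → ℝ := fun n => 1 - 1 / ((n : ℝ) + 1) with hs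
  have hsI : ∀ n, s n ∈ Ico (0:ℝ) 1 := by
    intro n
    have h1 : (0:ℝ) < (n:ℝ) + 1 := by positivity
    have h2 : 1 / ((n:ℝ) + 1) ≤ 1 := by
      rw [div_le_one h1]; linarith [Nat.cast_nonneg (α := ℝ) n]
    have h3 : 0 < 1 / ((n:ℝ) + 1) := by positivity
    exact ⟨by simp only [hs]; linarith, by simp only [hs]; linarith⟩
  have hst : Tendsto s atTop (𝓝 1) := by
    have := (tendsto_one_div_add_atTop_nhds_zero_nat (𝕜 := ℝ)).const_sub 1
    rwa [sub_zero] at this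
  have hd2 : ∀ m n, dist (γ (s m)) (γ (s n)) ≤ L * dist (s m) (s n) := by
    have key : ∀ m n, s m ≤ s n → dist (γ (s m)) (γ (s n)) ≤ L * dist (s m) (s n) := by
      intro m n h
      rw [Real.dist_eq, abs_sub_comm, abs_of_nonneg (by linarith)]
      exact hdist _ _ (hsI m).1 h (hsI n).2 (fun t ht =>
        (hin t ⟨(hsI m).1.trans ht.1, ht.2.trans_lt (hsI n).2⟩).le)
    intro m n
    rcases le_total (s m) (s n) with h | h
    · exact key m n h
    · rw [dist_comm, dist_comm (s m)]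
      exact key n m h
  have hcau : CauchySeq (fun n => γ (s n)) := by
    rw [Metric.cauchySeq_iff]
    intro ε hε
    obtain ⟨N, hN⟩ := Metric.cauchySeq_iff.1 hst.cauchySeq (ε / L) (by positivity)
    refine ⟨N, fun m hm' n hn => (hd2 m n).trans_lt ?_⟩
    have := hN m hm' n hn
    rw [lt_div_iff₀ hL0] at this
    linarith
  obtain ⟨m, hmlim⟩ := cauchySeq_tendsto_of_complete hcau
  have hxs : Tendsto (fun n => x (s n)) atTop (𝓝 p) := by
    have h1 : Continuous x := by rw [hx]; fun_prop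
    have h2 := (h1.tendsto 1).comp hst
    have h3 : x 1 = p := by simp [hx, hw]
    rw [h3] at h2
    exact h2
  have hpm : ϖ m = p := by
    have h1 : Tendsto (fun n => ϖ (γ (s n))) atTop (𝓝 (ϖ m)) :=
      (hl.continuous.tendsto m).comp hmlim
    have h2 : (fun n => ϖ (γ (s n))) = fun n => x (s n) := by
      funext n
      exact hpg _ ⟨by linarith [(hsI n).1], (hsI n).2⟩
    rw [h2] at h1
    exact tendsto_nhds_unique h1 hxs
  obtain ⟨η, hη, τ, hτ, -, hτm⟩ := exists_local_sec hl m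
  rw [hpm] at hτ
  have h1 : ∀ᶠ n in atTop, τ (ϖ (γ (s n))) = γ (s n) := hmlim.eventually hτm
  have h2 : ∀ᶠ n in atTop, x (s n) ∈ ball p η := hxs.eventually (ball_mem_nhds p hη)
  obtain ⟨n, hn1, hn2⟩ := (h1.and h2).exists
  have hsn : s n ∈ Ioo (-1:ℝ) 1 := ⟨by linarith [(hsI n).1], (hsI n).2⟩
  rw [hpg _ hsn] at hn1
  exact hsing η τ hη hτ (x (s n)) ⟨hn2, hxb _ hsn⟩ hn1

end Vale.Agent.P253.R2.H922
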