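import Vale.Agent.P253.R2.H380.Stein.Loc

/-!
P253: functions of one complex variable with the local sub-mean value property; a maximum principle
with removable sets; logarithms of norms of holomorphic maps.
-/

open scoped Manifold ContDiff Topology InnerProductSpace
open Set Metric Filter IsManifold

set_option linter.unusedSectionVars false

noncomputable section

namespace Vale.Agent.P253.R2.H922

open Vale.Agent.P253.R2.H380.Stein

/-- the sub-mean value property on small circles around `z0` -/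
def SubM (ζ : ℂ → ℝ) (z0 : ℂ) : Prop :=
  ∀ᶠ ρ in 𝓝[>] (0:ℝ), CircleIntegrable ζ z0 ρ ∧ ζ z0 ≤ Real.circleAverage ζ z0 ρ

theorem SubM.add {ζ ξ : ℂ → ℝ} {z0 : ℂ} (h1 : SubM ζ z0) (h2 : SubM ξ z0) :
    SubM (fun z => ζ z + ξ z) z0 := by
  filter_upwards [h1, h2] with ρ a b
  refine ⟨a.1.add b.1, ?_⟩
  rw [Real.circleAverage_fun_add a.1 b.1]
  linarith [a.2, b.2]

theorem subM_const (c : ℝ) (z0 : ℂ) : SubM (fun _ => c) z0 := by
  filter_upwards with ρ
  exact ⟨circleIntegrable_const _ _ _, (Real.circleAverage_const c z0 ρ).ge⟩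

theorem SubM.const_mul {ζ : ℂ → ℝ} {z0 : ℂ} (h1 : SubM ζ z0) {c : ℝ} (hc : 0 ≤ c) :
    SubM (fun z => c * ζ z) z0 := by
  filter_upwards [h1] with ρ a
  refine ⟨a.1.const_mul c, ?_⟩
  have e2 : Real.circleAverage (fun z => c * ζ z) z0 ρ = c * Real.circleAverage ζ z0 ρ :=
    Real.circleAverage_fun_smul (a := c) (f := ζ)
  rw [e2]
  exact mul_le_mul_of_nonneg_left a.2 hc

theorem eventually_sphere {z0 : ℂ} {P : ℂ → Prop} (h : ∀ᶠ z in 𝓝 z0, P z) :
    ∀ᶠ ρ in 𝓝[>] (0:ℝ), ∀ z ∈ closedBall z0 ρ, P z := by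
  obtain ⟨ρ₀, hρ₀, h3⟩ := Metric.nhds_basis_closedBall.eventually_iff.1 h
  filter_upwards [(eventually_lt_nhds hρ₀).filter_mono nhdsWithin_le_nhds] with ρ hρ z hz
  exact h3 (closedBall_subset_closedBall hρ.le hz)

theorem SubM.congr {ζ ξ : ℂ → ℝ} {z0 : ℂ} (h1 : SubM ζ z0) (h : ∀ᶠ z in 𝓝 z0, ζ z = ξ z) :
    SubM ξ z0 := by
  filter_upwards [h1, eventually_sphere h, self_mem_nhdsWithin] with ρ a b hρ
  have hρ' : 0 < ρ := hρ
  have e1 : (fun θ => ζ (circleMap z0 ρ θ)) = fun θ => ξ (circleMap z0 ρ θ) := by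
    funext θ
    exact b _ (sphere_subset_closedBall (circleMap_mem_sphere z0 hρ'.le θ))
  have e2 : Real.circleAverage ζ z0 ρ = Real.circleAverage ξ z0 ρ := by
    apply Real.circleAverage_congr_sphere
    intro z hz
    rw [abs_of_pos hρ'] at hz
    exact b z (sphere_subset_closedBall hz)
  refine ⟨?_, ?_⟩
  · have h3 := a.1
    unfold CircleIntegrable at h3 ⊢
    rwa [e1] at h3
  · rw [← b z0 (mem_closedBall_self hρ'.le), ← e2]
    exact a.2

/-- the real part of a holomorphic function -/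
theorem subM_re {F : ℂ → ℂ} {z0 : ℂ} (hF : AnalyticAt ℂ F z0) : SubM (fun z => (F z).re) z0 := by
  filter_upwards [eventually_sphere hF.eventually_analyticAt, self_mem_nhdsWithin] with ρ a hρ
  have hρ' : 0 < ρ := hρ
  have hc : ContinuousOn F (closedBall z0 ρ) := fun z hz => (a z hz).continuousAt.continuousWithinAt
  refine ⟨((Complex.continuous_re.comp_continuousOn hc).mono
    sphere_subset_closedBall).circleIntegrable hρ'.le, ?_⟩
  rw [re_circleAverage hρ' hc fun z hz =>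
    (a z (ball_subset_closedBall hz)).differentiableAt.differentiableWithinAt]

/-- harmonic functions `log |F|` and `-log |F|` -/
theorem subM_log {F : ℂ → ℂ} {z0 : ℂ} (hF : AnalyticAt ℂ F z0) (h0 : F z0 ≠ 0) (c : ℝ) :
    SubM (fun z => c * Real.log ‖F z‖) z0 := by
  -- the quotient is close to one
  have h1 : AnalyticAt ℂ (fun z => F z / F z0) z0 := hF.div_const
  have h2 : (fun z => F z / F z0) z0 ∈ Complex.slitPlane := by
    simp only [div_self h0]
    exact Complex.one_mem_slitPlane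
  have h3 : AnalyticAt ℂ (fun z => (c : ℂ) * Complex.log (F z / F z0) + c * Real.log ‖F z0‖) z0 :=
    (analyticAt_const.mul (h1.clog h2)).add analyticAt_const
  refine (subM_re h3).congr ?_
  have h4 : ∀ᶠ z in 𝓝 z0, F z ≠ 0 := hF.continuousAt.eventually_ne h0
  filter_upwards [h4] with z hz
  rw [Complex.add_re, Complex.re_ofReal_mul, Complex.log_re, norm_div, Real.log_div
    (norm_ne_zero_iff.2 hz) (norm_ne_zero_iff.2 h0)]
  have : ((c : ℂ) * (Real.log ‖F z0‖ : ℂ)).re = c * Real.log ‖F z0‖ := by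
    rw [Complex.re_ofReal_mul, Complex.ofReal_re]
  rw [this]
  ring

variable {V : Type*} [NormedAddCommGroup V] [InnerProductSpace ℂ V] [CompleteSpace V]

theorem analyticAt_inner {G : ℂ → V} {z0 : ℂ} (hG : AnalyticAt ℂ G z0) (a : V) :
    AnalyticAt ℂ (fun z => ⟪a, G z⟫_ℂ) z0 :=
  ((innerSL ℂ a).analyticAt (G z0)).comp hG

theorem continuousAt_circle {ζ : ℂ → ℝ} {z0 : ℂ} (h : ∀ᶠ z in 𝓝 z0, ContinuousAt ζ z) :
    ∀ᶠ ρ in 𝓝[>] (0:ℝ), CircleIntegrable ζ z0 ρ := by
  filter_upwards [eventually_sphere h, self_mem_nhdsWithin] with ρ a hρ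
  have hρ' : 0 < ρ := hρ
  have hc : ContinuousOn ζ (closedBall z0 ρ) := fun z hz => (a z hz).continuousWithinAt
  exact (hc.mono sphere_subset_closedBall).circleIntegrable hρ'.le

/-- monotonicity: a function above a function with the sub-mean property and equal to it at the
centre -/
theorem SubM.of_le {ζ ξ : ℂ → ℝ} {z0 : ℂ} (h1 : SubM ζ z0) (hc : ∀ᶠ z in 𝓝 z0, ContinuousAt ξ z)
    (h : ∀ᶠ z in 𝓝 z0, ζ z ≤ ξ z) (h0 : ξ z0 ≤ ζ z0) : SubM ξ z0 := by
  filter_upwards [h1, eventually_sphere h, self_mem_nhdsWithin, continuousAt_circle hc]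
    with ρ a b hρ hi
  have hρ' : 0 < ρ := hρ
  refine ⟨hi, h0.trans (a.2.trans ?_)⟩
  refine Real.circleAverage_mono a.1 hi fun z hz => ?_
  rw [abs_of_pos hρ'] at hz
  exact b z (sphere_subset_closedBall hz)

/-- the squared norm of a holomorphic map -/
theorem subM_normSq {G : ℂ → V} {z0 : ℂ} (hG : AnalyticAt ℂ G z0) :
    SubM (fun z => ‖G z‖ ^ 2) z0 := by
  have h1 : SubM (fun z => 2 * (⟪G z0, G z⟫_ℂ).re + -‖G z0‖ ^ 2) z0 :=
    ((subM_re (analyticAt_inner hG _)).const_mul zero_le_two).add (subM_const _ _)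
  refine h1.of_le ?_ ?_ ?_
  · filter_upwards [hG.eventually_analyticAt] with z hz using hz.continuousAt.norm.pow 2
  · filter_upwards with z
    have h2 := @norm_sub_sq ℂ _ _ _ _ (G z0) (G z)
    have h3 : 0 ≤ ‖G z0 - G z‖ ^ 2 := by positivity
    simp only [RCLike.re_to_complex] at h2
    linarith
  · have h2 : (⟪G z0, G z0⟫_ℂ).re = ‖G z0‖ ^ 2 := by
      have := @inner_self_eq_norm_sq ℂ _ _ _ _ (G z0)
      simpa using this
    rw [h2]
    linarith

/-- the logarithm of the norm of a holomorphic map, away from its zeros -/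
theorem subM_log_norm {G : ℂ → V} {z0 : ℂ} (hG : AnalyticAt ℂ G z0) (h0 : G z0 ≠ 0) {c : ℝ}
    (hc : 0 ≤ c) : SubM (fun z => c * Real.log ‖G z‖) z0 := by
  set a : V := ((‖G z0‖⁻¹ : ℝ) : ℂ) • G z0 with ha
  have hn : 0 < ‖G z0‖ := norm_pos_iff.2 h0
  have hna : ‖a‖ = 1 := by
    rw [ha, norm_smul, Complex.norm_real, Real.norm_eq_abs, abs_of_pos (by positivity)]
    field_simp
  have hF := analyticAt_inner hG a
  have e0 : ‖⟪a, G z0⟫_ℂ‖ = ‖G z0‖ := by
    rw [ha, inner_smul_left, norm_mul, RCLike.norm_conj, Complex.norm_real, Real.norm_eq_abs,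
      abs_of_pos (by positivity), inner_self_eq_norm_sq_to_K]
    simp only [Complex.coe_algebraMap, norm_pow, Complex.norm_real, norm_norm]
    field_simp
  have hF0 : ⟪a, G z0⟫_ℂ ≠ 0 := by
    rw [← norm_ne_zero_iff, e0]
    exact hn.ne'
  refine (subM_log hF hF0 c).of_le ?_ ?_ ?_
  · filter_upwards [hG.eventually_analyticAt, hG.continuousAt.eventually_ne h0] with z hz hz0
    exact (hz.continuousAt.norm.log (norm_ne_zero_iff.2 hz0)).const_mul c
  · filter_upwards [hF.continuousAt.eventually_ne hF0] with z hz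
    refine mul_le_mul_of_nonneg_left ?_ hc
    refine Real.log_le_log (norm_pos_iff.2 hz) ?_
    have := norm_inner_le_norm (𝕜 := ℂ) a (G z)
    rwa [hna, one_mul] at this
  · rw [e0]

/-- a maximum principle: the function `ζ` has the sub-mean value property on the disc minus the
closed set `A` and is at most `m` on the circle and near `A` -/
theorem max_principle {ζ : ℂ → ℝ} {z0 : ℂ} {r m : ℝ} {A : Set ℂ}
    (hA : IsClosed (closedBall z0 r ∩ A)) (hc : ContinuousOn ζ (closedBall z0 r \ A))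
    (hs : ∀ z ∈ ball z0 r \ A, SubM ζ z) (hb : ∀ z ∈ sphere z0 r \ A, ζ z ≤ m)
    (hn : ∀ x ∈ closedBall z0 r ∩ A, ∀ᶠ z in 𝓝[closedBall z0 r \ A] x, ζ z ≤ m) :
    ∀ z ∈ closedBall z0 r \ A, ζ z ≤ m := by
  intro z₁ hz₁
  by_contra hcon
  push Not at hcon
  have hr0 : 0 ≤ r := dist_nonneg.trans (mem_closedBall.1 hz₁.1)
  set η : ℝ := (ζ z₁ - m) / (2 * (r ^ 2 + 1)) with hη
  have hη0 : 0 < η := div_pos (by linarith) (by positivity)
  have hηr : η * r ^ 2 < (ζ z₁ - m) := by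
    have h1 : η * (2 * (r ^ 2 + 1)) = ζ z₁ - m := by
      rw [hη]; field_simp
    nlinarith [mul_nonneg hη0.le (sq_nonneg r)]
  set ξ : ℂ → ℝ := fun z => ζ z + η * ‖z - z0‖ ^ 2 with hξ
  have hnorm : ∀ z ∈ closedBall z0 r, η * ‖z - z0‖ ^ 2 ≤ η * r ^ 2 := by
    intro z hz
    rw [mem_closedBall, dist_eq_norm] at hz
    gcongr
  set T : Set ℂ := {z ∈ closedBall z0 r | z ∉ A ∧ ξ z₁ ≤ ξ z} with hT
  have hξc : ContinuousOn ξ (closedBall z0 r \ A) := by
    refine hc.add ?_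
    have : Continuous fun z : ℂ => η * ‖z - z0‖ ^ 2 := by fun_prop
    exact this.continuousOn
  have hT1 : ∀ z ∈ T, m < ζ z := by
    intro z hz
    have h1 := hnorm z hz.1
    have h2 : ξ z₁ ≤ ξ z := hz.2.2
    have h3 : 0 ≤ η * ‖z₁ - z0‖ ^ 2 := by positivity
    simp only [hξ] at h2
    linarith
  have hTsub : T ⊆ closedBall z0 r \ A := fun z hz => ⟨hz.1, hz.2.1⟩
  have hTc : IsClosed T := by
    rw [← isSeqClosed_iff_isClosed]
    intro u x hu hux
    have hx1 : x ∈ closedBall z0 r := isClosed_closedBall.mem_of_tendsto hux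
      (Eventually.of_forall fun k => (hu k).1)
    have hux' : Tendsto u atTop (𝓝[closedBall z0 r \ A] x) :=
      tendsto_nhdsWithin_iff.2 ⟨hux, Eventually.of_forall fun k => hTsub (hu k)⟩
    have hx2 : x ∉ A := by
      intro hxA
      obtain ⟨k, hk⟩ := (hux'.eventually (hn x ⟨hx1, hxA⟩)).exists
      exact absurd (hT1 _ (hu k)) (not_lt.2 hk)
    refine ⟨hx1, hx2, ?_⟩
    have h1 : Tendsto (fun k => ξ (u k)) atTop (𝓝 (ξ x)) := (hξc x ⟨hx1, hx2⟩).tendsto.comp hux'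
    exact ge_of_tendsto h1 (Eventually.of_forall fun k => (hu k).2.2)
  have hTcpt : IsCompact T := (isCompact_closedBall z0 r).of_isClosed_subset hTc fun z hz => hz.1
  obtain ⟨x, hxT, hx⟩ := hTcpt.exists_isMaxOn ⟨z₁, hz₁.1, hz₁.2, le_rfl⟩ (hξc.mono hTsub)
  have hmax : ∀ z ∈ closedBall z0 r \ A, ξ z ≤ ξ x := by
    intro z hz
    by_cases h : ξ z₁ ≤ ξ z
    · exact hx ⟨hz.1, hz.2, h⟩
    · exact (not_le.1 h).le.trans hxT.2.2
  have hxb : x ∈ ball z0 r := by
    rcases (mem_closedBall.1 hxT.1).lt_or_eq with h | h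
    · exact h
    · exact absurd (hT1 x hxT) (not_lt.2 (hb x ⟨h, hxT.2.1⟩))
  have hev : ∀ᶠ z in 𝓝 x, z ∈ closedBall z0 r \ A := by
    have h1 : ∀ᶠ z in 𝓝 x, z ∈ ball z0 r := isOpen_ball.mem_nhds hxb
    have h2 : ∀ᶠ z in 𝓝 x, z ∉ closedBall z0 r ∩ A :=
      hA.isOpen_compl.mem_nhds fun h => hxT.2.1 h.2
    filter_upwards [h1, h2] with z hz1 hz2
    exact ⟨ball_subset_closedBall hz1, fun h => hz2 ⟨ball_subset_closedBall hz1, h⟩⟩
  have hsx := hs x ⟨hxb, hxT.2.1⟩
  have hpos : ∀ᶠ ρ in 𝓝[>] (0:ℝ), 0 < ρ := self_mem_nhdsWithin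
  obtain ⟨ρ, ⟨hi, hsub⟩, hρ', hball⟩ := (hsx.and (hpos.and (eventually_sphere hev))).exists
  have i2 : CircleIntegrable (fun z : ℂ => η * (2 * (((starRingEnd ℂ) (x - z0)) * (z - z0)).re
      + (ρ ^ 2 - ‖x - z0‖ ^ 2))) x ρ := by
    apply ContinuousOn.circleIntegrable hρ'.le
    fun_prop
  -- the average of the quadratic term
  have hq : ∀ z ∈ sphere x ρ, ‖z - z0‖ ^ 2 =
      2 * (((starRingEnd ℂ) (x - z0)) * (z - z0)).re + (ρ ^ 2 - ‖x - z0‖ ^ 2) := by
    intro z hz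
    rw [mem_sphere, dist_eq_norm] at hz
    have h1 : z - z0 = (z - x) + (x - z0) := by ring
    have h2 : ‖z - x‖ ^ 2 = ρ ^ 2 := by rw [hz]
    rw [← Complex.normSq_eq_norm_sq] at h2 ⊢
    rw [← Complex.normSq_eq_norm_sq]
    rw [Complex.normSq_apply] at h2 ⊢
    rw [Complex.normSq_apply]
    simp only [Complex.mul_re, Complex.conj_re, Complex.conj_im, Complex.sub_re, Complex.sub_im]
      at h2 ⊢
    linarith
  have hlin : Real.circleAverage (fun z : ℂ => η * (2 * (((starRingEnd ℂ) (x - z0)) * (z - z0)).re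
      + (ρ ^ 2 - ‖x - z0‖ ^ 2))) x ρ = η * (‖x - z0‖ ^ 2 + ρ ^ 2) := by
    set F : ℂ → ℂ := fun z => (η : ℂ) * (2 * (((starRingEnd ℂ) (x - z0)) * (z - z0)) +
      ((ρ ^ 2 - ‖x - z0‖ ^ 2 : ℝ) : ℂ)) with hF
    have hFd : Differentiable ℂ F := by
      rw [hF]; fun_prop
    have e1 : (fun z : ℂ => η * (2 * (((starRingEnd ℂ) (x - z0)) * (z - z0)).re
      + (ρ ^ 2 - ‖x - z0‖ ^ 2))) = fun z => (F z).re := by
      funext z
      simp only [hF, Complex.re_ofReal_mul, Complex.add_re, Complex.ofReal_re]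
      congr 2
      have := Complex.re_ofReal_mul 2 (((starRingEnd ℂ) (x - z0)) * (z - z0))
      rw [← this]; norm_num
    rw [e1, re_circleAverage hρ' hFd.continuous.continuousOn hFd.differentiableOn]
    have e2 := congrFun e1 x
    rw [← e2]
    have h2 : (((starRingEnd ℂ) (x - z0)) * (x - z0)).re = ‖x - z0‖ ^ 2 := by
      rw [← Complex.normSq_eq_conj_mul_self, Complex.ofReal_re, Complex.normSq_eq_norm_sq]
    rw [h2]; ring
  have h5 : Real.circleAverage (fun z : ℂ => ζ z + η * (2 * (((starRingEnd ℂ) (x - z0)) *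
      (z - z0)).re + (ρ ^ 2 - ‖x - z0‖ ^ 2))) x ρ ≤ Real.circleAverage (fun _ => ξ x) x ρ := by
    refine Real.circleAverage_mono (hi.add i2) (circleIntegrable_const _ _ _) fun z hz => ?_
    rw [abs_of_pos hρ'] at hz
    have h6 := hmax z (hball z (sphere_subset_closedBall hz))
    rw [← hq z hz]
    exact h6
  rw [Real.circleAverage_fun_add hi i2, hlin, Real.circleAverage_const] at h5
  have h6 : ξ x = ζ x + η * ‖x - z0‖ ^ 2 := rfl
  have h7 : 0 < η * ρ ^ 2 := by positivity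
  rw [h6] at h5
  nlinarith

end Vale.Agent.P253.R2.H922
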