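import Vale.Agent.P253.R2.H922.NB1

/-!
P253: plurisubharmonic functions with logarithmic poles made from a strictly plurisubharmonic
function; the two point estimate for holomorphic discs.
-/

open scoped Manifold ContDiff Topology InnerProductSpace
open Set Metric Filter IsManifold

set_option linter.unusedSectionVars false

noncomputable section

namespace Vale.Agent.P253.R2.H922

open Vale.Agent.P253.R2.H380.Stein

/-- the profile `log t + 1 - t` for `t ≤ 1`, `0` for `t ≥ 1` -/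
def hh (t : ℝ) : ℝ := Real.log (min t 1) + 1 - min t 1

theorem hh_nonpos {t : ℝ} (ht : 0 < t) : hh t ≤ 0 := by
  have h1 : 0 < min t 1 := lt_min ht one_pos
  have := Real.log_le_sub_one_of_pos h1
  unfold hh
  linarith

theorem hh_of_ge {t : ℝ} (ht : 1 ≤ t) : hh t = 0 := by
  unfold hh
  rw [min_eq_right ht, Real.log_one]; ring

theorem hh_of_le {t : ℝ} (ht : t ≤ 1) : hh t = Real.log t + 1 - t := by
  unfold hh
  rw [min_eq_left ht]

theorem continuousAt_hh {t : ℝ} (ht : 0 < t) : ContinuousAt hh t := by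
  have h1 : 0 < min t 1 := lt_min ht one_pos
  have h2 : ContinuousAt (fun t : ℝ => min t 1) t := (continuous_id.min continuous_const).continuousAt
  exact ((h2.log h1.ne').add continuousAt_const).sub h2

theorem qh_ge {σ t : ℝ} (hσ : 1 ≤ σ) (ht : 0 < t) :
    σ * (1 + Real.log t - Real.log σ) ≤ hh t + t := by
  have hσ0 : 0 < σ := by linarith
  rcases le_total t 1 with h | h
  · rw [hh_of_le h]
    have h1 : Real.log t ≤ 0 := Real.log_nonpos ht.le h
    have h2 : 1 - σ⁻¹ ≤ Real.log σ := Real.one_sub_inv_le_log_of_pos hσ0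
    have h3 : σ - 1 ≤ σ * Real.log σ := by
      have := mul_le_mul_of_nonneg_left h2 hσ0.le
      rwa [mul_sub, mul_one, mul_inv_cancel₀ hσ0.ne'] at this
    nlinarith
  · rw [hh_of_ge h]
    have h1 : Real.log (t / σ) ≤ t / σ - 1 := Real.log_le_sub_one_of_pos (by positivity)
    rw [Real.log_div ht.ne' hσ0.ne'] at h1
    have h2 := mul_le_mul_of_nonneg_left h1 hσ0.le
    have h3 : σ * (t / σ - 1) = t - σ := by field_simp
    rw [h3] at h2
    linarith

theorem qh_eq (t : ℝ) :
    hh t + t ≤ max 1 t * (1 + Real.log t - Real.log (max 1 t)) := by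
  rcases le_total t 1 with h | h
  · rw [hh_of_le h, max_eq_left h, Real.log_one]
    linarith
  · rw [hh_of_ge h, max_eq_right h]
    linarith

variable {E : Type*} [NormedAddCommGroup E] [NormedSpace ℂ E] [FiniteDimensional ℂ E]
  {M : Type*} [TopologicalSpace M] [T2Space M] [ChartedSpace E M] [IsManifold 𝓘(ℂ, E) 1 M]

theorem subM_psh {b : M → ℝ} (hb : IsContPsh E b) {f : ℂ → M} {O : Set ℂ} (hO : IsOpen O)
    (hf : MDifferentiableOn 𝓘(ℂ, ℂ) 𝓘(ℂ, E) f O) {z : ℂ} (hz : z ∈ O) :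
    SubM (fun z => b (f z)) z := by
  have hpos : ∀ᶠ ρ in 𝓝[>] (0:ℝ), 0 < ρ := self_mem_nhdsWithin
  filter_upwards [eventually_sphere (hO.mem_nhds hz), hpos] with ρ h hρ
  have hsub : closedBall z ρ ⊆ O := h
  have hc : ContinuousOn f (closedBall z ρ) := hf.continuousOn.mono hsub
  refine ⟨((hb.1.comp_continuousOn hc).mono sphere_subset_closedBall).circleIntegrable hρ.le, ?_⟩
  exact hb.2 f z ρ hρ hc (hf.mono (ball_subset_closedBall.trans hsub))

variable {e : OpenPartialHomeomorph M E} {n : ℕ} {L : E ≃L[ℂ] EuclideanSpace ℂ (Fin n)} {ε : ℝ}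

variable (E) in
/-- `b - ε * ‖L ∘ e‖ ^ 2` satisfies the sub-mean value inequality along the holomorphic discs in the
domain of the chart `e` -/
def StrictOn (b : M → ℝ) (e : OpenPartialHomeomorph M E) {n : ℕ}
    (L : E ≃L[ℂ] EuclideanSpace ℂ (Fin n)) (ε : ℝ) : Prop :=
  ∀ (f : ℂ → M) (c : ℂ) (r : ℝ), 0 < r → ContinuousOn f (closedBall c r) →
    MDifferentiableOn 𝓘(ℂ, ℂ) 𝓘(ℂ, E) f (ball c r) → (∀ z ∈ closedBall c r, f z ∈ e.source) →
    b (f c) - ε * ‖L (e (f c))‖ ^ 2 ≤
      Real.circleAverage (fun z => b (f z) - ε * ‖L (e (f z))‖ ^ 2) c r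

theorem subM_strict {b : M → ℝ} (hb : Continuous b) (hs : StrictOn E b e L ε) {f : ℂ → M}
    {O : Set ℂ} (hO : IsOpen O)
    (hf : MDifferentiableOn 𝓘(ℂ, ℂ) 𝓘(ℂ, E) f O) {z : ℂ} (hz : z ∈ O) (hfz : f z ∈ e.source) :
    SubM (fun z => b (f z) - ε * ‖L (e (f z))‖ ^ 2) z := by
  have hpos : ∀ᶠ ρ in 𝓝[>] (0:ℝ), 0 < ρ := self_mem_nhdsWithin
  have hO' : IsOpen (O ∩ f ⁻¹' e.source) := hf.continuousOn.isOpen_inter_preimage hO e.open_source
  filter_upwards [eventually_sphere (hO'.mem_nhds ⟨hz, hfz⟩), hpos] with ρ h hρ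
  have hsub : closedBall z ρ ⊆ O := fun w hw => (h w hw).1
  have hc : ContinuousOn f (closedBall z ρ) := hf.continuousOn.mono hsub
  have hsrc : ∀ w ∈ closedBall z ρ, f w ∈ e.source := fun w hw => (h w hw).2
  have h1 : ContinuousOn (fun z => b (f z) - ε * ‖L (e (f z))‖ ^ 2) (closedBall z ρ) := by
    refine (hb.comp_continuousOn hc).sub (continuousOn_const.mul ((ContinuousOn.norm ?_).pow 2))
    exact L.continuous.comp_continuousOn (e.continuousOn.comp hc hsrc)
  refine ⟨(h1.mono sphere_subset_closedBall).circleIntegrable hρ.le, ?_⟩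
  exact hs f z ρ hρ hc (hf.mono (ball_subset_closedBall.trans hsub)) hsrc

theorem analyticAt_chart (he : e ∈ maximalAtlas 𝓘(ℂ, E) 1 M) (L : E ≃L[ℂ] EuclideanSpace ℂ (Fin n))
    {f : ℂ → M} {O : Set ℂ} (hO : IsOpen O)
    (hf : MDifferentiableOn 𝓘(ℂ, ℂ) 𝓘(ℂ, E) f O) {z : ℂ} (hz : z ∈ O) (hfz : f z ∈ e.source) :
    AnalyticAt ℂ (fun z => L (e (f z))) z := by
  have hCE : CompleteSpace E := FiniteDimensional.complete ℂ E
  have hO' : IsOpen (O ∩ f ⁻¹' e.source) := hf.continuousOn.isOpen_inter_preimage hO e.open_source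
  have hd : DifferentiableOn ℂ (fun z => L (e (f z))) (O ∩ f ⁻¹' e.source) := by
    intro w hw
    have h1 : MDifferentiableAt 𝓘(ℂ, E) 𝓘(ℂ, E) e (f w) :=
      ((contMDiffOn_of_mem_maximalAtlas he).contMDiffAt
        (e.open_source.mem_nhds hw.2)).mdifferentiableAt (by simp)
    have h2 : MDifferentiableAt 𝓘(ℂ, ℂ) 𝓘(ℂ, E) f w :=
      (hf w hw.1).mdifferentiableAt (hO.mem_nhds hw.1)
    have h3 : DifferentiableAt ℂ (fun z => e (f z)) w := (h1.comp w h2).differentiableAt
    exact (L.differentiableAt.comp w h3).differentiableWithinAt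
  exact hd.analyticAt (hO'.mem_nhds ⟨hz, hfz⟩)

variable (e L) in
open Classical in
/-- the function with logarithmic pole at `p` -/
def bump (p : M) (ρ : ℝ) (x : M) : ℝ :=
  if x ∈ e.source then hh (‖L (e x) - L (e p)‖ ^ 2 / ρ ^ 2) else 0

variable (e L) in
/-- the closed coordinate ball -/
def cball (p : M) (ρ : ℝ) : Set M := {x | x ∈ e.source ∧ ‖L (e x) - L (e p)‖ ≤ ρ}

theorem bump_eq_zero {p x : M} {ρ : ℝ} (hρ : 0 < ρ) (hx : x ∈ e.source → ρ ≤ ‖L (e x) - L (e p)‖) :
    bump e L p ρ x = 0 := by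
  unfold bump
  split_ifs with h
  · apply hh_of_ge
    rw [one_le_div (by positivity)]
    have := hx h
    gcongr
  · rfl

theorem norm_pos_of_ne {p x : M} (hp : p ∈ e.source) (hx : x ∈ e.source) (hne : x ≠ p) :
    0 < ‖L (e x) - L (e p)‖ := by
  rw [norm_pos_iff, sub_ne_zero]
  intro h
  exact hne (e.injOn hx hp (L.injective h))

theorem bump_nonpos {p x : M} {ρ : ℝ} (hρ : 0 < ρ) (hp : p ∈ e.source) (hne : x ≠ p) :
    bump e L p ρ x ≤ 0 := by
  unfold bump
  split_ifs with h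
  · apply hh_nonpos
    have := norm_pos_of_ne (L := L) hp h hne
    positivity
  · exact le_rfl

theorem continuousAt_bump {p x : M} {ρ : ℝ} (hρ : 0 < ρ) (hp : p ∈ e.source)
    (hcl : IsClosed (cball e L p ρ)) (hne : x ≠ p) : ContinuousAt (bump e L p ρ) x := by
  by_cases hx : x ∈ e.source
  · have h1 : ContinuousAt (fun x => ‖L (e x) - L (e p)‖ ^ 2 / ρ ^ 2) x := by
      refine ContinuousAt.div_const (ContinuousAt.pow (ContinuousAt.norm
        (ContinuousAt.sub ?_ continuousAt_const)) 2) _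
      exact L.continuous.continuousAt.comp (e.continuousAt hx)
    have h2 : 0 < ‖L (e x) - L (e p)‖ ^ 2 / ρ ^ 2 := by
      have := norm_pos_of_ne (L := L) hp hx hne
      positivity
    have h3 : ContinuousAt (fun x => hh (‖L (e x) - L (e p)‖ ^ 2 / ρ ^ 2)) x :=
      ContinuousAt.comp (g := hh) (continuousAt_hh h2) h1
    refine h3.congr ?_
    filter_upwards [e.open_source.mem_nhds hx] with y hy
    rw [bump, if_pos hy]
  · have h1 : ∀ᶠ y in 𝓝 x, y ∉ cball e L p ρ := hcl.isOpen_compl.mem_nhds fun h => hx h.1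
    refine (continuousAt_const (y := (0:ℝ))).congr ?_
    filter_upwards [h1] with y hy
    refine (bump_eq_zero hρ fun hys => ?_).symm
    by_contra hcon
    exact hy ⟨hys, (not_le.1 hcon).le⟩

/-- the sub-mean value property of `b + s * bump` along holomorphic discs, away from the pole -/
theorem subM_bump {b : M → ℝ} (hb : IsContPsh E b) (he : e ∈ maximalAtlas 𝓘(ℂ, E) 1 M)
    (hs : StrictOn E b e L ε) {p : M} {ρ s : ℝ} (hρ : 0 < ρ) (hp : p ∈ e.source)
    (hcl : IsClosed (cball e L p ρ)) (hs0 : 0 ≤ s) (hsε : s / ρ ^ 2 ≤ ε) {f : ℂ → M}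
    {O : Set ℂ} (hO : IsOpen O)
    (hf : MDifferentiableOn 𝓘(ℂ, ℂ) 𝓘(ℂ, E) f O) {z : ℂ} (hz : z ∈ O) (hne : f z ≠ p) :
    SubM (fun z => b (f z) + s * bump e L p ρ (f z)) z := by
  by_cases hx : f z ∈ e.source
  · have hG : AnalyticAt ℂ (fun z => L (e (f z))) z := analyticAt_chart he L hO hf hz hx
    have hG' : AnalyticAt ℂ (fun z => L (e (f z)) - L (e p)) z := hG.sub analyticAt_const
    have hG0 : L (e (f z)) - L (e p) ≠ 0 := norm_pos_iff.1 (norm_pos_of_ne hp hx hne)
    have hfc : ContinuousAt f z := (hf.continuousOn.continuousAt (hO.mem_nhds hz))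
    set G : ℂ → EuclideanSpace ℂ (Fin n) := fun z => L (e (f z)) - L (e p) with hGdef
    set t : ℂ → ℝ := fun z => ‖G z‖ ^ 2 / ρ ^ 2 with ht
    have hev : ∀ᶠ w in 𝓝 z, f w ∈ e.source ∧ G w ≠ 0 :=
      (hfc.eventually (e.open_source.mem_nhds hx)).and (hG'.continuousAt.eventually_ne hG0)
    -- the first three terms
    have h1 := subM_strict hb.1 hs hO hf hz hx
    have h2 := (subM_normSq hG').const_mul (c := ε - s / ρ ^ 2) (by linarith)
    have hε0 : 0 ≤ ε := le_trans (by positivity) hsε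
    have h3 := ((subM_re (analyticAt_inner hG (L (e p)))).const_mul
      (c := 2 * ε) (by positivity)).add (subM_const (-ε * ‖L (e p)‖ ^ 2) z)
    -- the last term
    have ht0 : 0 < t z := by
      have := norm_pos_iff.2 hG0
      simp only [ht]
      positivity
    set σ : ℝ := max 1 (t z) with hσ
    have hσ1 : 1 ≤ σ := le_max_left _ _
    have h4 : SubM (fun z => hh (t z) + t z) z := by
      have h5 : SubM (fun z => (σ * 2) * Real.log ‖G z‖ + σ * (1 - Real.log (ρ ^ 2) - Real.log σ))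
          z := (subM_log_norm hG' hG0 (by positivity)).add (subM_const _ _)
      have h6 : ∀ w, G w ≠ 0 → (σ * 2) * Real.log ‖G w‖ + σ * (1 - Real.log (ρ ^ 2) - Real.log σ) =
          σ * (1 + Real.log (t w) - Real.log σ) := by
        intro w hw
        have : 0 < ‖G w‖ := norm_pos_iff.2 hw
        have e7 : Real.log (‖G w‖ ^ 2) = 2 * Real.log ‖G w‖ := by
          rw [Real.log_pow]; norm_num
        simp only [ht]
        rw [Real.log_div (by positivity) (by positivity), e7]
        ring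
      refine h5.of_le ?_ ?_ ?_
      · filter_upwards [hev, hG'.eventually_analyticAt] with w hw hwa
        have h7 : ContinuousAt t w := (hwa.continuousAt.norm.pow 2).div_const _
        have h8 : 0 < t w := by
          have := norm_pos_iff.2 hw.2
          simp only [ht]
          positivity
        exact (ContinuousAt.comp (g := hh) (continuousAt_hh h8) h7).add h7
      · filter_upwards [hev] with w hw
        rw [h6 w hw.2]
        refine qh_ge hσ1 ?_
        have := norm_pos_iff.2 hw.2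
        simp only [ht]
        positivity
      · rw [h6 z hG0]
        exact qh_eq _
    refine (((h1.add h2).add h3).add (h4.const_mul hs0)).congr ?_
    filter_upwards [hev] with w hw
    rw [bump, if_pos hw.1]
    have e1 : ‖L (e (f w)) - L (e p)‖ ^ 2 =
        ‖L (e (f w))‖ ^ 2 - 2 * (⟪L (e p), L (e (f w))⟫_ℂ).re + ‖L (e p)‖ ^ 2 := by
      have h8 := @norm_sub_sq ℂ _ _ _ _ (L (e (f w))) (L (e p))
      simp only [RCLike.re_to_complex] at h8
      rw [h8, ← inner_conj_symm, Complex.conj_re]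
    have e2 : t w = ‖L (e (f w)) - L (e p)‖ ^ 2 / ρ ^ 2 := rfl
    have e3 : ‖G w‖ ^ 2 = ‖L (e (f w)) - L (e p)‖ ^ 2 := rfl
    rw [← e2]
    have e4 : s * t w = s / ρ ^ 2 * ‖G w‖ ^ 2 := by
      rw [e2, e3]; ring
    have e5 : ‖L (e (f w))‖ ^ 2 = ‖G w‖ ^ 2 + 2 * (⟪L (e p), L (e (f w))⟫_ℂ).re - ‖L (e p)‖ ^ 2 := by
      rw [e3, e1]; ring
    rw [e5, mul_add s, e4]
    ring
  · have hfc : ContinuousAt f z := (hf.continuousOn.continuousAt (hO.mem_nhds hz))
    have h1 : ∀ᶠ w in 𝓝 z, f w ∉ cball e L p ρ :=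
      hfc.eventually (hcl.isOpen_compl.mem_nhds fun h => hx h.1)
    refine (subM_psh hb hO hf hz).congr ?_
    filter_upwards [h1] with w hw
    rw [bump_eq_zero hρ fun hys => ?_]
    · ring
    · by_contra hcon
      exact hw ⟨hys, (not_le.1 hcon).le⟩

end Vale.Agent.P253.R2.H922
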