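import Vale.Agent.P253.R2.H922.NB2

/-!
P253: the two point estimate for holomorphic discs in a manifold with a strictly plurisubharmonic
function.
-/

open scoped Manifold ContDiff Topology InnerProductSpace
open Set Metric Filter IsManifold

set_option linter.unusedSectionVars false

noncomputable section

namespace Vale.Agent.P253.R2.H922

open Vale.Agent.P253.R2.H380.Stein

theorem tendsto_log_norm_sub (a : ℂ) {S : Set ℂ} (hS : a ∉ S) :
    Tendsto (fun z => Real.log ‖z - a‖) (𝓝[S] a) atBot := by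
  have h1 : Tendsto (fun z : ℂ => ‖z - a‖) (𝓝[S] a) (𝓝[>] 0) := by
    rw [tendsto_nhdsWithin_iff]
    refine ⟨?_, ?_⟩
    · have : Continuous fun z : ℂ => ‖z - a‖ := by fun_prop
      have h2 := this.tendsto a
      simp only [sub_self, norm_zero] at h2
      exact h2.mono_left nhdsWithin_le_nhds
    · filter_upwards [self_mem_nhdsWithin] with z hz
      exact norm_pos_iff.2 (sub_ne_zero.2 fun h => hS (h ▸ hz))
  exact Real.tendsto_log_nhdsGT_zero.comp h1

variable {E : Type*} [NormedAddCommGroup E] [NormedSpace ℂ E] [FiniteDimensional ℂ E]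
  {M : Type*} [TopologicalSpace M] [T2Space M] [ChartedSpace E M] [IsManifold 𝓘(ℂ, E) 1 M]
  {e : OpenPartialHomeomorph M E} {n : ℕ} {L : E ≃L[ℂ] EuclideanSpace ℂ (Fin n)} {ε : ℝ}

theorem bump_le {p x : M} {ρ : ℝ} (hρ : 0 < ρ) (hp : p ∈ e.source) (hx : x ∈ e.source)
    (hne : x ≠ p) (hle : ‖L (e x) - L (e p)‖ ≤ ρ) :
    bump e L p ρ x ≤ 2 * Real.log ‖L (e x) - L (e p)‖ + (1 - 2 * Real.log ρ) := by
  have h1 := norm_pos_of_ne (L := L) hp hx hne
  have h2 : ‖L (e x) - L (e p)‖ ^ 2 / ρ ^ 2 ≤ 1 := by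
    rw [div_le_one (by positivity)]
    gcongr
  rw [bump, if_pos hx, hh_of_le h2, Real.log_div (by positivity) (by positivity)]
  have e7 : ∀ x : ℝ, Real.log (x ^ 2) = 2 * Real.log x := fun x => by
    rw [Real.log_pow]; norm_num
  rw [e7, e7]
  have h3 : 0 < ‖L (e x) - L (e p)‖ ^ 2 / ρ ^ 2 := by positivity
  linarith

/-- **The two point estimate.** -/
theorem two_point {b : M → ℝ} (hb : IsContPsh E b) (he : e ∈ maximalAtlas 𝓘(ℂ, E) 1 M)
    (hs : StrictOn E b e L ε) {p : M} {ρ s : ℝ} (hρ : 0 < ρ) (hp : p ∈ e.source)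
    (hcl : IsClosed (cball e L p ρ)) (hs0 : 0 < s) (hsε : s / ρ ^ 2 ≤ ε)
    {f : ℂ → M} {z0 a z1 : ℂ} {r Mx : ℝ} (hr : 0 < r) (ha : a ∈ closedBall z0 r)
    (hf : ContinuousOn f (closedBall z0 r \ {a}))
    (hf' : MDifferentiableOn 𝓘(ℂ, ℂ) 𝓘(ℂ, E) f (ball z0 r \ {a}))
    (hM : ∀ z ∈ closedBall z0 r \ {a}, b (f z) ≤ Mx)
    (hz1 : z1 ∈ closedBall z0 (r / 2)) (hne : z1 ≠ a) (hfz1 : f z1 = p)
    {z : ℂ} (hz : z ∈ closedBall z0 r) (hza : z ≠ a) (hfz : f z ≠ p) :
    b (f z) + s * bump e L p ρ (f z) ≤ Mx + s * Real.log 2 + s * Real.log (‖z - z1‖ / r) := by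
  set A : Set ℂ := {z | z = a ∨ f z = p} with hAdef
  set D : Set ℂ := closedBall z0 r \ A with hD
  have hDsub : D ⊆ closedBall z0 r \ {a} := fun z hz => ⟨hz.1, fun h => hz.2 (Or.inl h)⟩
  have hDp : ∀ z ∈ D, f z ≠ p := fun z hz h => hz.2 (Or.inr h)
  have hDa : ∀ z ∈ D, z ≠ a := fun z hz h => hz.2 (Or.inl h)
  have hDz1 : ∀ z ∈ D, z ≠ z1 := fun z hz h => hDp z hz (by rw [h, hfz1])
  have hA : IsClosed (closedBall z0 r ∩ A) := by
    rw [← isSeqClosed_iff_isClosed]
    intro u x hu hux
    have hx1 : x ∈ closedBall z0 r := isClosed_closedBall.mem_of_tendsto hux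
      (Eventually.of_forall fun k => (hu k).1)
    refine ⟨hx1, ?_⟩
    by_cases hxa : x = a
    · exact Or.inl hxa
    · right
      have h1 : ∀ᶠ k in atTop, u k ≠ a := hux.eventually_ne hxa
      have h2 : Tendsto u atTop (𝓝[closedBall z0 r \ {a}] x) :=
        tendsto_nhdsWithin_iff.2 ⟨hux, by filter_upwards [h1] with k hk using ⟨(hu k).1, hk⟩⟩
      have h3 : Tendsto (fun k => f (u k)) atTop (𝓝 (f x)) := (hf x ⟨hx1, hxa⟩).tendsto.comp h2
      refine tendsto_nhds_unique h3 ?_
      refine tendsto_const_nhds.congr' ?_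
      filter_upwards [h1] with k hk
      exact ((hu k).2.resolve_left hk).symm
  have hO : IsOpen (ball z0 r \ {a}) := isOpen_ball.sdiff isClosed_singleton
  have hlog2 : ∀ w ∈ closedBall z0 r, w ≠ a → Real.log ‖w - a‖ ≤ Real.log (2 * r) := by
    intro w hw hwa
    refine Real.log_le_log (norm_pos_iff.2 (sub_ne_zero.2 hwa)) ?_
    have h1 := mem_closedBall.1 hw
    have h2 := mem_closedBall.1 ha
    rw [← dist_eq_norm]
    calc dist w a ≤ dist w z0 + dist a z0 := dist_triangle_right _ _ _
      _ ≤ 2 * r := by linarith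
  have key : ∀ ε1 : ℝ, 0 < ε1 → ∀ w ∈ D,
      (b (f w) + s * bump e L p ρ (f w)) + (-s) * Real.log ‖w - z1‖ + ε1 * Real.log ‖w - a‖ +
        (s * Real.log r - ε1 * Real.log (2 * r)) ≤ Mx + s * Real.log 2 := by
    intro ε1 hε1
    refine max_principle (ζ := fun w => (b (f w) + s * bump e L p ρ (f w)) +
      (-s) * Real.log ‖w - z1‖ + ε1 * Real.log ‖w - a‖ + (s * Real.log r - ε1 * Real.log (2 * r)))
      hA ?_ ?_ ?_ ?_
    · -- continuity
      intro w hw
      have h1 : ContinuousWithinAt f D w := (hf w (hDsub hw)).mono hDsub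
      have h2 : ContinuousWithinAt (fun w => b (f w)) D w :=
        hb.1.continuousAt.comp_continuousWithinAt h1
      have h3 : ContinuousWithinAt (fun w => bump e L p ρ (f w)) D w :=
        (continuousAt_bump hρ hp hcl (hDp w hw)).comp_continuousWithinAt h1
      have h4 : ∀ c : ℂ, w ≠ c → ContinuousWithinAt (fun w : ℂ => Real.log ‖w - c‖) D w := by
        intro c hc
        have : ContinuousAt (fun w : ℂ => ‖w - c‖) w := by fun_prop
        exact (this.log (norm_ne_zero_iff.2 (sub_ne_zero.2 hc))).continuousWithinAt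
      exact (((h2.add (h3.const_mul s)).add ((h4 z1 (hDz1 w hw)).const_mul (-s))).add
        ((h4 a (hDa w hw)).const_mul ε1)).add continuousWithinAt_const
    · -- sub-mean value property
      intro w hw
      have hwD : w ∈ D := ⟨ball_subset_closedBall hw.1, hw.2⟩
      have h1 := subM_bump hb he hs hρ hp hcl hs0.le hsε hO hf'
        (z := w) ⟨hw.1, hDa w hwD⟩ (hDp w hwD)
      have h2 : ∀ c : ℂ, w ≠ c → ∀ k : ℝ, SubM (fun w : ℂ => k * Real.log ‖w - c‖) w := by
        intro c hc k
        exact subM_log (F := fun w => w - c) (analyticAt_id.sub analyticAt_const)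
          (sub_ne_zero.2 hc) k
      exact ((h1.add (h2 z1 (hDz1 w hwD) (-s))).add (h2 a (hDa w hwD) ε1)).add (subM_const _ _)
    · -- on the circle
      intro w hw
      have hwD : w ∈ D := ⟨sphere_subset_closedBall hw.1, hw.2⟩
      have h1 := hM w (hDsub hwD)
      have h2 := mul_nonpos_of_nonneg_of_nonpos hs0.le
        (bump_nonpos (L := L) hρ hp (hDp w hwD))
      have h3 := mul_le_mul_of_nonneg_left (hlog2 w hwD.1 (hDa w hwD)) hε1.le
      have h4 : Real.log (r / 2) ≤ Real.log ‖w - z1‖ := by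
        refine Real.log_le_log (by positivity) ?_
        have h5 := mem_sphere.1 hw.1
        have h6 := mem_closedBall.1 hz1
        rw [← dist_eq_norm]
        have := dist_triangle w z1 z0
        linarith
      rw [Real.log_div hr.ne' two_ne_zero] at h4
      have h5 := mul_le_mul_of_nonneg_left h4 hs0.le
      linarith
    · -- near the removed set
      intro x hx
      have hev : ∀ᶠ w in 𝓝[D] x, w ∈ D := self_mem_nhdsWithin
      have hcst : ∀ c : ℂ, x ≠ c → ∀ᶠ w in 𝓝[D] x, Real.log ‖x - c‖ - 1 ≤ Real.log ‖w - c‖ := by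
        intro c hc
        have h1 : ContinuousAt (fun w : ℂ => ‖w - c‖) x := by fun_prop
        have h2 := (h1.log (norm_ne_zero_iff.2 (sub_ne_zero.2 hc))).eventually
          (lt_mem_nhds (show Real.log ‖x - c‖ - 1 < Real.log ‖x - c‖ by linarith))
        filter_upwards [nhdsWithin_le_nhds h2] with w hw using hw.le
      by_cases hxa : x = a
      · -- the point `a`
        have h1 := hcst z1 (by rw [hxa]; exact hne.symm)
        set C : ℝ := Mx + (-s) * (Real.log ‖x - z1‖ - 1) +
          (s * Real.log r - ε1 * Real.log (2 * r)) with hC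
        have h2 : Tendsto (fun w => ε1 * Real.log ‖w - a‖) (𝓝[D] a) atBot :=
          (tendsto_log_norm_sub a fun h => hDa a h rfl).const_mul_atBot hε1
        rw [← hxa] at h2
        filter_upwards [hev, h1, h2.eventually_le_atBot (Mx + s * Real.log 2 - C)] with w hw hw1 hw2
        have h3 := hM w (hDsub hw)
        have h4 := mul_nonpos_of_nonneg_of_nonpos hs0.le
          (bump_nonpos (L := L) hρ hp (hDp w hw))
        have h5 := mul_le_mul_of_nonneg_left hw1 hs0.le
        rw [hxa] at hw2
        rw [hC] at hw2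
        linarith
      · have hfx : f x = p := hx.2.resolve_left hxa
        have hcx : Tendsto f (𝓝[D] x) (𝓝 p) := by
          have := ((hf x ⟨hx.1, hxa⟩).mono hDsub).tendsto
          rwa [hfx] at this
        have hsrc : ∀ᶠ w in 𝓝[D] x, f w ∈ e.source := hcx.eventually (e.open_source.mem_nhds hp)
        have hG : Tendsto (fun w => ‖L (e (f w)) - L (e p)‖) (𝓝[D] x) (𝓝 0) := by
          have h1 : ContinuousAt (fun y => ‖L (e y) - L (e p)‖) p :=
            ((L.continuous.continuousAt.comp (e.continuousAt hp)).sub continuousAt_const).norm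
          have h2 := h1.tendsto.comp hcx
          simp only [sub_self, norm_zero] at h2
          exact h2
        have hle : ∀ᶠ w in 𝓝[D] x, ‖L (e (f w)) - L (e p)‖ ≤ ρ :=
          (hG.eventually (gt_mem_nhds hρ)).mono fun w hw => le_of_lt hw
        by_cases hx1 : x = z1
        · -- the point `z1`
          have hz1b : z1 ∈ ball z0 r := by
            have := mem_closedBall.1 hz1
            rw [mem_ball]; linarith
          have hfz1s : f z1 ∈ e.source := by rw [hfz1]; exact hp
          have han := analyticAt_chart he L hO hf' (z := z1) ⟨hz1b, hne⟩ hfz1s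
          obtain ⟨C, hC0, hC⟩ := (han.differentiableAt.isBigO_sub).exists_pos
          have hC' : ∀ᶠ w in 𝓝[D] x, ‖L (e (f w)) - L (e p)‖ ≤ C * ‖w - z1‖ := by
            rw [hx1]
            have := hC.bound
            filter_upwards [nhdsWithin_le_nhds this] with w hw
            rwa [hfz1] at hw
          set K : ℝ := Mx + s * (2 * Real.log C + (1 - 2 * Real.log ρ)) + s * Real.log r with hK
          have h2 : Tendsto (fun w => s * Real.log ‖w - z1‖) (𝓝[D] z1) atBot :=
            (tendsto_log_norm_sub z1 fun h => hDz1 z1 h rfl).const_mul_atBot hs0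
          rw [← hx1] at h2
          filter_upwards [hev, hsrc, hle, hC', h2.eventually_le_atBot (Mx + s * Real.log 2 - K)]
            with w hw hw1 hw2 hw3 hw4
          rw [hx1] at hw4
          have h3 := hM w (hDsub hw)
          have h4 := bump_le (L := L) hρ hp hw1 (hDp w hw) hw2
          have h5 : Real.log ‖L (e (f w)) - L (e p)‖ ≤ Real.log C + Real.log ‖w - z1‖ := by
            have h6 : 0 < ‖w - z1‖ := norm_pos_iff.2 (sub_ne_zero.2 (hDz1 w hw))
            rw [← Real.log_mul hC0.ne' h6.ne']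
            exact Real.log_le_log (norm_pos_of_ne hp hw1 (hDp w hw)) hw3
          have h6 : bump e L p ρ (f w) ≤ 2 * (Real.log C + Real.log ‖w - z1‖) +
              (1 - 2 * Real.log ρ) := by linarith
          have h7 := mul_le_mul_of_nonneg_left h6 hs0.le
          have h8 := mul_le_mul_of_nonneg_left (hlog2 w hw.1 (hDa w hw)) hε1.le
          rw [hK] at hw4
          linarith
        · have h1 := hcst z1 hx1
          have h2 : Tendsto (fun w => Real.log ‖L (e (f w)) - L (e p)‖) (𝓝[D] x) atBot := by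
            refine Real.tendsto_log_nhdsGT_zero.comp (tendsto_nhdsWithin_iff.2 ⟨hG, ?_⟩)
            filter_upwards [hev, hsrc] with w hw hw1
            exact norm_pos_of_ne hp hw1 (hDp w hw)
          have h3 : Tendsto (fun w => (2 * s) * Real.log ‖L (e (f w)) - L (e p)‖) (𝓝[D] x) atBot :=
            h2.const_mul_atBot (by positivity)
          set K : ℝ := Mx + s * (1 - 2 * Real.log ρ) + (-s) * (Real.log ‖x - z1‖ - 1) +
            s * Real.log r with hK
          filter_upwards [hev, hsrc, hle, h1, h3.eventually_le_atBot (Mx + s * Real.log 2 - K)]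
            with w hw hw1 hw2 hw3 hw4
          have h4 := hM w (hDsub hw)
          have h5 := mul_le_mul_of_nonneg_left (bump_le (L := L) hρ hp hw1 (hDp w hw) hw2) hs0.le
          have h6 := mul_le_mul_of_nonneg_left hw3 hs0.le
          have h8 := mul_le_mul_of_nonneg_left (hlog2 w hw.1 (hDa w hw)) hε1.le
          rw [hK] at hw4
          linarith
  have hzD : z ∈ D := ⟨hz, fun h => h.elim hza hfz⟩
  have hlim : b (f z) + s * bump e L p ρ (f z) + (-s) * Real.log ‖z - z1‖ + s * Real.log r ≤
      Mx + s * Real.log 2 := by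
    by_contra hcon
    push Not at hcon
    set κ : ℝ := Real.log (2 * r) - Real.log ‖z - a‖ with hκ
    have hκ0 : 0 ≤ κ := sub_nonneg.2 (hlog2 z hz hza)
    set gap : ℝ := b (f z) + s * bump e L p ρ (f z) + (-s) * Real.log ‖z - z1‖ + s * Real.log r -
      (Mx + s * Real.log 2) with hgap
    have hgap0 : 0 < gap := by rw [hgap]; linarith
    have h1 := key (gap / (2 * (κ + 1))) (by positivity) z hzD
    have h2 : gap / (2 * (κ + 1)) * κ < gap := by
      rw [div_mul_eq_mul_div, div_lt_iff₀ (by positivity)]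
      nlinarith
    have h3 : gap / (2 * (κ + 1)) * κ = gap / (2 * (κ + 1)) * Real.log (2 * r) -
        gap / (2 * (κ + 1)) * Real.log ‖z - a‖ := by rw [hκ]; ring
    linarith
  have hpos : 0 < ‖z - z1‖ := norm_pos_iff.2 (sub_ne_zero.2 (hDz1 z hzD))
  rw [Real.log_div hpos.ne' hr.ne']
  linarith

end Vale.Agent.P253.R2.H922
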