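import Vale.Agent.P253.R2.H922.NB3

/-!
P253: a Hartogs family of discs which converges along a radius converges, if there is a
plurisubharmonic function which is strictly plurisubharmonic near the limit.
-/

open scoped Manifold ContDiff Topology InnerProductSpace
open Set Metric Filter IsManifold

set_option linter.unusedSectionVars false

noncomputable section

namespace Vale.Agent.P253.R2.H922

open Vale.Agent.P253.R2.H380.Stein

theorem isPreconnected_punctured {z0 : ℂ} {δ : ℝ} :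
    IsPreconnected (closedBall z0 δ \ {z0}) := by
  have h1 : IsPreconnected ((fun x : ℝ × ℝ => circleMap z0 x.1 x.2) '' (Ioc (0:ℝ) δ ×ˢ univ)) := by
    refine (isPreconnected_Ioc.prod isPreconnected_univ).image _ ?_
    have : Continuous fun x : ℝ × ℝ => circleMap z0 x.1 x.2 := by
      unfold circleMap
      fun_prop
    exact this.continuousOn
  convert! h1 using 1
  ext w
  constructor
  · rintro ⟨hw1, hw2⟩
    have hpos : 0 < ‖w - z0‖ := norm_pos_iff.2 (sub_ne_zero.2 hw2)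
    rw [mem_closedBall, dist_eq_norm] at hw1
    refine ⟨(‖w - z0‖, Complex.arg (w - z0)), ⟨⟨hpos, hw1⟩, mem_univ _⟩, ?_⟩
    simp only [circleMap, Complex.norm_mul_exp_arg_mul_I]
    ring
  · rintro ⟨⟨t, θ⟩, ⟨⟨ht, ht2⟩, -⟩, rfl⟩
    simp only at ht ht2 ⊢
    refine ⟨?_, ?_⟩
    · have := circleMap_mem_sphere z0 ht.le θ
      exact closedBall_subset_closedBall ht2 (sphere_subset_closedBall this)
    · intro h
      have := circleMap_mem_sphere z0 ht.le θ
      rw [mem_sphere, mem_singleton_iff.1 h, dist_self] at this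
      exact ht.ne this

variable {E : Type*} [NormedAddCommGroup E] [NormedSpace ℂ E] [FiniteDimensional ℂ E]
  {M : Type*} [TopologicalSpace M] [T2Space M] [ChartedSpace E M] [IsManifold 𝓘(ℂ, E) 1 M]
  {e : OpenPartialHomeomorph M E} {n : ℕ} {L : E ≃L[ℂ] EuclideanSpace ℂ (Fin n)} {ε : ℝ}

theorem isCompact_cball {p : M} {ρ : ℝ} (hp : ∀ v ∈ closedBall (L (e p)) ρ, L.symm v ∈ e.target) :
    IsCompact (cball e L p ρ) := by
  have h1 : cball e L p ρ = (fun v => e.symm (L.symm v)) '' closedBall (L (e p)) ρ := by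
    ext x
    constructor
    · rintro ⟨hx1, hx2⟩
      refine ⟨L (e x), ?_, ?_⟩
      · rwa [mem_closedBall, dist_eq_norm]
      · simp only [ContinuousLinearEquiv.symm_apply_apply]
        exact e.left_inv hx1
    · rintro ⟨v, hv, rfl⟩
      have h2 := hp v hv
      refine ⟨e.map_target h2, ?_⟩
      simp only
      rw [e.right_inv h2, ContinuousLinearEquiv.apply_symm_apply]
      rwa [mem_closedBall, dist_eq_norm] at hv
  rw [h1]
  refine (isCompact_closedBall _ _).image_of_continuousOn ?_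
  exact e.continuousOn_symm.comp L.symm.continuous.continuousOn hp

/-- the maximum principle on a disc -/
theorem le_of_sphere {b : M → ℝ} (hb : IsContPsh E b) {f : ℂ → M} {z0 : ℂ} {r m : ℝ}
    (hf : ContinuousOn f (closedBall z0 r))
    (hf' : MDifferentiableOn 𝓘(ℂ, ℂ) 𝓘(ℂ, E) f (ball z0 r)) (hm : ∀ z ∈ sphere z0 r, b (f z) ≤ m) :
    ∀ z ∈ closedBall z0 r, b (f z) ≤ m := by
  have h := max_principle (ζ := fun z => b (f z)) (z0 := z0) (r := r) (m := m) (A := ∅)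
    (by rw [inter_empty]; exact isClosed_empty)
    (by rw [sdiff_empty]; exact hb.1.comp_continuousOn hf)
    (fun z hz => subM_psh hb isOpen_ball hf' hz.1) (fun z hz => hm z hz.1)
    (fun x hx => absurd hx.2 (notMem_empty x))
  intro z hz
  exact h z ⟨hz, notMem_empty z⟩

/-- **No bubbling.** -/
theorem tendsto_of_radius {b : M → ℝ} (hb : IsContPsh E b) (he : e ∈ maximalAtlas 𝓘(ℂ, E) 1 M)
    {y : M} (hy : y ∈ e.source) (hε : 0 < ε) (hstr : StrictOn E b e L ε)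
    {f : ℝ × ℂ → M} {z0 : ℂ} {r : ℝ} (hr : 0 < r)
    (hf : ContinuousOn f ((Icc (0:ℝ) 1 ×ˢ closedBall z0 r) \ {((0:ℝ), z0)}))
    (hf0 : MDifferentiableOn 𝓘(ℂ, ℂ) 𝓘(ℂ, E) (fun z => f (0, z)) (ball z0 r \ {z0}))
    (hf1 : ∀ s ∈ Ioc (0:ℝ) 1, MDifferentiableOn 𝓘(ℂ, ℂ) 𝓘(ℂ, E) (fun z => f (s, z)) (ball z0 r))
    {u : ℂ} (hu : ‖u‖ = 1) (hlim : Tendsto (fun t : ℝ => f (0, t * u + z0)) (𝓝[>] 0) (𝓝 y)) :
    Tendsto f (𝓝[(Icc (0:ℝ) 1 ×ˢ closedBall z0 r) \ {((0:ℝ), z0)}] (0, z0)) (𝓝 y) := by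
  set W : Set (ℝ × ℂ) := (Icc (0:ℝ) 1 ×ˢ closedBall z0 r) \ {((0:ℝ), z0)} with hW
  have hWs : ∀ s ∈ Ioc (0:ℝ) 1, ∀ z ∈ closedBall z0 r, (s, z) ∈ W := fun s hs z hz =>
    ⟨⟨⟨hs.1.le, hs.2⟩, hz⟩, fun h => hs.1.ne' (Prod.ext_iff.1 h).1⟩
  have hW0 : ∀ s ∈ Icc (0:ℝ) 1, ∀ z ∈ closedBall z0 r, z ≠ z0 → (s, z) ∈ W := fun s hs z hz hne =>
    ⟨⟨hs, hz⟩, fun h => hne (Prod.ext_iff.1 h).2⟩
  have hsl : ∀ z : ℂ, Continuous fun s : ℝ => (s, z) := fun z => by fun_prop
  have hslz : ∀ s : ℝ, Continuous fun z : ℂ => (s, z) := fun s => by fun_prop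
  -- the upper bound
  obtain ⟨Mx, hMx⟩ : ∃ Mx : ℝ, ∀ x ∈ W, b (f x) ≤ Mx := by
    have hsph : Icc (0:ℝ) 1 ×ˢ sphere z0 r ⊆ W := by
      rintro ⟨s, z⟩ ⟨hs, hz⟩
      refine hW0 s hs z (sphere_subset_closedBall hz) fun h => ?_
      rw [h, mem_sphere, dist_self] at hz
      exact hr.ne hz
    obtain ⟨Mx, hMx⟩ := (isCompact_Icc.prod (isCompact_sphere z0 r)).exists_bound_of_continuousOn
      (f := fun x => b (f x)) (hb.1.comp_continuousOn (hf.mono hsph))
    have h1 : ∀ s ∈ Ioc (0:ℝ) 1, ∀ z ∈ closedBall z0 r, b (f (s, z)) ≤ Mx := by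
      intro s hs
      refine le_of_sphere (f := fun z => f (s, z)) hb ?_ (hf1 s hs) ?_
      · exact hf.comp (hslz s).continuousOn fun z hz => hWs s hs z hz
      · intro z hz
        exact (le_abs_self _).trans (hMx (s, z) ⟨⟨hs.1.le, hs.2⟩, hz⟩)
    refine ⟨Mx, ?_⟩
    rintro ⟨s, z⟩ hx
    rcases hx.1.1.1.eq_or_lt with h0 | h0
    · simp only at h0
      subst h0
      have hcw : Tendsto (fun s : ℝ => b (f (s, z))) (𝓝[>] 0) (𝓝 (b (f (0, z)))) := by
        refine (hb.1.tendsto _).comp ((hf _ hx).tendsto.comp ?_)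
        rw [tendsto_nhdsWithin_iff]
        refine ⟨((hsl z).tendsto 0).mono_left nhdsWithin_le_nhds, ?_⟩
        filter_upwards [Ioo_mem_nhdsGT (show (0:ℝ) < 1 from one_pos)] with s hs
        exact hWs s ⟨hs.1, hs.2.le⟩ z hx.1.2
      refine le_of_tendsto hcw ?_
      filter_upwards [Ioo_mem_nhdsGT (show (0:ℝ) < 1 from one_pos)] with s hs
      exact h1 s ⟨hs.1, hs.2.le⟩ z hx.1.2
    · exact h1 s ⟨h0, hx.1.1.2⟩ z hx.1.2
  rw [_root_.tendsto_nhds]
  intro N hN hyN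
  -- the radius in the chart
  obtain ⟨ρ, hρ, hρt, hρN⟩ : ∃ ρ > 0, (∀ v ∈ closedBall (L (e y)) (3 * ρ), L.symm v ∈ e.target) ∧
      ∀ v ∈ closedBall (L (e y)) (3 * ρ), e.symm (L.symm v) ∈ N := by
    have h1 : ContinuousAt L.symm (L (e y)) := L.symm.continuous.continuousAt
    have h2 : ∀ᶠ v in 𝓝 (L (e y)), L.symm v ∈ e.target := by
      apply h1.eventually
      rw [ContinuousLinearEquiv.symm_apply_apply]
      exact e.open_target.mem_nhds (e.map_source hy)
    have h3 : ∀ᶠ v in 𝓝 (L (e y)), e.symm (L.symm v) ∈ N := by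
      have h4 : ContinuousAt e.symm (L.symm (L (e y))) := by
        rw [ContinuousLinearEquiv.symm_apply_apply]
        exact e.continuousAt_symm (e.map_source hy)
      have h5 : ContinuousAt (fun v => e.symm (L.symm v)) (L (e y)) :=
        ContinuousAt.comp (g := e.symm) h4 h1
      apply h5.eventually
      simp only
      rw [ContinuousLinearEquiv.symm_apply_apply, e.left_inv hy]
      exact hN.mem_nhds hyN
    obtain ⟨R, hR, h⟩ := Metric.nhds_basis_closedBall.eventually_iff.1 (h2.and h3)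
    refine ⟨R / 3, by positivity, fun v hv => (h ?_).1, fun v hv => (h ?_).2⟩ <;>
    · rwa [mul_div_cancel₀ _ (by norm_num : (3:ℝ) ≠ 0)] at hv
  set w : M → EuclideanSpace ℂ (Fin n) := fun x => L (e x) with hw
  have hwc : ContinuousOn w e.source := L.continuous.comp_continuousOn e.continuousOn
  set N1 : Set M := e.source ∩ w ⁻¹' ball (w y) ρ with hN1
  set N2 : Set M := e.source ∩ w ⁻¹' ball (w y) (2 * ρ) with hN2
  have hN1o : IsOpen N1 := hwc.isOpen_inter_preimage e.open_source isOpen_ball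
  have hN2o : IsOpen N2 := hwc.isOpen_inter_preimage e.open_source isOpen_ball
  have hN2N : N2 ⊆ N := by
    intro x hx
    have h1 := hρN (L (e x)) (by
      have h2 : dist (w x) (w y) < 2 * ρ := hx.2
      rw [mem_closedBall]
      have h3 : dist (L (e x)) (L (e y)) < 2 * ρ := h2
      linarith)
    rwa [ContinuousLinearEquiv.symm_apply_apply, e.left_inv hx.1] at h1
  have hK2 : IsClosed (cball e L y (2 * ρ)) :=
    (isCompact_cball fun v hv => hρt v (closedBall_subset_closedBall (by linarith) hv)).isClosed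
  have hclp : ∀ p : M, ‖w p - w y‖ ≤ 2 * ρ → IsClosed (cball e L p ρ) := by
    intro p hp
    refine (isCompact_cball fun v hv => hρt v ?_).isClosed
    rw [mem_closedBall] at hv ⊢
    have h1 := dist_triangle v (L (e p)) (L (e y))
    have h2 : dist (L (e p)) (L (e y)) ≤ 2 * ρ := by rw [dist_eq_norm]; exact hp
    linarith
  -- the lower bound
  obtain ⟨mb, hmb⟩ : ∃ mb : ℝ, ∀ x ∈ N1, mb ≤ b x := by
    have h1 : IsCompact (cball e L y ρ) :=
      isCompact_cball fun v hv => hρt v (closedBall_subset_closedBall (by linarith) hv)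
    obtain ⟨C, hC⟩ := h1.exists_bound_of_continuousOn hb.1.continuousOn
    refine ⟨-C, fun x hx => ?_⟩
    have h2 := hC x ⟨hx.1, by
      have h3 : dist (w x) (w y) < ρ := hx.2
      rw [dist_eq_norm] at h3
      exact h3.le⟩
    exact (abs_le.1 h2).1
  set s0 : ℝ := ε * ρ ^ 2 with hs0
  have hs0p : 0 < s0 := by positivity
  have hs0ε : s0 / ρ ^ 2 ≤ ε := by rw [hs0]; field_simp; exact le_rfl
  -- the small disc
  obtain ⟨δ, hδ, hδr, hδb⟩ : ∃ δ > 0, δ ≤ r / 2 ∧
      ∀ t : ℝ, 0 < t → t ≤ 2 * δ → Mx + s0 * Real.log 2 + s0 * Real.log (t / r) < mb := by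
    have h1 : Tendsto (fun t : ℝ => s0 * Real.log t) (𝓝[>] 0) atBot :=
      Real.tendsto_log_nhdsGT_zero.const_mul_atBot hs0p
    have h2 := h1.eventually_lt_atBot (mb - Mx - s0 * Real.log 2 + s0 * Real.log r)
    rw [eventually_nhdsWithin_iff] at h2
    obtain ⟨κ, hκ, hκ'⟩ := Metric.nhds_basis_closedBall.eventually_iff.1 h2
    refine ⟨min (κ / 2) (r / 2), by positivity, min_le_right _ _, fun t ht ht2 => ?_⟩
    have h3 := hκ' (x := t) (by
      rw [mem_closedBall, Real.dist_eq, sub_zero, abs_of_pos ht]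
      have := min_le_left (κ / 2) (r / 2)
      linarith) ht
    rw [Real.log_div ht.ne' hr.ne']
    linarith
  -- the point on the radius
  obtain ⟨t0, ht0, ht0δ, ht0N⟩ : ∃ t0 : ℝ, 0 < t0 ∧ t0 ≤ δ ∧ f (0, t0 * u + z0) ∈ N1 := by
    have h1 : ∀ᶠ x in 𝓝 y, x ∈ N1 := hN1o.mem_nhds ⟨hy, mem_ball_self hρ⟩
    obtain ⟨t, ht1, ht2⟩ := ((hlim.eventually h1).and (Ioo_mem_nhdsGT hδ)).exists
    exact ⟨t, ht2.1, ht2.2.le, ht1⟩
  set z2 : ℂ := t0 * u + z0 with hz2
  have hz2n : ‖z2 - z0‖ = t0 := by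
    rw [hz2, add_sub_cancel_right, norm_mul, hu, mul_one, Complex.norm_real,
      Real.norm_of_nonneg ht0.le]
  have hz2δ : z2 ∈ closedBall z0 δ := by rw [mem_closedBall, dist_eq_norm, hz2n]; exact ht0δ
  have hz2r : z2 ∈ closedBall z0 r := closedBall_subset_closedBall (by linarith) hz2δ
  have hz2ne : z2 ≠ z0 := fun h => by
    rw [h, sub_self, norm_zero] at hz2n
    exact ht0.ne hz2n
  obtain ⟨σ, hσ, hσ1, hσN⟩ : ∃ σ > 0, σ ≤ 1 ∧ ∀ s ∈ Icc (0:ℝ) σ, f (s, z2) ∈ N1 := by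
    have h1 : ∀ᶠ x in 𝓝[W] (0, z2), f x ∈ N1 :=
      (hf _ (hW0 0 ⟨le_rfl, zero_le_one⟩ z2 hz2r hz2ne)).tendsto.eventually
        (hN1o.mem_nhds ht0N)
    have h2 : Tendsto (fun s : ℝ => (s, z2)) (𝓝[Icc 0 1] 0) (𝓝[W] (0, z2)) := by
      rw [tendsto_nhdsWithin_iff]
      refine ⟨((hsl z2).tendsto 0).mono_left nhdsWithin_le_nhds, ?_⟩
      filter_upwards [self_mem_nhdsWithin] with s hs using hW0 s hs z2 hz2r hz2ne
    have h3 := h2.eventually h1
    rw [eventually_nhdsWithin_iff] at h3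
    obtain ⟨κ, hκ, hκ'⟩ := Metric.nhds_basis_closedBall.eventually_iff.1 h3
    refine ⟨min κ 1, by positivity, min_le_right _ _, fun s hs => ?_⟩
    refine hκ' (x := s) ?_ ⟨hs.1, hs.2.trans (min_le_right _ _)⟩
    rw [mem_closedBall, Real.dist_eq, sub_zero, abs_of_nonneg hs.1]
    exact hs.2.trans (min_le_left _ _)
  -- the main claim
  have hclaim : ∀ s ∈ Icc (0:ℝ) σ, ∀ z ∈ closedBall z0 δ, (s, z) ≠ (0, z0) → f (s, z) ∈ N2 := by
    intro s hs z hz hne
    by_contra hcon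
    -- the slice
    obtain ⟨a, ha, haz2, S, hSpre, hSsub, hzS, hz2S, haS, hfc, hfd, hMs⟩ :
        ∃ a ∈ closedBall z0 r,
        z2 ≠ a ∧ ∃ S : Set ℂ, IsPreconnected S ∧ S ⊆ closedBall z0 δ ∧ z ∈ S ∧ z2 ∈ S ∧ a ∉ S ∧
        ContinuousOn (fun z => f (s, z)) (closedBall z0 r \ {a}) ∧
        MDifferentiableOn 𝓘(ℂ, ℂ) 𝓘(ℂ, E) (fun z => f (s, z)) (ball z0 r \ {a}) ∧
        ∀ z ∈ closedBall z0 r \ {a}, b (f (s, z)) ≤ Mx := by
      rcases hs.1.eq_or_lt with h0 | h0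
      · subst h0
        refine ⟨z0, mem_closedBall_self hr.le, hz2ne, closedBall z0 δ \ {z0},
          isPreconnected_punctured, sdiff_subset, ⟨hz, fun h => hne (by rw [mem_singleton_iff.1 h])⟩,
          ⟨hz2δ, hz2ne⟩, fun h => h.2 rfl, ?_, hf0, fun z hz =>
          hMx _ (hW0 0 ⟨le_rfl, zero_le_one⟩ z hz.1 hz.2)⟩
        exact hf.comp (hslz 0).continuousOn fun z hz => hW0 0 ⟨le_rfl, zero_le_one⟩ z hz.1 hz.2
      · have hs' : s ∈ Ioc (0:ℝ) 1 := ⟨h0, hs.2.trans hσ1⟩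
        have hrn : ‖(z0 + r) - z0‖ = r := by
          rw [add_sub_cancel_left, Complex.norm_real, Real.norm_of_nonneg hr.le]
        have hnot : z0 + (r:ℂ) ∉ closedBall z0 δ := by
          rw [mem_closedBall, dist_eq_norm, hrn]; linarith
        refine ⟨z0 + r, ?_, fun h => hnot (h ▸ hz2δ), closedBall z0 δ,
          (convex_closedBall _ _).isPreconnected, Subset.rfl, hz, hz2δ, hnot, ?_,
          (hf1 s hs').mono sdiff_subset, fun z hz => hMx _ (hWs s hs' z hz.1)⟩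
        · rw [mem_closedBall, dist_eq_norm, hrn]
        · exact hf.comp (hslz s).continuousOn fun z hz => hWs s hs' z hz.1
    have hSr : S ⊆ closedBall z0 r \ {a} := fun x hx =>
      ⟨closedBall_subset_closedBall (by linarith) (hSsub hx), fun h => haS (h ▸ hx)⟩
    -- a crossing point
    obtain ⟨z1, hz1S, hz1s, hz1n⟩ : ∃ z1 ∈ S, f (s, z1) ∈ e.source ∧
        ‖w (f (s, z1)) - w y‖ = 2 * ρ := by
      by_contra hno
      push Not at hno
      have hcov : (fun z => f (s, z)) '' S ⊆ N2 ∪ (cball e L y (2 * ρ))ᶜ := by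
        rintro _ ⟨x, hx, rfl⟩
        by_cases hk : f (s, x) ∈ cball e L y (2 * ρ)
        · left
          refine ⟨hk.1, ?_⟩
          rw [mem_preimage, mem_ball, dist_eq_norm]
          exact lt_of_le_of_ne hk.2 (hno x hx hk.1)
        · right; exact hk
      have hpre := hSpre.image _ (hfc.mono hSr)
      have hN1N2 : N1 ⊆ N2 := fun x hx => ⟨hx.1, ball_subset_ball (by linarith) hx.2⟩
      have := hpre.subset_left_of_subset_union hN2o hK2.isOpen_compl
        (disjoint_left.2 fun x hx hx' => hx' ⟨hx.1, by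
          have h3 : dist (w x) (w y) < 2 * ρ := hx.2
          rw [dist_eq_norm] at h3
          exact h3.le⟩) hcov ⟨f (s, z2), ⟨z2, hz2S, rfl⟩, hN1N2 (hσN s hs)⟩
      exact hcon (this ⟨z, hzS, rfl⟩)
    have hz2N : f (s, z2) ∈ N1 := hσN s hs
    have hz2N' : ‖w (f (s, z2)) - w y‖ < ρ := by
      have h3 : dist (w (f (s, z2))) (w y) < ρ := hz2N.2
      rwa [dist_eq_norm] at h3
    have hpne : f (s, z2) ≠ f (s, z1) := fun h => by
      rw [h, hz1n] at hz2N'
      linarith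
    have hsep : ρ ≤ ‖L (e (f (s, z2))) - L (e (f (s, z1)))‖ := by
      have h1 : ‖w (f (s, z1)) - w y‖ ≤ ‖w (f (s, z2)) - w (f (s, z1))‖ +
          ‖w (f (s, z2)) - w y‖ := by
        have : w (f (s, z1)) - w y = -(w (f (s, z2)) - w (f (s, z1))) +
          (w (f (s, z2)) - w y) := by abel
        rw [this]
        refine (norm_add_le _ _).trans ?_
        rw [norm_neg]
      rw [hz1n] at h1
      have h2 : ‖w (f (s, z2)) - w (f (s, z1))‖ = ‖L (e (f (s, z2))) - L (e (f (s, z1)))‖ := rfl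
      linarith
    have htp := two_point hb he hstr hρ hz1s (hclp _ hz1n.le) hs0p hs0ε (f := fun z => f (s, z))
      hr ha hfc hfd hMs (z1 := z1)
      (closedBall_subset_closedBall hδr (hSsub hz1S)) (hSr hz1S).2 rfl (z := z2) hz2r haz2 hpne
    have hbz : bump e L (f (s, z1)) ρ (f (s, z2)) = 0 := bump_eq_zero hρ fun _ => hsep
    rw [hbz, mul_zero, add_zero] at htp
    have hz12 : z2 ≠ z1 := fun h => hpne (by rw [h])
    have h1 := hδb ‖z2 - z1‖ (norm_pos_iff.2 (sub_ne_zero.2 hz12)) (by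
      have h2 := mem_closedBall.1 (hSsub hz1S)
      have h3 := mem_closedBall.1 hz2δ
      rw [← dist_eq_norm]
      have := dist_triangle_right z2 z1 z0
      linarith)
    have h2 := hmb _ hz2N
    linarith
  -- conclusion
  have h1 : ∀ᶠ x : ℝ × ℂ in 𝓝 (0, z0), x.1 < σ ∧ dist x.2 z0 < δ := by
    have h2 : ∀ᶠ x : ℝ × ℂ in 𝓝 ((0:ℝ), z0), x.1 < σ :=
      (continuous_fst.tendsto ((0:ℝ), z0)).eventually (gt_mem_nhds hσ)
    have h3 : ∀ᶠ x : ℝ × ℂ in 𝓝 ((0:ℝ), z0), dist x.2 z0 < δ :=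
      (continuous_snd.tendsto ((0:ℝ), z0)).eventually (Metric.ball_mem_nhds z0 hδ)
    exact h2.and h3
  filter_upwards [self_mem_nhdsWithin, nhdsWithin_le_nhds h1] with x hx hx1
  exact hN2N (hclaim x.1 ⟨hx.1.1.1, hx1.1.le⟩ x.2 (mem_closedBall.2 hx1.2.le) fun h => hx.2 h)

end Vale.Agent.P253.R2.H922
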