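import Vale.Agent.P253.R2.H922.SC
import Vale.Agent.P253.R2.H922.NB4

/-!
P253: Hartogs families over the regular set of a holomorphic map to `ℂ^n`, in manifolds with
strictly plurisubharmonic functions.
-/

open scoped Manifold ContDiff Topology Bundle
open Set Metric Filter Bundle IsManifold

set_option maxSynthPendingDepth 3
set_option linter.unusedSectionVars false

noncomputable section

namespace Vale.Agent.P253.R2.H922

open Mfd H451 TopologicalSpace

section core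

variable {E : Type*} [NormedAddCommGroup E] [NormedSpace ℂ E] [FiniteDimensional ℂ E]
  {M : Type*} [TopologicalSpace M] [T2Space M] [ChartedSpace E M] [IsManifold 𝓘(ℂ, E) 1 M]

/-- if a Hartogs family of discs lifted by `h` converges to `y` then `h` is a local biholomorphism
at `y` -/
theorem injective_of_tendsto {h : M → E} (hh : MDifferentiable 𝓘(ℂ, E) 𝓘(ℂ, E) h)
    {G : Set E} (hG : IsOpen G) {Φ : E → M} (hΦ : ∀ x ∈ G, MDifferentiableAt 𝓘(ℂ, E) 𝓘(ℂ, E) Φ x)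
    (hsec : ∀ x ∈ G, h (Φ x) = x)
    {c0 c1 : ℂ → E} {U : Set ℂ} {z₀ : ℂ} {r : ℝ} (hr : 0 < r)
    (hUr : closedBall z₀ r ⊆ U) (hc0 : DifferentiableOn ℂ c0 U) (hc1 : DifferentiableOn ℂ c1 U)
    (hin : ∀ s ∈ Icc (0:ℝ) 1, ∀ z ∈ closedBall z₀ r, (s, z) ≠ (0, z₀) →
      c0 z + (s : ℂ) • c1 z ∈ G) {y : M}
    (hlimM : Tendsto (fun x : ℝ × ℂ => Φ (c0 x.2 + (x.1 : ℂ) • c1 x.2))
      (𝓝[(Icc (0:ℝ) 1 ×ˢ closedBall z₀ r) \ {((0:ℝ), z₀)}] (0, z₀)) (𝓝 y)) :
    Function.Injective (mfderiv 𝓘(ℂ, E) 𝓘(ℂ, E) h y) := by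
  have hprop : ProperSpace E := FiniteDimensional.proper ℂ E
  have hCE : CompleteSpace E := FiniteDimensional.complete ℂ E
  -- the chart
  set e := chartAt E y with he
  have heM : e ∈ maximalAtlas 𝓘(ℂ, E) 1 M := chart_mem_maximalAtlas y
  have hye : y ∈ e.source := mem_chart_source E y
  have heyt : e y ∈ e.target := e.map_source hye
  -- the family
  set c : ℝ × ℂ → E := fun x => c0 x.2 + (x.1 : ℂ) • c1 x.2 with hc
  have hcc : ContinuousOn c (univ ×ˢ U) := by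
    have h0 : ContinuousOn (fun x : ℝ × ℂ => c0 x.2) (univ ×ˢ U) :=
      hc0.continuousOn.comp continuousOn_snd fun x hx => hx.2
    have h1 : ContinuousOn (fun x : ℝ × ℂ => c1 x.2) (univ ×ˢ U) :=
      hc1.continuousOn.comp continuousOn_snd fun x hx => hx.2
    have h2 : ContinuousOn (fun x : ℝ × ℂ => (x.1 : ℂ)) (univ ×ˢ U) :=
      (Complex.continuous_ofReal.comp continuous_fst).continuousOn
    exact h0.add (h2.smul h1)
  have hcd : ∀ s : ℝ, DifferentiableOn ℂ (fun z => c (s, z)) (closedBall z₀ r) := fun s =>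
    (hc0.add (hc1.const_smul (s : ℂ))).mono hUr
  set W : Set (ℝ × ℂ) := (Icc (0:ℝ) 1 ×ˢ closedBall z₀ r) \ {((0:ℝ), z₀)} with hW
  have hcW : ∀ x ∈ W, c x ∈ G := fun x hx => hin x.1 hx.1.1 x.2 hx.1.2 fun h0 => hx.2 h0
  have hWU : W ⊆ univ ×ˢ U := fun x hx => ⟨mem_univ _, hUr hx.1.2⟩
  set f : ℝ × ℂ → M := fun x => Φ (c x) with hf
  have hlim : Tendsto f (𝓝[W] ((0:ℝ), z₀)) (𝓝 y) := hlimM
  -- a small part of the family
  obtain ⟨σ, ρ, hσ, hρ, hσ1, hρr, hmem⟩ : ∃ σ ρ : ℝ, 0 < σ ∧ 0 < ρ ∧ σ ≤ 1 ∧ ρ ≤ r ∧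
      ∀ x ∈ (Icc (0:ℝ) σ ×ˢ closedBall z₀ ρ) \ {((0:ℝ), z₀)}, f x ∈ e.source := by
    have h1 : ∀ᶠ x in 𝓝[W] ((0:ℝ), z₀), f x ∈ e.source :=
      hlim.eventually (e.open_source.mem_nhds hye)
    rw [eventually_nhdsWithin_iff, nhds_prod_eq] at h1
    obtain ⟨p1, hp1, p2, hp2, h2⟩ := eventually_prod_iff.1 h1
    obtain ⟨σ, hσ, hσ'⟩ := Metric.nhds_basis_closedBall.eventually_iff.1 hp1
    obtain ⟨ρ, hρ, hρ'⟩ := Metric.nhds_basis_closedBall.eventually_iff.1 hp2
    refine ⟨min σ 1, min ρ r, by positivity, by positivity, min_le_right _ _, min_le_right _ _,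
      fun x hx => ?_⟩
    have hx1 : x.1 ∈ Icc (0:ℝ) (min σ 1) := hx.1.1
    have hx2 : x.2 ∈ closedBall z₀ (min ρ r) := hx.1.2
    refine h2 (x := x.1) (hσ' ?_) (y := x.2) (hρ' ?_) ?_
    · rw [mem_closedBall, Real.dist_eq, sub_zero, abs_of_nonneg hx1.1]
      exact hx1.2.trans (min_le_left _ _)
    · exact closedBall_subset_closedBall (min_le_left _ _) hx2
    · exact ⟨⟨⟨hx1.1, hx1.2.trans (min_le_right _ _)⟩,
        closedBall_subset_closedBall (min_le_right _ _) hx2⟩, hx.2⟩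
  set S : Set (ℝ × ℂ) := (Icc (0:ℝ) σ ×ˢ closedBall z₀ ρ) \ {((0:ℝ), z₀)} with hS
  have hSW : S ⊆ W := fun x hx => ⟨⟨⟨hx.1.1.1, hx.1.1.2.trans hσ1⟩,
    closedBall_subset_closedBall hρr hx.1.2⟩, hx.2⟩
  -- the map in the chart
  set G' : Set E := G ∩ Φ ⁻¹' e.source with hG'
  have hG'o : IsOpen G' := ContinuousOn.isOpen_inter_preimage
    (fun x hx => (hΦ x hx).continuousAt.continuousWithinAt) hG e.open_source
  set Ψ : E → E := fun x => e (Φ x) with hΨ
  have hΨd : DifferentiableOn ℂ Ψ G' := by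
    intro x hx
    have h1 : MDifferentiableAt 𝓘(ℂ, E) 𝓘(ℂ, E) e (Φ x) :=
      ((contMDiffOn_of_mem_maximalAtlas heM).contMDiffAt
        (e.open_source.mem_nhds hx.2)).mdifferentiableAt (by simp)
    exact ((h1.comp x (hΦ x hx.1)).differentiableAt).differentiableWithinAt
  have hDΨ : DifferentiableOn ℂ (fderiv ℂ Ψ) G' :=
    ((contDiffOn_of_differentiableOn_complex hG'o hΨd).fderiv_of_isOpen hG'o
      (m := ∞) (by simp)).differentiableOn (by simp)
  set H : E → E := fun w => h (e.symm w) with hH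
  have hHd : DifferentiableOn ℂ H e.target := by
    intro w hw
    have h1 : MDifferentiableAt 𝓘(ℂ, E) 𝓘(ℂ, E) e.symm w :=
      ((contMDiffOn_symm_of_mem_maximalAtlas heM).contMDiffAt
        (e.open_target.mem_nhds hw)).mdifferentiableAt (by simp)
    exact (((hh _).comp w h1).differentiableAt).differentiableWithinAt
  have hDH : DifferentiableOn ℂ (fderiv ℂ H) e.target :=
    ((contDiffOn_of_differentiableOn_complex e.open_target hHd).fderiv_of_isOpen e.open_target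
      (m := ∞) (by simp)).differentiableOn (by simp)
  have hcS : ∀ x ∈ S, c x ∈ G' := fun x hx => ⟨hcW x (hSW hx), hmem x hx⟩
  -- the bound on the boundary
  obtain ⟨C, hC⟩ : ∃ C, ∀ x ∈ Icc (0:ℝ) σ ×ˢ sphere z₀ ρ, ‖fderiv ℂ Ψ (c x)‖ ≤ C := by
    have hsub : Icc (0:ℝ) σ ×ˢ sphere z₀ ρ ⊆ S := by
      rintro ⟨s, z⟩ ⟨hs, hz⟩
      refine ⟨⟨hs, sphere_subset_closedBall hz⟩, fun h => ?_⟩
      have h1 := (Prod.ext_iff.1 h).2
      simp only at h1
      rw [h1, mem_sphere, dist_self] at hz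
      exact hρ.ne hz
    refine (isCompact_Icc.prod (isCompact_sphere z₀ ρ)).exists_bound_of_continuousOn ?_
    exact hDΨ.continuousOn.comp ((hcc.mono hWU).mono (hsub.trans hSW)) fun x hx => hcS x (hsub hx)
  have hSs : ∀ s ∈ Ioc (0:ℝ) σ, ∀ z ∈ closedBall z₀ ρ, (s, z) ∈ S := fun s hs z hz =>
    ⟨⟨⟨hs.1.le, hs.2⟩, hz⟩, fun h => hs.1.ne' (Prod.ext_iff.1 h).1⟩
  have hbound : ∀ s ∈ Ioc (0:ℝ) σ, ‖fderiv ℂ Ψ (c (s, z₀))‖ ≤ C := by
    intro s hs
    have h1 : DifferentiableOn ℂ (fun z => fderiv ℂ Ψ (c (s, z))) (closedBall z₀ ρ) :=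
      hDΨ.comp ((hcd s).mono (closedBall_subset_closedBall hρr)) fun z hz => hcS _ (hSs s hs z hz)
    have h2 : DiffContOnCl ℂ (fun z => fderiv ℂ Ψ (c (s, z))) (ball z₀ ρ) := by
      apply DifferentiableOn.diffContOnCl
      rwa [closure_ball z₀ hρ.ne']
    refine Complex.norm_le_of_forall_mem_frontier_norm_le isBounded_ball h2 (fun w hw => ?_)
      (z := z₀) (by rw [closure_ball z₀ hρ.ne']; exact mem_closedBall_self hρ.le)
    rw [frontier_ball z₀ hρ.ne'] at hw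
    exact hC (s, w) ⟨⟨hs.1.le, hs.2⟩, hw⟩
  have hC0 : 0 ≤ C := (norm_nonneg _).trans (hbound σ ⟨hσ, le_rfl⟩)
  -- the inverse of the derivative
  have hinv : ∀ x ∈ G', ∀ v, ‖v‖ ≤ ‖fderiv ℂ Ψ x‖ * ‖fderiv ℂ H (Ψ x) v‖ := by
    intro x hx v
    have h1 : HasFDerivAt Ψ (fderiv ℂ Ψ x) x :=
      (hΨd.differentiableAt (hG'o.mem_nhds hx)).hasFDerivAt
    have h2 : HasFDerivAt H (fderiv ℂ H (Ψ x)) (Ψ x) :=
      (hHd.differentiableAt (e.open_target.mem_nhds (e.map_source hx.2))).hasFDerivAt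
    have h3 := h2.comp x h1
    have h4 : (H ∘ Ψ) =ᶠ[𝓝 x] id := by
      filter_upwards [hG'o.mem_nhds hx] with y hy
      simp only [Function.comp, hH, hΨ, id]
      rw [e.left_inv hy.2, hsec y hy.1]
    have h5 : (fderiv ℂ H (Ψ x)).comp (fderiv ℂ Ψ x) = ContinuousLinearMap.id ℂ E :=
      h3.unique ((hasFDerivAt_id x).congr_of_eventuallyEq h4)
    have h6 : ∀ w, fderiv ℂ H (Ψ x) (fderiv ℂ Ψ x w) = w := fun w =>
      congrArg (fun T : E →L[ℂ] E => T w) h5
    have h7 : Function.Injective (fderiv ℂ H (Ψ x) : E →ₗ[ℂ] E) :=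
      LinearMap.injective_iff_surjective.2 fun w => ⟨fderiv ℂ Ψ x w, h6 w⟩
    have h8 : fderiv ℂ Ψ x (fderiv ℂ H (Ψ x) v) = v := h7 (h6 _)
    calc ‖v‖ = ‖fderiv ℂ Ψ x (fderiv ℂ H (Ψ x) v)‖ := by rw [h8]
      _ ≤ _ := (fderiv ℂ Ψ x).le_opNorm _
  -- the centres converge
  have hcen : Tendsto (fun s : ℝ => Ψ (c (s, z₀))) (𝓝[>] 0) (𝓝 (e y)) := by
    have h4 : Tendsto (fun s : ℝ => ((s : ℝ), z₀)) (𝓝[>] 0) (𝓝[W] ((0:ℝ), z₀)) := by
      rw [tendsto_nhdsWithin_iff]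
      refine ⟨?_, ?_⟩
      · have : Continuous fun s : ℝ => (s, z₀) := by fun_prop
        exact (this.tendsto 0).mono_left nhdsWithin_le_nhds
      · filter_upwards [Ioo_mem_nhdsGT hσ] with s hs
        exact hSW (hSs s ⟨hs.1, hs.2.le⟩ z₀ (mem_closedBall_self hρ.le))
    exact (e.continuousAt hye).tendsto.comp (hlim.comp h4)
  -- conclusion
  have hfin : ∀ v, ‖v‖ ≤ C * ‖fderiv ℂ H (e y) v‖ := by
    intro v
    have h1 : Tendsto (fun s : ℝ => C * ‖fderiv ℂ H (Ψ (c (s, z₀))) v‖) (𝓝[>] 0)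
        (𝓝 (C * ‖fderiv ℂ H (e y) v‖)) := by
      have h2 : ContinuousAt (fderiv ℂ H) (e y) :=
        (hDH.differentiableAt (e.open_target.mem_nhds heyt)).continuousAt
      have h3 := h2.tendsto.comp hcen
      have h4 : Tendsto (fun s : ℝ => fderiv ℂ H (Ψ (c (s, z₀))) v) (𝓝[>] 0)
          (𝓝 (fderiv ℂ H (e y) v)) :=
        ((ContinuousLinearMap.apply ℂ E v).continuous.tendsto _).comp h3
      exact h4.norm.const_mul C
    refine ge_of_tendsto h1 ?_
    filter_upwards [Ioo_mem_nhdsGT hσ] with s hs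
    have hs' : s ∈ Ioc (0:ℝ) σ := ⟨hs.1, hs.2.le⟩
    have h4 : c (s, z₀) ∈ G' := hcS _ (hSs s hs' z₀ (mem_closedBall_self hρ.le))
    exact (hinv _ h4 v).trans (mul_le_mul_of_nonneg_right (hbound s hs') (norm_nonneg _))
  have hinj : Function.Injective (fderiv ℂ H (e y)) := by
    rw [injective_iff_map_eq_zero]
    intro v hv
    have h1 := hfin v
    rw [hv, norm_zero, mul_zero] at h1
    exact norm_le_zero_iff.1 h1
  have hmf : (mfderiv 𝓘(ℂ, E) 𝓘(ℂ, E) h y : E → E) = fderiv ℂ H (e y) := by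
    have h0 : (mfderiv 𝓘(ℂ, E) 𝓘(ℂ, E) h y : E →L[ℂ] E) =
        fderivWithin ℂ (writtenInExtChartAt 𝓘(ℂ, E) 𝓘(ℂ, E) y h) (range 𝓘(ℂ, E))
          (extChartAt 𝓘(ℂ, E) y y) := (hh y).mfderiv
    have h1 : (mfderiv 𝓘(ℂ, E) 𝓘(ℂ, E) h y : E →L[ℂ] E) = fderiv ℂ H (e y) := by
      rw [h0]
      simp only [writtenInExtChartAt, extChartAt, mfld_simps, fderivWithin_univ]
      rfl
    exact congrArg (fun T : E →L[ℂ] E => (T : E → E)) h1
  rw [hmf]
  exact hinj

end core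

section main

variable {E : Type*} [NormedAddCommGroup E] [NormedSpace ℂ E] [FiniteDimensional ℂ E]

variable (E) in
/-- `b` is continuous and plurisubharmonic on `M` and strictly plurisubharmonic near `y` -/
def StrictPshAt {M : Type*} [TopologicalSpace M] [ChartedSpace E M] (b : M → ℝ) (y : M) : Prop :=
  IsContPsh E b ∧ ∃ e ∈ maximalAtlas 𝓘(ℂ, E) 1 M, y ∈ e.source ∧
    ∃ (n : ℕ) (L : E ≃L[ℂ] EuclideanSpace ℂ (Fin n)) (ε : ℝ), 0 < ε ∧ StrictOn E b e L ε

variable {M : Type*} [MetricSpace M] [ChartedSpace E M]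
  [IsManifold 𝓘(ℂ, E) 1 M] [IsManifold 𝓘(ℝ, E) ∞ M]
  [RiemannianBundle (fun x : M => TangentSpace 𝓘(ℝ, E) x)]
  [IsContMDiffRiemannianBundle 𝓘(ℝ, E) ∞ E (fun x : M => TangentSpace 𝓘(ℝ, E) x)]
  [IsRiemannianManifold 𝓘(ℝ, E) M]

variable (E) in
/-- `y` is an isolated point of a fibre of a holomorphic map `M → ℂ^k` -/
def IsolatedInFibre {M : Type*} [TopologicalSpace M] [ChartedSpace E M] (y : M) : Prop :=
  ∃ (k : ℕ) (g : M → EuclideanSpace ℂ (Fin k)),
    MDifferentiable 𝓘(ℂ, E) 𝓘(ℂ, EuclideanSpace ℂ (Fin k)) g ∧ ∀ᶠ x in 𝓝[≠] y, g x ≠ g y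

/-- **there is no Hartogs family over the regular set of a holomorphic map `h : M → ℂ^n`**,
`n = dim M`, if `M` is a complete Kähler manifold of nonnegative bisectional curvature and near
each point there is a global strictly plurisubharmonic function or the point is isolated in a
fibre of a holomorphic map to some `ℂ^k` -/
theorem isEmpty_hartogs_of_psh [CompleteSpace M] (hK : IsKahler E M)
    (hnn : ∀ x : M, NonnegBisectionalAt E x) (hsp : ∀ y : M, IsolatedInFibre E y ∨ ∃ b : M → ℝ, StrictPshAt E b y)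
    {h : M → E} (hh : MDifferentiable 𝓘(ℂ, E) 𝓘(ℂ, E) h)
    {X : Type*} [TopologicalSpace X] {i : X → M} (hi : Topology.IsOpenEmbedding i)
    (hX : range i = Reg h) : IsEmpty (H922.HartogsFamily (fun x => h (i x))) := by
  refine ⟨fun F => ?_⟩
  have hreg : ∀ x, i x ∈ Reg h := fun x => hX ▸ mem_range_self x
  set Φ : E → M := fun x => i (F.Φ x) with hΦ
  have hΦc : ContinuousOn Φ F.G := hi.continuous.comp_continuousOn F.sec.1
  have hsec : H922.SecOn h F.G Φ := ⟨hΦc, F.sec.2⟩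
  have hchart : ∀ x ∈ F.G, MDifferentiableAt 𝓘(ℂ, E) 𝓘(ℂ, E) Φ x ∧
      Function.Bijective (mfderiv 𝓘(ℂ, E) 𝓘(ℂ, E) Φ x) := by
    intro x hx
    obtain ⟨e, he, hxe, -, heq⟩ := H922.exists_chart_of_sec
      (isLocalDiffeomorphAt_of_mem_reg hh (hreg (F.Φ x))).1 F.isOpen_G hsec hx
    have hev : Φ =ᶠ[𝓝 x] e.symm := by
      filter_upwards [e.open_target.mem_nhds hxe] with y hy using heq hy
    have h1 : MDifferentiableAt 𝓘(ℂ, E) 𝓘(ℂ, E) e.symm x :=
      ((contMDiffOn_symm_of_mem_maximalAtlas he).contMDiffAt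
        (e.open_target.mem_nhds hxe)).mdifferentiableAt (by simp)
    have h2 : MDifferentiableAt 𝓘(ℂ, E) 𝓘(ℂ, E) Φ x := h1.congr_of_eventuallyEq hev
    refine ⟨h2, ?_⟩
    let A : E →L[ℂ] E := mfderiv 𝓘(ℂ, E) 𝓘(ℂ, E) h (Φ x)
    let B : E →L[ℂ] E := mfderiv 𝓘(ℂ, E) 𝓘(ℂ, E) Φ x
    have h3 := ((hh (Φ x)).hasMFDerivAt).comp x h2.hasMFDerivAt
    have h4 : (h ∘ Φ) =ᶠ[𝓝 x] id := by
      filter_upwards [F.isOpen_G.mem_nhds hx] with y hy using hsec.2 y hy
    have h5 : HasMFDerivAt 𝓘(ℂ, E) 𝓘(ℂ, E) (h ∘ Φ) x (ContinuousLinearMap.id ℂ E) :=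
      (hasMFDerivAt_id x).congr_of_eventuallyEq h4
    have h7 : A.comp B = ContinuousLinearMap.id ℂ E := hasMFDerivAt_unique h3 h5
    have h8 : Function.Injective (B : E →ₗ[ℂ] E) := by
      intro v w hvw
      have e1 : A (B v) = v := congrArg (fun T : E →L[ℂ] E => T v) h7
      have e2 : A (B w) = w := congrArg (fun T : E →L[ℂ] E => T w) h7
      exact (e1.symm.trans (congrArg A hvw)).trans e2
    exact ⟨h8, (LinearMap.injective_iff_surjective (f := (B : E →ₗ[ℂ] E))).1 h8⟩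
  have het : Vale.Agent.P253.R2.H384.IsEtale E Φ F.G :=
    ⟨F.isOpen_G, fun x hx => (hchart x hx).1, fun x hx => (hchart x hx).2⟩
  obtain ⟨u, hu, y, hy⟩ := exists_limit hK hnn het F.r_pos F.isOpen_U F.closedBall_subset
    F.diff0 F.diff1 F.mem
  have hyreg : y ∈ Reg h := by
    rcases hsp y with ⟨n, g, hg, hiso⟩ | ⟨b, hb, e, he, hye, n, L, ε, hε, hstr⟩
    · exact injective_of_limit hh hg F.isOpen_G (fun x hx => (hchart x hx).1)
        hsec.2 F.r_pos F.isOpen_U F.closedBall_subset F.diff0 F.diff1 F.mem hu hy hiso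
    · have hslice : ∀ s : ℝ, ∀ z ∈ closedBall F.z0 F.r, F.c0 z + (s : ℂ) • F.c1 z ∈ F.G →
          MDifferentiableAt 𝓘(ℂ, ℂ) 𝓘(ℂ, E) (fun z => Φ (F.c0 z + (s : ℂ) • F.c1 z)) z := by
        intro s z hz hzG
        have h1 : DifferentiableAt ℂ (fun z => F.c0 z + (s : ℂ) • F.c1 z) z :=
          (F.diff0.add (F.diff1.const_smul (s : ℂ))).differentiableAt
            (F.isOpen_U.mem_nhds (F.closedBall_subset hz))
        exact MDifferentiableAt.comp (g := Φ) z (hchart _ hzG).1 h1.mdifferentiableAt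
      have hin : ∀ x ∈ (Icc (0:ℝ) 1 ×ˢ closedBall F.z0 F.r) \ {((0:ℝ), F.z0)},
          F.c0 x.2 + (x.1 : ℂ) • F.c1 x.2 ∈ F.G := fun x hx =>
        F.mem x.1 hx.1.1 x.2 hx.1.2 fun h0 => hx.2 h0
      have hlimM : Tendsto (fun x : ℝ × ℂ => Φ (F.c0 x.2 + (x.1 : ℂ) • F.c1 x.2))
          (𝓝[(Icc (0:ℝ) 1 ×ˢ closedBall F.z0 F.r) \ {((0:ℝ), F.z0)}] (0, F.z0)) (𝓝 y) := by
        refine tendsto_of_radius (f := fun x : ℝ × ℂ => Φ (F.c0 x.2 + (x.1 : ℂ) • F.c1 x.2))
          hb he hye hε hstr F.r_pos ?_ ?_ ?_ hu ?_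
        · have h0 : ContinuousOn (fun x : ℝ × ℂ => F.c0 x.2 + (x.1 : ℂ) • F.c1 x.2)
              ((Icc (0:ℝ) 1 ×ˢ closedBall F.z0 F.r) \ {((0:ℝ), F.z0)}) := by
            have h1 : ∀ c : ℂ → E, DifferentiableOn ℂ c F.U →
                ContinuousOn (fun x : ℝ × ℂ => c x.2)
                  ((Icc (0:ℝ) 1 ×ˢ closedBall F.z0 F.r) \ {((0:ℝ), F.z0)}) := fun c hc =>
              hc.continuousOn.comp continuousOn_snd fun x hx => F.closedBall_subset hx.1.2
            have h2 : Continuous (fun x : ℝ × ℂ => (x.1 : ℂ)) :=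
              Complex.continuous_ofReal.comp continuous_fst
            exact (h1 _ F.diff0).add (h2.continuousOn.smul (h1 _ F.diff1))
          exact hΦc.comp h0 hin
        · intro z hz
          refine (hslice 0 z (ball_subset_closedBall hz.1) ?_).mdifferentiableWithinAt
          exact F.mem 0 ⟨le_rfl, zero_le_one⟩ z (ball_subset_closedBall hz.1) fun h0 =>
            hz.2 (Prod.ext_iff.1 h0).2
        · intro s hs z hz
          refine (hslice s z (ball_subset_closedBall hz) ?_).mdifferentiableWithinAt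
          exact F.mem s ⟨hs.1.le, hs.2⟩ z (ball_subset_closedBall hz) fun h0 =>
            hs.1.ne' (Prod.ext_iff.1 h0).1
        · refine hy.congr fun t => ?_
          simp
      exact injective_of_tendsto hh F.isOpen_G (fun x hx => (hchart x hx).1)
        hsec.2 F.r_pos F.closedBall_subset F.diff0 F.diff1 F.mem hlimM
  rw [← hX] at hyreg
  obtain ⟨y', rfl⟩ := hyreg
  -- the family stays in the regular set
  have hray : Tendsto (fun t : ℝ => F.c0 (t * u + F.z0)) (𝓝[>] 0) (𝓝[F.G] (F.c0 F.z0)) := by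
    refine tendsto_nhdsWithin_iff.2 ⟨?_, ?_⟩
    · have h1 : ContinuousAt F.c0 F.z0 := (F.diff0.differentiableAt (F.isOpen_U.mem_nhds
        (F.closedBall_subset (mem_closedBall_self F.r_pos.le)))).continuousAt
      have h2 : Tendsto (fun t : ℝ => (t : ℂ) * u + F.z0) (𝓝 0) (𝓝 F.z0) := by
        have : Continuous fun t : ℝ => (t : ℂ) * u + F.z0 := by fun_prop
        simpa using this.tendsto 0
      exact (h1.tendsto.comp h2).mono_left nhdsWithin_le_nhds
    · filter_upwards [Ioo_mem_nhdsGT F.r_pos] with t ht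
      have h1 : (t : ℂ) * u + F.z0 ∈ closedBall F.z0 F.r := by
        rw [mem_closedBall, dist_eq_norm, add_sub_cancel_right, norm_mul, hu, mul_one,
          Complex.norm_real, Real.norm_of_nonneg ht.1.le]
        exact ht.2.le
      have h2 := F.mem 0 ⟨le_rfl, zero_le_one⟩ _ h1 fun h0 => by
        have h6 : (t : ℂ) * u = 0 := by simpa using (Prod.ext_iff.1 h0).2
        rcases mul_eq_zero.1 h6 with h7 | h7
        · exact ht.1.ne' (by exact_mod_cast h7)
        · rw [h7, norm_zero] at hu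
          exact zero_ne_one hu
      simpa using h2
  have hesc : Tendsto (fun t : ℝ => F.Φ (F.c0 (t * u + F.z0))) (𝓝[>] 0) (cocompact X) :=
    F.escape.comp hray
  have hlim : Tendsto (fun t : ℝ => F.Φ (F.c0 (t * u + F.z0))) (𝓝[>] 0) (𝓝 y') := by
    rw [hi.tendsto_nhds_iff]
    exact hy
  have : LocallyCompactSpace M := by
    have : ProperSpace E := FiniteDimensional.proper ℂ E
    exact ChartedSpace.locallyCompactSpace E M
  have : LocallyCompactSpace X := hi.locallyCompactSpace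
  exact hlim.not_tendsto (disjoint_nhds_cocompact y') hesc

/-- **the regular set of a holomorphic map `h : M → ℂ^n` is Stein** -/
theorem hasSpshExhaustion_regO_of_psh [CompleteSpace M] [ConnectedSpace M] (hK : IsKahler E M)
    (hnn : ∀ x : M, NonnegBisectionalAt E x) (hsp : ∀ y : M, IsolatedInFibre E y ∨ ∃ b : M → ℝ, StrictPshAt E b y)
    (h : M → E) (hh : MDifferentiable 𝓘(ℂ, E) 𝓘(ℂ, E) h) :
    H380.Stein.HasSpshExhaustion E (RegO h hh) := by
  have hprop : ProperSpace M := properSpace_riemannian E M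
  have hd := isLocalDiffeomorph_regO h hh
  by_cases hb : ∀ m, BddAbove (radii (fun x : RegO h hh => h x) m)
  · refine H380.Stein.hasSpshExhaustion_of_separable hd hb (psh_of_isEmpty ?_ hd hb)
    exact isEmpty_hartogs_of_psh hK hnn hsp hh (i := ((↑) : RegO h hh → M))
      (RegO h hh).isOpenEmbedding' Subtype.range_coe
  · push Not at hb
    obtain ⟨x, hx⟩ := hb
    exact H380.Stein.hasSpshExhaustion_of_bijective hd (bijective_regO_of_not_bddAbove hh hx)

end main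

end Vale.Agent.P253.R2.H922
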