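import Vale.Agent.P253.R2.H922.Etale

/-!
P253: manifolds `M` with a locally biholomorphic map `j : M → N` to a complex manifold `N`, in a
chart `e` of `N`.
-/

open scoped Manifold ContDiff Topology
open Set Metric Filter IsManifold

set_option linter.unusedSectionVars false

namespace Vale.Agent.P253.R2.H922

section top

variable {E : Type*} [NormedAddCommGroup E] [NormedSpace ℝ E]
  {M : Type*} [TopologicalSpace M] {N : Type*} [TopologicalSpace N]

/-- the radii `r` of the balls `B = B(e (j y), r)` in the target of the chart `e` of `N` for which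
`e.symm : B → N` has a continuous lift `σ : B → M` through `j : M → N` with value `y` at the
centre of `B` -/
def radiiOver (j : M → N) (e : OpenPartialHomeomorph N E) (y : M) : Set ℝ :=
  {r | ball (e (j y)) r ⊆ e.target ∧ ∃ σ : E → M, ContinuousOn σ (ball (e (j y)) r) ∧
    (∀ x ∈ ball (e (j y)) r, j (σ x) = e.symm x) ∧ σ (e (j y)) = y}

/-- the distance of `y` to the boundary of `M` over `N`, in the chart `e` of `N` -/
noncomputable def bdistOver (j : M → N) (e : OpenPartialHomeomorph N E) (y : M) : ℝ :=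
  sSup (radiiOver j e y)

variable {j : M → N} {e : OpenPartialHomeomorph N E}

/-- the part of `M` over the chart domain -/
abbrev Part (j : M → N) (e : OpenPartialHomeomorph N E) : Type _ := {m : M // j m ∈ e.source}

/-- the projection of the part of `M` over the chart domain -/
def proj (j : M → N) (e : OpenPartialHomeomorph N E) (w : Part j e) : E := e (j w)

theorem radii_proj (w : Part j e) : radii (proj j e) w = radiiOver j e (w : M) := by
  ext r
  constructor
  · rintro ⟨σ, ⟨h1, h2⟩, h3⟩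
    refine ⟨fun x hx => ?_, fun x => (σ x : M), continuous_subtype_val.comp_continuousOn h1,
      fun x hx => ?_, congrArg Subtype.val h3⟩
    · have := h2 x hx
      rw [← this]
      exact e.map_source (σ x).2
    · have := h2 x hx
      conv_rhs => rw [← this]
      exact (e.left_inv (σ x).2).symm
  · rintro ⟨h0, σ, h1, h2, h3⟩
    classical
    have hs : ∀ x ∈ ball (e (j w)) r, j (σ x) ∈ e.source := fun x hx => by
      rw [h2 x hx]; exact e.map_target (h0 hx)
    refine ⟨fun x => if hx : x ∈ ball (e (j w)) r then ⟨σ x, hs x hx⟩ else w, ⟨?_, ?_⟩, ?_⟩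
    · have hind : Topology.IsInducing (Subtype.val : Part j e → M) := ⟨rfl⟩
      rw [hind.continuousOn_iff]
      refine h1.congr fun x hx => ?_
      have hx' : x ∈ ball (e (j w)) r := hx
      simp only [Function.comp, dif_pos hx']
    · intro x hx
      have hx' : x ∈ ball (e (j w)) r := hx
      simp only [dif_pos hx', proj]
      rw [h2 x hx', e.right_inv (h0 hx')]
    · by_cases hr : e (j w) ∈ ball (e (j w)) r
      · have h4 : (fun x => if hx : x ∈ ball (e (j w)) r then (⟨σ x, hs x hx⟩ : Part j e) else w)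
            (e (j w)) = ⟨σ (e (j w)), hs _ hr⟩ := dif_pos hr
        exact h4.trans (Subtype.ext h3)
      · exact dif_neg hr

theorem bdist_proj (w : Part j e) : bdist (proj j e) w = bdistOver j e (w : M) := by
  rw [bdist, bdistOver, radii_proj]

theorem isLocalHomeomorph_proj (hj : IsLocalHomeomorph j) : IsLocalHomeomorph (proj j e) := by
  rw [isLocalHomeomorph_iff_isLocalHomeomorphOn_univ]
  have h1 : IsLocalHomeomorphOn e e.source := fun x hx => ⟨e, hx, rfl⟩
  have hopen : IsOpen {m : M | j m ∈ e.source} := e.open_source.preimage hj.continuous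
  have h2 : IsLocalHomeomorph (Subtype.val : Part j e → M) :=
    (hopen.isOpenEmbedding_subtypeVal).isLocalHomeomorph
  have h3 : IsLocalHomeomorph (j ∘ (Subtype.val : Part j e → M)) := hj.comp h2
  rw [isLocalHomeomorph_iff_isLocalHomeomorphOn_univ] at h3
  exact h1.comp h3 (fun w _ => w.2)

theorem bddAbove_radiiOver (he : e.target ≠ univ) (y : M) : BddAbove (radiiOver j e y) := by
  obtain ⟨x, hx⟩ := (ne_univ_iff_exists_notMem _).1 he
  refine ⟨dist x (e (j y)), fun r hr => ?_⟩
  by_contra h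
  push Not at h
  exact hx (hr.1 h)

end top

section holo

variable {E : Type*} [NormedAddCommGroup E] [NormedSpace ℂ E] [FiniteDimensional ℂ E]
  {M : Type*} [TopologicalSpace M] [T2Space M] [ChartedSpace E M] [IsManifold 𝓘(ℂ, E) 1 M]
  {N : Type*} [TopologicalSpace N] [T2Space N] [ChartedSpace E N] [IsManifold 𝓘(ℂ, E) 1 N]
  {j : M → N} {e : OpenPartialHomeomorph N E}

/-- the map `e ∘ j` is locally biholomorphic on the part of `M` over the chart domain of `e` -/
theorem isLocalDiffeomorphAt_comp (hj : IsLocalDiffeomorph 𝓘(ℂ, E) 𝓘(ℂ, E) 1 j)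
    (he : e ∈ maximalAtlas 𝓘(ℂ, E) 1 N) {m : M} (hm : j m ∈ e.source) :
    IsLocalDiffeomorphAt 𝓘(ℂ, E) 𝓘(ℂ, E) 1 (fun m => e (j m)) m := by
  obtain ⟨Ψ, h1, h2⟩ := hj m
  let Ψ' : PartialDiffeomorph 𝓘(ℂ, E) 𝓘(ℂ, E) N E 1 :=
    { toPartialEquiv := e.toPartialEquiv
      open_source := e.open_source
      open_target := e.open_target
      contMDiffOn_toFun := contMDiffOn_of_mem_maximalAtlas he
      contMDiffOn_invFun := contMDiffOn_symm_of_mem_maximalAtlas he }
  refine ⟨Ψ.trans Ψ', ?_, ?_⟩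
  · have : m ∈ Ψ.source ∩ Ψ ⁻¹' e.source := ⟨h1, by
      rw [mem_preimage, ← h2 h1]; exact hm⟩
    exact this
  · intro x hx
    have hx1 : x ∈ Ψ.source := by
      have : x ∈ Ψ.source ∩ Ψ ⁻¹' e.source := hx
      exact this.1
    change e (j x) = e (Ψ x)
    rw [h2 hx1]

theorem exists_chart_of_lift (hj : IsLocalDiffeomorph 𝓘(ℂ, E) 𝓘(ℂ, E) 1 j)
    (he : e ∈ maximalAtlas 𝓘(ℂ, E) 1 N) {G : Set E} (hG : IsOpen G) {S : E → M}
    (hS : SecOn (fun m => e (j m)) G S) (hSe : ∀ x ∈ G, j (S x) ∈ e.source) {x : E} (hx : x ∈ G) :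
    ∃ e' ∈ maximalAtlas 𝓘(ℂ, E) 1 M, x ∈ e'.target ∧ e'.target ⊆ G ∧ EqOn S e'.symm e'.target :=
  exists_chart_of_sec (isLocalDiffeomorphAt_comp hj he (hSe x hx)) hG hS hx

/-- a Hartogs family over the chart `e` gives a Hartogs family in `M`, if its singular point is in
the target of `e` -/
theorem escape_of_family (hj : IsLocalHomeomorph j) (F : HartogsFamily (proj j e))
    (hF : F.c0 F.z0 ∈ e.target) :
    Tendsto (fun x => (F.Φ x : M)) (𝓝[F.G] (F.c0 F.z0)) (cocompact M) := by
  set p := F.c0 F.z0 with hp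
  rw [(hasBasis_cocompact (X := M)).tendsto_right_iff]
  intro K hK
  by_contra hcon
  have hfr : ∃ᶠ x in 𝓝[F.G] p, (F.Φ x : M) ∈ K := by
    intro h
    exact hcon (h.mono fun x hx => hx)
  obtain ⟨m, -, hm⟩ := hK.exists_mapClusterPt_of_frequently hfr
  have h1 : Tendsto (fun x => j (F.Φ x)) (𝓝[F.G] p) (𝓝 (e.symm p)) := by
    have h2 : (fun x => e.symm x) =ᶠ[𝓝[F.G] p] (fun x => j (F.Φ x)) := by
      filter_upwards [self_mem_nhdsWithin] with x hx
      have h3 := F.sec.2 x hx
      rw [proj] at h3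
      conv_lhs => rw [← h3]
      exact e.left_inv (F.Φ x).2
    exact ((e.continuousAt_symm hF).tendsto.mono_left nhdsWithin_le_nhds).congr' h2
  have hjm : j m = e.symm p := by
    have h2 : MapClusterPt (j m) (𝓝[F.G] p) (j ∘ fun x => (F.Φ x : M)) :=
      hm.continuousAt_comp hj.continuous.continuousAt
    have h3 : (𝓝 (j m) ⊓ 𝓝 (e.symm p)).NeBot := NeBot.mono h2 (inf_le_inf_left _ h1)
    exact eq_of_nhds_neBot h3
  have hms : j m ∈ e.source := by rw [hjm]; exact e.map_target hF
  have hopen : IsOpen {m : M | j m ∈ e.source} := e.open_source.preimage hj.continuous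
  have hoe : Topology.IsOpenEmbedding (Subtype.val : Part j e → M) := hopen.isOpenEmbedding_subtypeVal
  have hlc : LocallyCompactSpace M := by
    have : ProperSpace E := FiniteDimensional.proper ℂ E
    exact ChartedSpace.locallyCompactSpace E M
  have hlc' : LocallyCompactSpace (Part j e) := hoe.locallyCompactSpace
  obtain ⟨K', hK', hmK'⟩ := exists_compact_mem_nhds (⟨m, hms⟩ : Part j e)
  have h2 : ∀ᶠ x in 𝓝[F.G] p, F.Φ x ∉ K' := F.escape hK'.compl_mem_cocompact
  have h3 : (Subtype.val '' K') ∈ 𝓝 m := hoe.image_mem_nhds.2 hmK'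
  obtain ⟨x, hx1, hx2⟩ := ((hm.frequently h3).and_eventually h2).exists
  obtain ⟨w, hw, hwx⟩ := hx1
  exact hx2 (by rwa [← Subtype.ext hwx])

variable (E M) in
/-- the key proposition for `M`: there is no family of discs `z ↦ c0 z + s • c1 z` in an open set
`G` étale over `M` which runs out of `G` only at `s = 0`, `z = z0`, where `Φ` escapes to infinity -/
def KeyProp : Prop :=
  ∀ (G : Set E) (Φ : E → M) (c0 c1 : ℂ → E) (z0 : ℂ) (r : ℝ) (U : Set ℂ), IsOpen G →
    (∀ x ∈ G, ∃ e ∈ maximalAtlas 𝓘(ℂ, E) 1 M, x ∈ e.target ∧ e.target ⊆ G ∧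
      EqOn Φ e.symm e.target) →
    0 < r → IsOpen U → closedBall z0 r ⊆ U → DifferentiableOn ℂ c0 U → DifferentiableOn ℂ c1 U →
    (∀ s ∈ Icc (0:ℝ) 1, ∀ z ∈ closedBall z0 r, (s, z) ≠ (0, z0) → c0 z + (s : ℂ) • c1 z ∈ G) →
    c0 z0 ∉ G → Tendsto Φ (𝓝[G] (c0 z0)) (cocompact M) → False

/-- no Hartogs families over a chart of `N` -/
theorem KeyProp.no_family (hKP : KeyProp E M) (hj : IsLocalDiffeomorph 𝓘(ℂ, E) 𝓘(ℂ, E) 1 j)
    (he : e ∈ maximalAtlas 𝓘(ℂ, E) 1 N) (F : HartogsFamily (proj j e)) :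
    F.c0 F.z0 ∉ e.target := by
  intro hF
  refine hKP F.G (fun x => (F.Φ x : M)) F.c0 F.c1 F.z0 F.r F.U F.isOpen_G (fun x hx => ?_) F.r_pos
    F.isOpen_U F.closedBall_subset F.diff0 F.diff1 F.mem F.not_mem
    (escape_of_family hj.isLocalHomeomorph F hF)
  exact exists_chart_of_lift hj he F.isOpen_G
    ⟨continuous_subtype_val.comp_continuousOn F.sec.1, F.sec.2⟩ (fun x _ => (F.Φ x).2) hx

/-- **Pseudoconvexity over `N`**: in a chart of `N`, minus the logarithm of the distance to the
boundary of `M` satisfies the sub-mean value inequality along all holomorphic discs. -/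
theorem KeyProp.submean_over (hKP : KeyProp E M) (hj : IsLocalDiffeomorph 𝓘(ℂ, E) 𝓘(ℂ, E) 1 j)
    (he : e ∈ maximalAtlas 𝓘(ℂ, E) 1 N) (hne : e.target ≠ univ) {f : ℂ → M} {c : ℂ} {r : ℝ}
    (hr : 0 < r) (hf : ContinuousOn f (closedBall c r))
    (hfe : ∀ z ∈ closedBall c r, j (f z) ∈ e.source)
    (hf' : DifferentiableOn ℂ (fun z => e (j (f z))) (ball c r))
    (hclose : ∀ z ∈ ball c r, closedBall (e (j (f z))) (bdistOver j e (f z)) ⊆ e.target) :
    -Real.log (bdistOver j e (f c)) ≤
      Real.circleAverage (fun z => -Real.log (bdistOver j e (f z))) c r := by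
  classical
  by_contra hcon
  push Not at hcon
  have hcm : c ∈ closedBall c r := mem_closedBall_self hr.le
  set g : ℂ → Part j e := fun z => if hz : z ∈ closedBall c r then ⟨f z, hfe z hz⟩ else
    ⟨f c, hfe c hcm⟩ with hg
  have hgf : ∀ z ∈ closedBall c r, (g z : M) = f z := fun z hz => by simp only [hg, dif_pos hz]
  have hgc : ContinuousOn g (closedBall c r) := by
    have hind : Topology.IsInducing (Subtype.val : Part j e → M) := ⟨rfl⟩
    rw [hind.continuousOn_iff]
    exact hf.congr fun z hz => hgf z hz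
  have hgd : DifferentiableOn ℂ (fun z => proj j e (g z)) (ball c r) := by
    refine hf'.congr fun z hz => ?_
    rw [proj, hgf z (ball_subset_closedBall hz)]
  have hbd : ∀ z ∈ closedBall c r, bdist (proj j e) (g z) = bdistOver j e (f z) := fun z hz => by
    rw [bdist_proj, hgf z hz]
  have hcon' : Real.circleAverage (fun z => -Real.log (bdist (proj j e) (g z))) c r <
      -Real.log (bdist (proj j e) (g c)) := by
    rw [hbd c hcm]
    rwa [Real.circleAverage_congr_sphere (f₂ := fun z => -Real.log (bdistOver j e (f z)))]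
    intro z hz
    rw [abs_of_pos hr] at hz
    simp only [hbd z (sphere_subset_closedBall hz)]
  obtain ⟨F, z0, hz0, hF⟩ := exists_hartogs_of_lt (isLocalHomeomorph_proj hj.isLocalHomeomorph)
    (fun w => by rw [radii_proj]; exact bddAbove_radiiOver hne _) hr hgc hgd hcon'
  refine hKP.no_family hj he F (hclose z0 hz0 ?_)
  have hz0' := ball_subset_closedBall hz0
  rw [hbd z0 hz0', proj, hgf z0 hz0'] at hF
  exact hF.le

end holo

end Vale.Agent.P253.R2.H922
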