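import Vale.Agent.P253.R2.H451.OpenReg
import Vale.Agent.P253.R2.H380.Stein.Dist

/-!
P253 SteinCriteria: the regular set of a holomorphic map `h : M → ℂ^n` has a strictly
plurisubharmonic exhaustion function.
-/

open scoped Manifold ContDiff Topology Bundle
open Set Metric Filter Bundle IsManifold

set_option maxSynthPendingDepth 3
set_option linter.unusedSectionVars false

noncomputable section

namespace Vale.Agent.P253.R2.H922

open Mfd TopologicalSpace H451 H380.Stein

variable {E : Type*} [NormedAddCommGroup E] [NormedSpace ℂ E] [FiniteDimensional ℂ E]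

/-- if a sheet of the regular set of `h` covers all of `E` then `h` is bijective and everywhere
regular -/
theorem bijective_regO_of_not_bddAbove {M : Type*} [TopologicalSpace M] [T2Space M]
    [ConnectedSpace M] [ChartedSpace E M] [IsManifold 𝓘(ℂ, E) 1 M] {h : M → E}
    (hh : MDifferentiable 𝓘(ℂ, E) 𝓘(ℂ, E) h) {x : RegO h hh}
    (hx : ¬ BddAbove (radii (fun x : RegO h hh => h x) x)) :
    Function.Bijective (fun x : RegO h hh => h x) := by
  set q : RegO h hh → E := fun x => h x with hq
  have hl : IsLocalHomeomorph q := (isLocalDiffeomorph_regO h hh).isLocalHomeomorph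
  obtain ⟨σ, hσ, hσx⟩ := exists_sec_iUnion hl x
  have hU : (⋃ r : radii q x, ball (q x) (r : ℝ)) = univ := by
    refine eq_univ_of_forall fun y => ?_
    obtain ⟨r, hr, hyr⟩ := not_bddAbove_iff.1 hx (dist y (q x))
    exact mem_iUnion.2 ⟨⟨r, hr⟩, hyr⟩
  rw [hU] at hσ
  have hσc : Continuous σ := continuousOn_univ.1 hσ.1
  have hσq : ∀ y, q (σ y) = y := fun y => hσ.2 y (mem_univ _)
  have hhc : Continuous h := hh.continuous
  set A : Set M := {m | (σ (h m) : M) = m} with hA
  have hclosed : IsClosed A :=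
    isClosed_eq (continuous_subtype_val.comp (hσc.comp hhc)) continuous_id
  have hopen : IsOpen A := by
    rw [isOpen_iff_mem_nhds]
    intro m hm
    have hm' : (σ (h m) : M) = m := hm
    set y : RegO h hh := σ (h m) with hy
    have hqy : q y = h m := hσq _
    have h1 : ∀ᶠ z in 𝓝 y, σ (q z) = z := by
      refine sec_eventually hl one_pos ⟨hσc.continuousOn, fun x _ => hσq x⟩ ?_
      rw [hqy]
    have h2 : ∀ᶠ z in 𝓝 (y : M), z ∈ A := by
      rw [← (RegO h hh).isOpenEmbedding'.map_nhds_eq y, eventually_map]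
      filter_upwards [h1] with z hz
      show (σ (h z) : M) = z
      have hz' : σ (q z) = z := hz
      exact congrArg Subtype.val hz'
    rwa [hm'] at h2
  have hAu : A = univ := IsClopen.eq_univ ⟨hclosed, hopen⟩ ⟨x, by
    show (σ (h x) : M) = x
    have : σ (q x) = x := hσx
    rw [this]⟩
  refine ⟨fun y z hyz => ?_, fun y => ⟨σ y, hσq y⟩⟩
  have h1 : (y : M) ∈ A := by rw [hAu]; trivial
  have h2 : (z : M) ∈ A := by rw [hAu]; trivial
  have h3 : (σ (h y) : M) = y := h1
  have h4 : (σ (h z) : M) = z := h2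
  have h5 : h y = h z := hyz
  apply Subtype.ext
  rw [← h3, ← h4, h5]

section main

variable {M : Type*} [MetricSpace M] [ChartedSpace E M]
  [IsManifold 𝓘(ℂ, E) 1 M] [IsManifold 𝓘(ℝ, E) ∞ M]
  [RiemannianBundle (fun x : M => TangentSpace 𝓘(ℝ, E) x)]
  [IsContMDiffRiemannianBundle 𝓘(ℝ, E) ∞ E (fun x : M => TangentSpace 𝓘(ℝ, E) x)]
  [IsRiemannianManifold 𝓘(ℝ, E) M]

/-- **the complement of the degeneracy divisor of a holomorphic map `h : M → ℂ^n` is Stein** -/
theorem hasSpshExhaustion_regO [CompleteSpace M] [ConnectedSpace M] (hK : IsKahler E M)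
    (hnn : ∀ x : M, NonnegBisectionalAt E x) (hKc : KComplete E M)
    (h : M → E) (hh : MDifferentiable 𝓘(ℂ, E) 𝓘(ℂ, E) h) : HasSpshExhaustion E (RegO h hh) := by
  have hprop : ProperSpace M := properSpace_riemannian E M
  have hd := isLocalDiffeomorph_regO h hh
  by_cases hb : ∀ m, BddAbove (radii (fun x : RegO h hh => h x) m)
  · exact hasSpshExhaustion_of_separable hd hb (psh_regO hK hnn hKc h hh hb)
  · push Not at hb
    obtain ⟨x, hx⟩ := hb
    exact hasSpshExhaustion_of_bijective hd (bijective_regO_of_not_bddAbove hh hx)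

end main

end Vale.Agent.P253.R2.H922
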