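import Vale.Agent.P253.R2.H922.NB5
import Vale.Agent.P253.R2.H922.Final
import Vale.Agent.P253.R2.H618.Bus
import Vale.Agent.P253.R2.H618.Exh6

/-!
P253 SteinCriteria: the regular set of a holomorphic map `M → ℂ^n` is Stein; pointwise form.
-/

open scoped Manifold ContDiff Topology Bundle
open Set Metric Filter Bundle IsManifold

set_option maxSynthPendingDepth 3
set_option linter.unusedSectionVars false

noncomputable section

namespace Vale.Agent.P253.R2.H922

open Mfd H451 TopologicalSpace H380.Stein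

variable {E : Type*} [NormedAddCommGroup E] [NormedSpace ℂ E] [FiniteDimensional ℂ E]
  {M : Type*} [MetricSpace M] [ChartedSpace E M]
  [IsManifold 𝓘(ℂ, E) 1 M] [IsManifold 𝓘(ℝ, E) ∞ M]
  [RiemannianBundle (fun x : M => TangentSpace 𝓘(ℝ, E) x)]
  [IsContMDiffRiemannianBundle 𝓘(ℝ, E) ∞ E (fun x : M => TangentSpace 𝓘(ℝ, E) x)]
  [IsRiemannianManifold 𝓘(ℝ, E) M]

/-- **the regular set of a holomorphic map `h : M → ℂ^n` is Stein** -/
theorem stein_reg [CompleteSpace M] [ConnectedSpace M] [NoncompactSpace M] (hK : IsKahler E M)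
    (hnn : ∀ x : M, NonnegBisectionalAt E x)
    (hpos : ∀ y : M, PosBisectionalAt E y ∨ IsolatedInFibre E y)
    (h : M → E) (hh : MDifferentiable 𝓘(ℂ, E) 𝓘(ℂ, E) h) :
    HasSpshExhaustion E (RegO h hh) := by
  obtain ⟨b, hb, hb'⟩ := H618.exists_busemann hK hnn
  refine hasSpshExhaustion_regO_of_psh hK hnn (fun y => ?_) h hh
  rcases hpos y with h1 | h1
  · obtain ⟨e, he, hye, n, L, ε, hε, hs⟩ := hb' y h1
    exact Or.inr ⟨b, hb, e, he, hye, n, L, ε, hε, hs⟩
  · exact Or.inl h1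

/-- Riemann domains over `ℂ^n` are Stein -/
theorem stein_domain [CompleteSpace M] [ConnectedSpace M] (hK : IsKahler E M)
    (hnn : ∀ x : M, NonnegBisectionalAt E x) (q : M → E)
    (hq : IsLocalDiffeomorph 𝓘(ℂ, E) 𝓘(ℂ, E) 1 q) : HasSpshExhaustion E M :=
  (keyProp hK hnn).hasSpshExhaustion hq

end Vale.Agent.P253.R2.H922
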