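import Mathlib

/-!
P253: sections of a local homeomorphism `π : M → E` over balls; the distance to the boundary of a
Riemann domain.
-/

open Set Metric Topology Filter

set_option linter.unusedSectionVars false

namespace Vale.Agent.P253.R2.H922

variable {E : Type*} [NormedAddCommGroup E] [NormedSpace ℝ E]
  {M : Type*} [TopologicalSpace M] [T2Space M] {π : M → E}

/-- `σ` is a continuous section of `π` over `A` -/
def SecOn (π : M → E) (A : Set E) (σ : E → M) : Prop :=
  ContinuousOn σ A ∧ ∀ x ∈ A, π (σ x) = x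

theorem SecOn.mono {A B : Set E} {σ : E → M} (h : SecOn π B σ) (hAB : A ⊆ B) : SecOn π A σ :=
  ⟨h.1.mono hAB, fun x hx => h.2 x (hAB hx)⟩

theorem SecOn.congr {A : Set E} {σ τ : E → M} (h : SecOn π A σ) (hst : EqOn τ σ A) :
    SecOn π A τ :=
  ⟨h.1.congr hst, fun x hx => by rw [hst hx]; exact h.2 x hx⟩

theorem SecOn.eqOn (hπ : IsLocallyInjective π) {A : Set E} {σ τ : E → M}
    (hA : IsPreconnected A) (h1 : SecOn π A σ) (h2 : SecOn π A τ) {x : E} (hx : x ∈ A)
    (h : σ x = τ x) : EqOn σ τ A :=
  (T2Space.isSeparatedMap π).eqOn_of_comp_eqOn hπ hA h1.1 h2.1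
    (fun y hy => by simp only [Function.comp]; rw [h1.2 y hy, h2.2 y hy]) hx h

/-- gluing of sections over open convex sets -/
theorem glue (hπ : IsLocallyInjective π) [Nonempty M] {ι : Type*} (A : ι → Set E)
    (σ : ι → E → M) (hA : ∀ i, IsOpen (A i)) (hc : ∀ i, Convex ℝ (A i))
    (hσ : ∀ i, SecOn π (A i) (σ i))
    (hag : ∀ i j, (A i ∩ A j).Nonempty → ∃ x ∈ A i ∩ A j, σ i x = σ j x) :
    ∃ S : E → M, SecOn π (⋃ i, A i) S ∧ ∀ i, EqOn S (σ i) (A i) := by
  classical
  have key : ∀ i j, EqOn (σ i) (σ j) (A i ∩ A j) := by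
    intro i j x hx
    obtain ⟨y, hy, hyy⟩ := hag i j ⟨x, hx⟩
    exact SecOn.eqOn hπ ((hc i).inter (hc j)).isPreconnected ((hσ i).mono inter_subset_left)
      ((hσ j).mono inter_subset_right) hy hyy hx
  let S : E → M := fun x => if h : ∃ i, x ∈ A i then σ h.choose x else Classical.arbitrary M
  have hS : ∀ i, EqOn S (σ i) (A i) := by
    intro i x hx
    have h : ∃ i, x ∈ A i := ⟨i, hx⟩
    simp only [S, dif_pos h]
    exact key _ _ ⟨h.choose_spec, hx⟩
  refine ⟨S, ⟨?_, ?_⟩, hS⟩
  · intro x hx
    obtain ⟨i, hi⟩ := mem_iUnion.1 hx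
    have h1 : ContinuousAt (σ i) x := (hσ i).1.continuousAt ((hA i).mem_nhds hi)
    have h2 : S =ᶠ[𝓝 x] σ i := by
      filter_upwards [(hA i).mem_nhds hi] with y hy using hS i hy
    exact (h1.congr h2.symm).continuousWithinAt
  · intro x hx
    obtain ⟨i, hi⟩ := mem_iUnion.1 hx
    rw [hS i hi]
    exact (hσ i).2 x hi

/-- the radii `r` of the balls `B(π y, r)` over which there is a continuous section of `π` with
value `y` at `π y` -/
def radii (π : M → E) (y : M) : Set ℝ := {r | ∃ σ : E → M, SecOn π (ball (π y) r) σ ∧ σ (π y) = y}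

/-- the distance of `y` to the boundary of the Riemann domain `π : M → E` (if it is finite) -/
noncomputable def bdist (π : M → E) (y : M) : ℝ := sSup (radii π y)

theorem radii_mono {y : M} {r s : ℝ} (hs : s ∈ radii π y) (hrs : r ≤ s) : r ∈ radii π y := by
  obtain ⟨σ, h1, h2⟩ := hs
  exact ⟨σ, h1.mono (ball_subset_ball hrs), h2⟩

theorem zero_mem_radii (y : M) : (0 : ℝ) ∈ radii π y :=
  ⟨fun _ => y, ⟨by rw [ball_zero]; exact continuousOn_empty _, by simp⟩, rfl⟩

theorem exists_local_sec (hπ : IsLocalHomeomorph π) (y : M) :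
    ∃ η > 0, ∃ τ : E → M, SecOn π (ball (π y) η) τ ∧ τ (π y) = y ∧ ∀ᶠ m in 𝓝 y, τ (π m) = m := by
  obtain ⟨e, hy, he⟩ := hπ y
  obtain ⟨η, hη, hb⟩ := Metric.isOpen_iff.1 e.open_target (π y) (by
    rw [he]; exact e.map_source hy)
  refine ⟨η, hη, e.symm, ⟨e.continuousOn_symm.mono hb, fun x hx => ?_⟩, ?_, ?_⟩
  · have : e (e.symm x) = x := e.right_inv (hb hx)
    rwa [he]
  · rw [he]; exact e.left_inv hy
  · filter_upwards [e.open_source.mem_nhds hy] with m hm
    rw [he]; exact e.left_inv hm

theorem exists_pos_mem_radii (hπ : IsLocalHomeomorph π) (y : M) : ∃ η > 0, η ∈ radii π y := by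
  obtain ⟨η, hη, τ, h1, h2, -⟩ := exists_local_sec hπ y
  exact ⟨η, hη, τ, h1, h2⟩

theorem bdist_pos (hπ : IsLocalHomeomorph π) {y : M} (hb : BddAbove (radii π y)) :
    0 < bdist π y := by
  obtain ⟨η, hη, h⟩ := exists_pos_mem_radii hπ y
  exact hη.trans_le (le_csSup hb h)

/-- the section over an open set swept out by balls with radii in `radii π y` -/
theorem exists_sec_iUnion (hπ : IsLocalHomeomorph π) (y : M) :
    ∃ σ : E → M, SecOn π (⋃ r : radii π y, ball (π y) (r : ℝ)) σ ∧ σ (π y) = y := by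
  have : Nonempty M := ⟨y⟩
  choose! σ hσ hy using fun r : radii π y => r.2
  obtain ⟨S, hS, hS'⟩ := glue hπ.isLocallyInjective (fun r : radii π y => ball (π y) (r : ℝ)) σ
    (fun _ => isOpen_ball) (fun _ => convex_ball _ _) hσ (fun i j hij => by
      obtain ⟨x, hx1, hx2⟩ := hij
      have h1 : 0 < (i : ℝ) := dist_nonneg.trans_lt (mem_ball.1 hx1)
      have h2 : 0 < (j : ℝ) := dist_nonneg.trans_lt (mem_ball.1 hx2)
      exact ⟨π y, ⟨mem_ball_self h1, mem_ball_self h2⟩, by rw [hy, hy]⟩)
  refine ⟨S, hS, ?_⟩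
  obtain ⟨η, hη, h⟩ := exists_pos_mem_radii hπ y
  rw [hS' ⟨η, h⟩ (mem_ball_self hη)]
  exact hy _

/-- the section over the ball of radius `bdist` -/
theorem exists_sec (hπ : IsLocalHomeomorph π) {y : M} (_hb : BddAbove (radii π y)) :
    ∃ σ : E → M, SecOn π (ball (π y) (bdist π y)) σ ∧ σ (π y) = y := by
  obtain ⟨σ, h1, h2⟩ := exists_sec_iUnion hπ y
  refine ⟨σ, h1.mono fun x hx => ?_, h2⟩
  obtain ⟨r, hr, hxr⟩ := exists_lt_of_lt_csSup ⟨0, zero_mem_radii y⟩ (mem_ball.1 hx)
  exact mem_iUnion.2 ⟨⟨r, hr⟩, mem_ball.2 hxr⟩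

/-- near `y`, a section with value `y` at `π y` inverts `π` -/
theorem sec_eventually (hπ : IsLocalHomeomorph π) {y : M} {r : ℝ} (hr : 0 < r) {σ : E → M}
    (hσ : SecOn π (ball (π y) r) σ) (hy : σ (π y) = y) : ∀ᶠ m in 𝓝 y, σ (π m) = m := by
  obtain ⟨e, hye, he⟩ := hπ y
  have hc : ContinuousAt π y := hπ.continuous.continuousAt
  have h1 : ContinuousAt (fun m => σ (π m)) y := by
    have h2 : ContinuousAt σ (π y) := hσ.1.continuousAt (isOpen_ball.mem_nhds (mem_ball_self hr))
    exact h2.comp hc
  have h2 : ∀ᶠ m in 𝓝 y, σ (π m) ∈ e.source := by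
    apply h1.eventually
    simp only [hy]
    exact e.open_source.mem_nhds hye
  have h3 : ∀ᶠ m in 𝓝 y, π m ∈ ball (π y) r := hc.eventually (isOpen_ball.mem_nhds (mem_ball_self hr))
  filter_upwards [h2, h3, e.open_source.mem_nhds hye] with m hm1 hm2 hm3
  apply e.injOn hm1 hm3
  have := hσ.2 _ hm2
  rw [he] at this ⊢
  exact this

theorem radii_shift {y m : M} {r s : ℝ} {σ : E → M} (hσ : SecOn π (ball (π y) r) σ)
    (hm : σ (π m) = m) (hs : s + dist (π m) (π y) ≤ r) : s ∈ radii π m :=
  ⟨σ, hσ.mono (ball_subset_ball' hs), hm⟩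

/-- the radii are bounded near `y` if they are bounded at `y`, and `bdist` is continuous -/
theorem eventually_bdist (hπ : IsLocalHomeomorph π) {y : M} (hb : ∀ m, BddAbove (radii π m))
    {ε : ℝ} (hε : 0 < ε) : ∀ᶠ m in 𝓝 y, |bdist π m - bdist π y| < ε := by
  have hpos := bdist_pos hπ (hb y)
  obtain ⟨σ, hσ, hσy⟩ := exists_sec hπ (hb y)
  set R := bdist π y with hR
  have hc : ContinuousAt π y := hπ.continuous.continuousAt
  set δ : ℝ := min (ε / 2) (R / 3) with hδ
  have hδ0 : 0 < δ := by positivity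
  have h1 : ∀ᶠ m in 𝓝 y, dist (π m) (π y) < δ :=
    hc.eventually (Metric.ball_mem_nhds _ hδ0)
  filter_upwards [h1, sec_eventually hπ hpos hσ hσy] with m hm1 hm2
  have hm3 : dist (π m) (π y) < ε / 2 := hm1.trans_le (min_le_left _ _)
  have hm4 : dist (π m) (π y) < R / 3 := hm1.trans_le (min_le_right _ _)
  have hlow : R - dist (π m) (π y) ≤ bdist π m := by
    apply le_csSup (hb m)
    exact radii_shift hσ hm2 (by linarith)
  obtain ⟨τ, hτ, hτm⟩ := exists_sec hπ (hb m)
  have hup : bdist π m - dist (π m) (π y) ≤ R := by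
    apply le_csSup (hb y)
    have hyb : π y ∈ ball (π m) (bdist π m) := by
      rw [mem_ball, dist_comm]; linarith
    have hτy : τ (π y) = y := by
      have hcv : IsPreconnected (ball (π y) R ∩ ball (π m) (bdist π m)) :=
        ((convex_ball _ _).inter (convex_ball _ _)).isPreconnected
      have hx : π m ∈ ball (π y) R ∩ ball (π m) (bdist π m) :=
        ⟨by rw [mem_ball]; linarith, mem_ball_self (by linarith)⟩
      have := SecOn.eqOn hπ.isLocallyInjective hcv (hσ.mono inter_subset_left)
        (hτ.mono inter_subset_right) hx (by rw [hm2, hτm])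
      rw [← this ⟨mem_ball_self hpos, hyb⟩, hσy]
    exact radii_shift hτ hτy (by rw [dist_comm]; linarith)
  rw [abs_lt]
  constructor <;> linarith

theorem continuous_bdist (hπ : IsLocalHomeomorph π) (hb : ∀ m, BddAbove (radii π m)) :
    Continuous (bdist π) := by
  rw [continuous_iff_continuousAt]
  intro y
  rw [Metric.continuousAt_iff']
  intro ε hε
  exact eventually_bdist hπ hb hε

/-- a point of the closed unit segment between two points whose distance is less than the sum of
two radii -/
theorem exists_mem_segment_balls {p q : E} {a b : ℝ} (ha : 0 < a) (hb : 0 < b)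
    (h : dist p q < a + b) : ∃ x ∈ segment ℝ p q, dist x p < a ∧ dist x q < b := by
  have hab : 0 < a + b := by positivity
  refine ⟨AffineMap.lineMap p q (a / (a + b)), ?_, ?_, ?_⟩
  · rw [segment_eq_image_lineMap]
    exact ⟨a / (a + b), ⟨by positivity, by rw [div_le_one hab]; linarith⟩, rfl⟩
  · rw [dist_lineMap_left, Real.norm_of_nonneg (by positivity), div_mul_eq_mul_div,
      div_lt_iff₀ hab]
    gcongr
  · rw [dist_lineMap_right]
    have : 1 - a / (a + b) = b / (a + b) := by field_simp; ring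
    rw [this, Real.norm_of_nonneg (by positivity), div_mul_eq_mul_div, div_lt_iff₀ hab]
    gcongr

/-- `p` is a point at which the section `σ` over the ball `B` cannot be continued -/
def Sing (π : M → E) (B : Set E) (σ : E → M) (p : E) : Prop :=
  ∀ (η : ℝ) (τ : E → M), 0 < η → SecOn π (ball p η) τ → ∀ x ∈ ball p η ∩ B, τ x ≠ σ x

/-- the section over the maximal ball has a singular boundary point -/
theorem exists_sing [FiniteDimensional ℝ E] (hπ : IsLocalHomeomorph π) {y : M}
    (hb : BddAbove (radii π y)) {σ : E → M} (hσ : SecOn π (ball (π y) (bdist π y)) σ)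
    (hy : σ (π y) = y) :
    ∃ p ∈ sphere (π y) (bdist π y), Sing π (ball (π y) (bdist π y)) σ p := by
  have : Nonempty M := ⟨y⟩
  have hpos := bdist_pos hπ hb
  set R := bdist π y with hR
  set a := π y with ha
  by_contra hcon
  push Not at hcon
  have hcon' : ∀ p : sphere a R, ∃ (η : ℝ) (τ : E → M), 0 < η ∧ SecOn π (ball (p : E) η) τ ∧
      ∃ x ∈ ball (p : E) η ∩ ball a R, τ x = σ x := by
    intro p
    have := hcon p p.2
    unfold Sing at this
    push Not at this
    exact this
  choose η τ hη hτ hag using hcon'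
  have hLI := hπ.isLocallyInjective
  have hEq : ∀ p : sphere a R, EqOn (τ p) σ (ball (p : E) (η p) ∩ ball a R) := by
    intro p
    obtain ⟨x, hx, hxx⟩ := hag p
    exact SecOn.eqOn hLI ((convex_ball _ _).inter (convex_ball _ _)).isPreconnected
      ((hτ p).mono inter_subset_left) (hσ.mono inter_subset_right) hx hxx
  let A : Option (sphere a R) → Set E := fun i => i.elim (ball a R) fun p => ball (p : E) (η p)
  let s : Option (sphere a R) → E → M := fun i => i.elim σ fun p => τ p
  obtain ⟨S, hS, hS'⟩ := glue hLI A s (fun i => by cases i <;> exact isOpen_ball)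
    (fun i => by cases i <;> exact convex_ball _ _)
    (fun i => by
      cases i with
      | none => exact hσ
      | some p => exact hτ p)
    (fun i j hij => by
      obtain ⟨q, hq1, hq2⟩ := hij
      rcases i with _ | p <;> rcases j with _ | p'
      · exact ⟨q, ⟨hq1, hq2⟩, rfl⟩
      · exact ⟨q, ⟨hq1, hq2⟩, (hEq p' ⟨hq2, hq1⟩).symm⟩
      · exact ⟨q, ⟨hq1, hq2⟩, hEq p ⟨hq1, hq2⟩⟩
      · -- a point of both balls and of the big ball
        have hq1' : dist q (p : E) < η p := hq1
        have hq2' : dist q (p' : E) < η p' := hq2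
        have hd : dist (p : E) (p' : E) < η p + η p' := by
          have := dist_triangle_left (p : E) (p' : E) q
          linarith
        obtain ⟨x, hx, hx1, hx2⟩ := exists_mem_segment_balls (hη p) (hη p') hd
        have hxc : x ∈ closedBall a R :=
          (convex_closedBall a R).segment_subset (sphere_subset_closedBall p.2)
            (sphere_subset_closedBall p'.2) hx
        -- move `x` slightly towards `a`
        have hcont : ContinuousAt (fun t : ℝ => AffineMap.lineMap x a t) (0:ℝ) := by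
          have : Continuous (fun t : ℝ => (AffineMap.lineMap x a : ℝ →ᵃ[ℝ] E) t) :=
            AffineMap.lineMap_continuous
          exact this.continuousAt
        have hev1 : ∀ᶠ t in 𝓝 (0:ℝ), (AffineMap.lineMap x a t : E) ∈ ball (p : E) (η p) := by
          apply hcont.eventually
          apply isOpen_ball.mem_nhds
          simpa using hx1
        have hev2 : ∀ᶠ t in 𝓝 (0:ℝ), (AffineMap.lineMap x a t : E) ∈ ball (p' : E) (η p') := by
          apply hcont.eventually
          apply isOpen_ball.mem_nhds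
          simpa using hx2
        have hev : ∀ᶠ t in 𝓝[>] (0:ℝ), (AffineMap.lineMap x a t : E) ∈ ball (p : E) (η p) ∧
            (AffineMap.lineMap x a t : E) ∈ ball (p' : E) (η p') ∧ t ∈ Ioo (0:ℝ) 1 := by
          filter_upwards [nhdsWithin_le_nhds hev1, nhdsWithin_le_nhds hev2,
            Ioo_mem_nhdsGT one_pos] with t h1 h2 h3 using ⟨h1, h2, h3⟩
        obtain ⟨t, h1, h2, h3⟩ := hev.exists
        have h4 : (AffineMap.lineMap x a t : E) ∈ ball a R := by
          rw [mem_ball, dist_lineMap_right, Real.norm_of_nonneg (by linarith [h3.2])]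
          have h5 : dist x a ≤ R := hxc
          calc (1 - t) * dist x a ≤ (1 - t) * R := by
                gcongr
                linarith [h3.2]
            _ < R := by nlinarith [h3.1]
        exact ⟨_, ⟨h1, h2⟩, (hEq p ⟨h1, h4⟩).trans (hEq p' ⟨h2, h4⟩).symm⟩)
  -- the union contains a larger ball
  have hopen : IsOpen (⋃ i, A i) := isOpen_iUnion fun i => by cases i <;> exact isOpen_ball
  have hsub : closedBall a R ⊆ ⋃ i, A i := by
    intro x hx
    rcases (mem_closedBall.1 hx).lt_or_eq with h1 | h1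
    · exact mem_iUnion.2 ⟨none, h1⟩
    · exact mem_iUnion.2 ⟨some ⟨x, h1⟩, mem_ball_self (hη _)⟩
  have : ProperSpace E := FiniteDimensional.proper_real E
  obtain ⟨δ, hδ, hδs⟩ := (isCompact_closedBall a R).exists_thickening_subset_open hopen hsub
  have hbig : ball a (R + δ) ⊆ ⋃ i, A i := by
    intro x hx
    apply hδs
    rw [mem_thickening_iff]
    rw [mem_ball] at hx
    rcases le_or_gt (dist x a) R with h1 | h1
    · exact ⟨x, h1, by simpa using hδ⟩
    · refine ⟨AffineMap.lineMap a x (R / dist x a), ?_, ?_⟩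
      · have h2 : 0 < dist x a := hpos.trans h1
        rw [mem_closedBall, dist_lineMap_left, Real.norm_of_nonneg (by positivity), dist_comm a x,
          div_mul_cancel₀ _ h2.ne']
      · have h2 : 0 < dist x a := hpos.trans h1
        rw [dist_comm, dist_lineMap_right, dist_comm a x,
          Real.norm_of_nonneg (by rw [sub_nonneg, div_le_one h2]; exact h1.le)]
        have : (1 - R / dist x a) * dist x a = dist x a - R := by field_simp
        rw [this]; linarith
  have hmem : R + δ ∈ radii π y := by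
    refine ⟨S, hS.mono hbig, ?_⟩
    rw [hS' none (mem_ball_self hpos)]
    exact hy
  have := le_csSup hb hmem
  change R + δ ≤ R at this
  linarith

end Vale.Agent.P253.R2.H922
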